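import Mathlib

open Set Filter Topology MeasureTheory intervalIntegral
open scoped NNReal Nat

set_option linter.unusedSectionVars false

namespace Vale.Agent.P072

section Flow

variable {E : Type*} [NormedAddCommGroup E] [NormedSpace ℝ E] [CompleteSpace E]

/-- The integral equation on `[0, T]`. -/
def IsIntSol (f : ℝ → E → E) (x : ℝ → E) (T : ℝ) : Prop :=
  ContinuousOn x (Icc 0 T) ∧ ∀ t ∈ Icc 0 T, x t = x 0 + ∫ s in (0:ℝ)..t, f s (x s)

variable {f : ℝ → E → E} {K : ℝ≥0}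

/-- Picard operator on `C([0,T], E)`. -/
noncomputable def picOp (f : ℝ → E → E)
    (hm : ∀ α : ℝ → E, Continuous α → ∀ a b, IntervalIntegrable (fun s => f s (α s)) volume a b)
    (x₀ : E) {T : ℝ} (hT : 0 ≤ T) (α : C(Icc (0:ℝ) T, E)) : C(Icc (0:ℝ) T, E) where
  toFun t := x₀ + ∫ s in (0:ℝ)..(t:ℝ), f s (IccExtend hT α s)
  continuous_toFun := by
    have h1 : Continuous (IccExtend hT α) := α.continuous.Icc_extend'
    have h2 : Continuous fun t : ℝ => ∫ s in (0:ℝ)..t, f s (IccExtend hT α s) :=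
      intervalIntegral.continuous_primitive (hm _ h1) 0
    exact continuous_const.add (h2.comp continuous_subtype_val)

variable (hL : ∀ t, LipschitzWith K (f t))
  (hm : ∀ α : ℝ → E, Continuous α → ∀ a b, IntervalIntegrable (fun s => f s (α s)) volume a b)

include hL in
lemma picOp_iterate (x₀ : E) {T : ℝ} (hT : 0 ≤ T) (α β : C(Icc (0:ℝ) T, E)) (n : ℕ) :
    ∀ t : Icc (0:ℝ) T, ‖((picOp f hm x₀ hT)^[n] α) t - ((picOp f hm x₀ hT)^[n] β) t‖ ≤
      (K * (t:ℝ)) ^ n / n ! * dist α β := by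
  induction n with
  | zero =>
    intro t
    simp only [Function.iterate_zero, id_eq, pow_zero, Nat.factorial_zero, Nat.cast_one, div_one,
      one_mul]
    rw [← dist_eq_norm]
    exact ContinuousMap.dist_apply_le_dist t
  | succ n ih =>
    intro t
    rw [Function.iterate_succ_apply', Function.iterate_succ_apply']
    set α' := (picOp f hm x₀ hT)^[n] α
    set β' := (picOp f hm x₀ hT)^[n] β
    have hα : Continuous (IccExtend hT α') := α'.continuous.Icc_extend'
    have hβ : Continuous (IccExtend hT β') := β'.continuous.Icc_extend'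
    have e : (picOp f hm x₀ hT α') t - (picOp f hm x₀ hT β') t =
        ∫ s in (0:ℝ)..(t:ℝ), (f s (IccExtend hT α' s) - f s (IccExtend hT β' s)) := by
      rw [intervalIntegral.integral_sub (hm _ hα _ _) (hm _ hβ _ _)]
      simp only [picOp, ContinuousMap.coe_mk]
      abel
    rw [e]
    have ht0 : (0:ℝ) ≤ t := t.2.1
    have hbound : ‖∫ s in (0:ℝ)..(t:ℝ), (f s (IccExtend hT α' s) - f s (IccExtend hT β' s))‖ ≤
        ∫ s in (0:ℝ)..(t:ℝ), (K:ℝ) ^ (n + 1) / n ! * dist α β * s ^ n := by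
      apply intervalIntegral.norm_integral_le_of_norm_le ht0
      · refine Eventually.of_forall fun s hs => ?_
        have hs0 : 0 ≤ s := hs.1.le
        have hsT : s ≤ T := hs.2.trans t.2.2
        have h1 := (hL s).norm_sub_le (IccExtend hT α' s) (IccExtend hT β' s)
        refine h1.trans ?_
        rw [IccExtend_of_mem hT α' ⟨hs0, hsT⟩, IccExtend_of_mem hT β' ⟨hs0, hsT⟩]
        have h2 := ih ⟨s, hs0, hsT⟩
        simp only at h2
        calc (K:ℝ) * ‖α' ⟨s, hs0, hsT⟩ - β' ⟨s, hs0, hsT⟩‖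
            ≤ K * ((K * s) ^ n / n ! * dist α β) := mul_le_mul_of_nonneg_left h2 K.2
          _ = _ := by rw [mul_pow, pow_succ]; ring
      · exact (by fun_prop : Continuous fun s : ℝ => (K:ℝ) ^ (n + 1) / n ! * dist α β * s ^ n).intervalIntegrable _ _
    refine hbound.trans (le_of_eq ?_)
    rw [intervalIntegral.integral_const_mul, integral_pow, Nat.factorial_succ]
    push_cast
    field_simp
    ring

include hL in
lemma exists_contracting (x₀ : E) {T : ℝ} (hT : 0 ≤ T) :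
    ∃ (n : ℕ) (C : ℝ≥0), ContractingWith C ((picOp f hm x₀ hT)^[n]) := by
  have hlim := FloorSemiring.tendsto_pow_div_factorial_atTop ((K:ℝ) * T)
  obtain ⟨n, hn⟩ := (hlim.eventually_lt_const (show (0:ℝ) < 1 / 2 by norm_num)).exists
  refine ⟨n, 1 / 2, by norm_num, LipschitzWith.of_dist_le_mul fun α β => ?_⟩
  rw [ContinuousMap.dist_le (by positivity)]
  intro t
  rw [dist_eq_norm]
  refine (picOp_iterate hL hm x₀ hT α β n t).trans ?_
  apply mul_le_mul_of_nonneg_right _ dist_nonneg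
  have : (K * (t:ℝ)) ^ n / n ! ≤ (K * T) ^ n / n ! := by
    have h1 : (t:ℝ) ≤ T := t.2.2
    have h0 : (0:ℝ) ≤ t := t.2.1
    gcongr
  simpa using this.trans hn.le

include hL hm in
/-- Existence on `[0,T]`. -/
lemma exists_intSol (x₀ : E) {T : ℝ} (hT : 0 ≤ T) :
    ∃ x : ℝ → E, Continuous x ∧ x 0 = x₀ ∧ IsIntSol f x T := by
  obtain ⟨n, C, hC⟩ := exists_contracting hL hm x₀ hT
  have : Nonempty (C(Icc (0:ℝ) T, E)) := ⟨ContinuousMap.const _ x₀⟩
  have hfix := hC.isFixedPt_fixedPoint_iterate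
  set α := ContractingWith.fixedPoint _ hC with hα
  have hc : Continuous (IccExtend hT α) := α.continuous.Icc_extend'
  have heq : ∀ t ∈ Icc (0:ℝ) T, IccExtend hT α t =
      x₀ + ∫ s in (0:ℝ)..t, f s (IccExtend hT α s) := by
    intro t ht
    have h1 := congrArg (fun β : C(Icc (0:ℝ) T, E) => β ⟨t, ht⟩) hfix
    rw [IccExtend_of_mem hT α ht]
    exact h1.symm
  have h0 : IccExtend hT α 0 = x₀ := by
    rw [heq 0 ⟨le_rfl, hT⟩]; simp
  refine ⟨IccExtend hT α, hc, h0, hc.continuousOn, fun t ht => ?_⟩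
  rw [h0]; exact heq t ht

include hL hm in
/-- Uniqueness on `[0,T]`. -/
lemma intSol_unique {x z : ℝ → E} {T : ℝ} (hx : IsIntSol f x T) (hz : IsIntSol f z T)
    (h0 : x 0 = z 0) : ∀ t ∈ Icc (0:ℝ) T, x t = z t := by
  rcases le_or_gt 0 T with hT | hT
  swap
  · intro t ht; exact absurd (ht.1.trans ht.2) (not_le.2 hT)
  obtain ⟨n, C, hC⟩ := exists_contracting hL hm (x 0) hT
  have hfix : ∀ y : ℝ → E, IsIntSol f y T → y 0 = x 0 →
      ∀ (hc : Continuous fun t : Icc (0:ℝ) T => y t),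
      Function.IsFixedPt (picOp f hm (x 0) hT) ⟨fun t : Icc (0:ℝ) T => y t, hc⟩ := by
    intro y hy hy0 hc
    ext t
    have h1 := hy.2 t t.2
    simp only [picOp, ContinuousMap.coe_mk]
    rw [h1, hy0]
    congr 1
    apply intervalIntegral.integral_congr
    intro s hs
    rw [uIcc_of_le t.2.1] at hs
    have hsT : s ∈ Icc (0:ℝ) T := ⟨hs.1, hs.2.trans t.2.2⟩
    simp only
    rw [IccExtend_of_mem hT _ hsT]
  have hcx : Continuous fun t : Icc (0:ℝ) T => x t := continuousOn_iff_continuous_domRestrict.1 hx.1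
  have hcz : Continuous fun t : Icc (0:ℝ) T => z t := continuousOn_iff_continuous_domRestrict.1 hz.1
  have h1 := (hfix x hx rfl hcx).iterate n
  have h2 := (hfix z hz h0.symm hcz).iterate n
  have h3 := hC.fixedPoint_unique' h1 h2
  intro t ht
  exact congrArg (fun β : C(Icc (0:ℝ) T, E) => β ⟨t, ht⟩) h3

lemma IsIntSol.mono {x : ℝ → E} {T T' : ℝ} (h : IsIntSol f x T) (hT : T' ≤ T) :
    IsIntSol f x T' :=
  ⟨h.1.mono (Icc_subset_Icc_right hT), fun t ht => h.2 t ⟨ht.1, ht.2.trans hT⟩⟩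

include hL hm in
/-- Global existence. -/
theorem exists_global (x₀ : E) :
    ∃ x : ℝ → E, x 0 = x₀ ∧ ∀ T, IsIntSol f x T := by
  have hex : ∀ n : ℕ, ∃ x : ℝ → E, Continuous x ∧ x 0 = x₀ ∧ IsIntSol f x n := fun n =>
    exists_intSol hL hm x₀ (Nat.cast_nonneg n)
  choose y hyc hy0 hy using hex
  have hag : ∀ m n : ℕ, m ≤ n → ∀ t ∈ Icc (0:ℝ) m, y m t = y n t := by
    intro m n hmn t ht
    exact intSol_unique hL hm (hy m) ((hy n).mono (by exact_mod_cast hmn))
      (by rw [hy0, hy0]) t ht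
  set x : ℝ → E := fun t => y (⌈t⌉₊) t with hx
  have hxy : ∀ n : ℕ, ∀ t ∈ Icc (0:ℝ) n, x t = y n t := by
    intro n t ht
    exact hag _ _ (Nat.ceil_le.2 ht.2) t ⟨ht.1, Nat.le_ceil t⟩
  have hx0 : x 0 = x₀ := by rw [hxy 0 0 (by simp), hy0]
  refine ⟨x, hx0, fun T => ?_⟩
  obtain ⟨n, hn⟩ := exists_nat_ge T
  have h1 := (hy n).mono hn
  have hsub : ∀ t ∈ Icc (0:ℝ) T, x t = y n t := fun t ht => hxy n t ⟨ht.1, ht.2.trans hn⟩
  refine ⟨h1.1.congr hsub, fun t ht => ?_⟩
  rw [hsub t ht, h1.2 t ht, hy0, hx0]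
  congr 1
  apply intervalIntegral.integral_congr
  intro s hs
  rw [uIcc_of_le ht.1] at hs
  simp only
  rw [hsub s ⟨hs.1, hs.2.trans ht.2⟩]

end Flow

end Vale.Agent.P072
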