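import Vale.Agent.P072.Edges
import Vale.Agent.P072.Flow

open Real Set Filter Topology MeasureTheory intervalIntegral
open scoped InnerProductSpace RealInnerProductSpace

namespace Vale.Agent.P072

set_option linter.unusedSectionVars false

section Barrier

variable {E : Type*} [NormedAddCommGroup E] [InnerProductSpace ℝ E] [CompleteSpace E]
  {M : Type*} [TopologicalSpace M]

/-- A trajectory of the inclusion `x' ∈ X(B, x)` on `[t₀, t₁]`. -/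
structure IsTraj (X : M → E → E) (B : Set M) (x : ℝ → E) (t₀ t₁ : ℝ) : Prop where
  cont : ContinuousOn x (Icc t₀ t₁)
  exists_vel : ∃ w : ℝ → E, (∀ s ∈ Icc t₀ t₁, ∃ κ ∈ B, w s = X κ (x s)) ∧
    ∀ t ∈ Icc t₀ t₁, ∀ t' ∈ Icc t₀ t₁, t ≤ t' →
      IntervalIntegrable w volume t t' ∧ x t' = x t + ∫ s in t..t', w s

lemma IsTraj.sub {X : M → E → E} {B : Set M} {x : ℝ → E} {t₀ t₁ : ℝ} (h : IsTraj X B x t₀ t₁)
    {s₀ s₁ : ℝ} (h0 : t₀ ≤ s₀) (h1 : s₁ ≤ t₁) : IsTraj X B x s₀ s₁ := by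
  have hsub : Icc s₀ s₁ ⊆ Icc t₀ t₁ := Icc_subset_Icc h0 h1
  obtain ⟨w, hw, hw'⟩ := h.exists_vel
  exact ⟨h.cont.mono hsub, w, fun s hs => hw s (hsub hs),
    fun t ht t' ht' htt => hw' t (hsub ht) t' (hsub ht') htt⟩

/-- Barrier lemma with moving heights. -/
lemma barrier {X : M → E → E} (hX : Continuous (fun p : M × E => X p.1 p.2)) {B : Set M}
    (hB : IsCompact B) {x : ℝ → E} {t₀ t₁ : ℝ} (hx : IsTraj X B x t₀ t₁) (N : Finset E)
    (b : E → ℝ → ℝ) {e : ℝ}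
    (hb : ∀ n ∈ N, ContinuousOn (b n) (Icc t₀ t₁))
    (hbe : ∀ n ∈ N, ∀ t ∈ Icc t₀ t₁, ∀ t' ∈ Icc t₀ t₁, t ≤ t' → b n t ≤ b n t' + e * (t' - t))
    (h0 : ∀ n ∈ N, ⟪n, x t₀⟫_ℝ ≤ b n t₀)
    (hin : ∀ t ∈ Icc t₀ t₁, ∀ a : E, (∀ m ∈ N, ⟪m, a⟫_ℝ ≤ b m t) → ∀ n ∈ N,
      ⟪n, a⟫_ℝ = b n t → ∀ κ ∈ B, ⟪n, X κ a⟫_ℝ < - e) :
    ∀ t ∈ Icc t₀ t₁, ∀ n ∈ N, ⟪n, x t⟫_ℝ ≤ b n t := by
  obtain ⟨w, hw, hw'⟩ := hx.exists_vel
  set A : Set ℝ := {t | ∀ n ∈ N, ⟪n, x t⟫_ℝ ≤ b n t} with hA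
  have hclosed : IsClosed (A ∩ Icc t₀ t₁) := by
    rcases N.eq_empty_or_nonempty with hN | hN
    · have : A ∩ Icc t₀ t₁ = Icc t₀ t₁ := by
        ext t; simp [hA, hN]
      rw [this]; exact isClosed_Icc
    · have : A ∩ Icc t₀ t₁ = ⋂ n ∈ N, {t | t ∈ Icc t₀ t₁ ∧ ⟪n, x t⟫_ℝ ≤ b n t} := by
        ext t
        simp only [hA, mem_inter_iff, mem_ofPred_eq, mem_iInter]
        constructor
        · rintro ⟨h1, h2⟩ n hn; exact ⟨h2, h1 n hn⟩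
        · intro h
          obtain ⟨n, hn⟩ := hN
          exact ⟨fun m hm => (h m hm).2, (h n hn).1⟩
      rw [this]
      refine isClosed_biInter fun n hn => ?_
      exact isClosed_Icc.isClosed_le (continuousOn_const.inner hx.cont) (hb n hn)
  intro t ht
  have hle : t₀ ≤ t₁ := ht.1.trans ht.2
  have key : Icc t₀ t₁ ⊆ A := by
    refine IsClosed.Icc_subset_of_forall_mem_nhdsWithin hclosed h0 ?_
    rintro s ⟨hsA, hs⟩
    have hs' : s ∈ Icc t₀ t₁ := ⟨hs.1, hs.2.le⟩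
    have hnhds : Icc s t₁ ∈ 𝓝[>] s := by
      have : Icc s t₁ ∈ 𝓝[≥] s := Icc_mem_nhdsGE hs.2
      exact nhdsWithin_mono _ Ioi_subset_Ici_self this
    have hcx : Tendsto x (𝓝[>] s) (𝓝 (x s)) := by
      have h1 := (hx.cont s hs')
      have h2 : 𝓝[>] s ≤ 𝓝[Icc t₀ t₁] s := by
        refine nhdsWithin_le_iff.2 ?_
        filter_upwards [hnhds] with r hr
        exact ⟨hs.1.trans hr.1, hr.2⟩
      exact h1.mono_left h2
    have : ∀ᶠ s' in 𝓝[>] s, ∀ n ∈ N, ⟪n, x s'⟫_ℝ ≤ b n s' := by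
      rw [Filter.eventually_all_finset]
      intro n hn
      rcases (hsA n hn).lt_or_eq with hlt | heq
      · have hcb : Tendsto (b n) (𝓝[>] s) (𝓝 (b n s)) := by
          have h1 := (hb n hn s hs')
          have h2 : 𝓝[>] s ≤ 𝓝[Icc t₀ t₁] s := by
            refine nhdsWithin_le_iff.2 ?_
            filter_upwards [hnhds] with r hr
            exact ⟨hs.1.trans hr.1, hr.2⟩
          exact h1.mono_left h2
        have hcx' : Tendsto (fun r => ⟪n, x r⟫_ℝ) (𝓝[>] s) (𝓝 ⟪n, x s⟫_ℝ) :=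
          tendsto_const_nhds.inner hcx
        filter_upwards [hcx'.eventually_lt hcb hlt] with r hr
        exact hr.le
      · have hU : ∀ᶠ a in 𝓝 (x s), ∀ κ ∈ B, ⟪n, X κ a⟫_ℝ < - e := by
          apply hB.eventually_forall_of_forall_eventually
          intro κ hκ
          have hc : Continuous fun z : E × M => ⟪n, X z.2 z.1⟫_ℝ :=
            continuous_const.inner (hX.comp continuous_swap)
          have h5 : ∀ᶠ z : E × M in 𝓝 (x s, κ), ⟪n, X z.2 z.1⟫_ℝ < - e :=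
            (hc.tendsto (x s, κ)).eventually_lt_const (hin s hs' (x s) hsA n hn heq κ hκ)
          exact h5
        have hU' := hcx.eventually hU
        obtain ⟨u, hu, hu'⟩ := (mem_nhdsGT_iff_exists_Ioc_subset).1 (hU'.and hnhds)
        have hmem : Ioc s u ∈ 𝓝[>] s := Ioc_mem_nhdsGT hu
        filter_upwards [hmem] with r hr
        have hr' : r ∈ Icc t₀ t₁ := ⟨hs.1.trans hr.1.le, ((hu' hr).2).2⟩
        obtain ⟨hint, hxr⟩ := hw' s hs' r hr' hr.1.le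
        have h2 : ⟪n, x r⟫_ℝ = ⟪n, x s⟫_ℝ + ∫ q in s..r, ⟪n, w q⟫_ℝ := by
          rw [hxr, inner_add_right]
          congr 1
          have := (innerSL ℝ n).intervalIntegral_comp_comm hint
          simpa using this.symm
        have h3 : ∫ q in s..r, ⟪n, w q⟫_ℝ ≤ ∫ q in s..r, (-e : ℝ) := by
          apply intervalIntegral.integral_mono_on_of_le_Ioo hr.1.le
          · exact ⟨(innerSL ℝ n).integrable_comp hint.1, (innerSL ℝ n).integrable_comp hint.2⟩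
          · exact intervalIntegrable_const
          · intro q hq
            have hq' : q ∈ Ioc s u := ⟨hq.1, hq.2.le.trans hr.2⟩
            have h4 := (hu' hq').1
            obtain ⟨κ, hκ, hwq⟩ := hw q ⟨hs.1.trans hq.1.le, hq.2.le.trans hr'.2⟩
            rw [hwq]
            exact (h4 κ hκ).le
        rw [intervalIntegral.integral_const, smul_eq_mul] at h3
        have h4 := hbe n hn s hs' r hr' hr.1.le
        rw [h2, heq]
        nlinarith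
    exact this
  exact key ht

/-- Moving through a monotone Lipschitz family of polygons. -/
lemma stage {X : M → E → E} (hX : Continuous (fun p : M × E => X p.1 p.2)) {B : Set M}
    (hB : IsCompact B) (N : Finset E) (hgt : E → ℝ → ℝ) {ℓ L : ℝ} (hℓ : 0 ≤ ℓ) (hL : 0 ≤ L)
    (hmono : ∀ n ∈ N, ∀ s s', 0 ≤ s → s ≤ s' → s' ≤ ℓ →
      hgt n s' ≤ hgt n s ∧ hgt n s ≤ hgt n s' + L * (s' - s))
    (hcpt : IsCompact {a : E | ∀ n ∈ N, ⟪n, a⟫_ℝ ≤ hgt n 0})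
    (hin : ∀ s, 0 ≤ s → s ≤ ℓ → ∀ a : E, (∀ m ∈ N, ⟪m, a⟫_ℝ ≤ hgt m s) → ∀ n ∈ N,
      ⟪n, a⟫_ℝ = hgt n s → ∀ κ ∈ B, ⟪n, X κ a⟫_ℝ < 0) :
    ∃ T : ℝ, 0 ≤ T ∧ ∀ (X' : M → E → E), Continuous (fun p : M × E => X' p.1 p.2) →
      (∀ κ ∈ B, ∀ a : E, (∀ n ∈ N, ⟪n, a⟫_ℝ ≤ hgt n 0) → X' κ a = X κ a) →
      ∀ (x : ℝ → E) (t₀ t₁ : ℝ), IsTraj X' B x t₀ t₁ →
      (∀ n ∈ N, ⟪n, x t₀⟫_ℝ ≤ hgt n 0) →
      (∀ t ∈ Icc t₀ t₁, ∀ n ∈ N, ⟪n, x t⟫_ℝ ≤ hgt n 0) ∧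
      (∀ t ∈ Icc t₀ t₁, t₀ + T ≤ t → ∀ n ∈ N, ⟪n, x t⟫_ℝ ≤ hgt n ℓ) := by
  classical
  have hcont : ∀ n ∈ N, ContinuousOn (hgt n) (Icc 0 ℓ) := by
    intro n hn
    have : LipschitzOnWith (Real.toNNReal L) (hgt n) (Icc 0 ℓ) := by
      apply LipschitzOnWith.of_dist_le_mul
      intro s hs s' hs'
      rw [Real.coe_toNNReal _ hL, Real.dist_eq, Real.dist_eq]
      rcases le_total s s' with h | h
      · obtain ⟨h1, h2⟩ := hmono n hn s s' hs.1 h hs'.2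
        rw [abs_of_nonneg (by linarith), abs_of_nonpos (by linarith)]
        linarith
      · obtain ⟨h1, h2⟩ := hmono n hn s' s hs'.1 h hs.2
        rw [abs_of_nonpos (by linarith), abs_of_nonneg (by linarith)]
        linarith
    exact this.continuousOn
  -- uniform strictness
  have hδ : ∃ δ : ℝ, 0 < δ ∧ ∀ s, 0 ≤ s → s ≤ ℓ → ∀ a : E, (∀ m ∈ N, ⟪m, a⟫_ℝ ≤ hgt m s) →
      ∀ n ∈ N, ⟪n, a⟫_ℝ = hgt n s → ∀ κ ∈ B, ⟪n, X κ a⟫_ℝ < - δ := by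
    have hone : ∀ n ∈ N, ∃ δ : ℝ, 0 < δ ∧ ∀ s, 0 ≤ s → s ≤ ℓ → ∀ a : E,
        (∀ m ∈ N, ⟪m, a⟫_ℝ ≤ hgt m s) → ⟪n, a⟫_ℝ = hgt n s → ∀ κ ∈ B, ⟪n, X κ a⟫_ℝ < - δ := by
      intro n hn
      set Z : Set (ℝ × E × M) := {z | z.1 ∈ Icc 0 ℓ ∧ (∀ m ∈ N, ⟪m, z.2.1⟫_ℝ ≤ hgt m z.1) ∧
        ⟪n, z.2.1⟫_ℝ = hgt n z.1 ∧ z.2.2 ∈ B} with hZ
      have hZc : IsCompact Z := by
        have hbig : IsCompact (Icc (0:ℝ) ℓ ×ˢ ({a : E | ∀ n ∈ N, ⟪n, a⟫_ℝ ≤ hgt n 0} ×ˢ B)) :=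
          isCompact_Icc.prod (hcpt.prod hB)
        have hZe : Z = (Icc (0:ℝ) ℓ ×ˢ ({a : E | ∀ n ∈ N, ⟪n, a⟫_ℝ ≤ hgt n 0} ×ˢ B)) ∩
            {z | z.1 ∈ Icc 0 ℓ ∧ (∀ m ∈ N, ⟪m, z.2.1⟫_ℝ ≤ hgt m z.1) ∧
              ⟪n, z.2.1⟫_ℝ = hgt n z.1} := by
          ext z
          simp only [hZ, mem_ofPred_eq, mem_inter_iff, mem_prod]
          constructor
          · rintro ⟨h1, h2, h3, h4⟩
            refine ⟨⟨h1, fun m hm => (h2 m hm).trans (hmono m hm 0 z.1 le_rfl h1.1 h1.2).1, h4⟩,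
              h1, h2, h3⟩
          · rintro ⟨⟨-, -, h4⟩, h1, h2, h3⟩
            exact ⟨h1, h2, h3, h4⟩
        rw [hZe]
        refine hbig.inter_right ?_
        set W : Set (ℝ × E × M) := {z | z.1 ∈ Icc 0 ℓ} with hW
        have hWc : IsClosed W := isClosed_Icc.preimage continuous_fst
        have hhc : ∀ m ∈ N, ContinuousOn (fun z : ℝ × E × M => hgt m z.1) W := fun m hm =>
          (hcont m hm).comp continuousOn_fst (fun z hz => hz)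
        have hic : ∀ m : E, ContinuousOn (fun z : ℝ × E × M => ⟪m, z.2.1⟫_ℝ) W := fun m => by
          fun_prop
        have e1 : {z : ℝ × E × M | z.1 ∈ Icc 0 ℓ ∧ (∀ m ∈ N, ⟪m, z.2.1⟫_ℝ ≤ hgt m z.1) ∧
              ⟪n, z.2.1⟫_ℝ = hgt n z.1} =
            (⋂ m ∈ N, {z | z ∈ W ∧ ⟪m, z.2.1⟫_ℝ ≤ hgt m z.1}) ∩
              {z | z ∈ W ∧ hgt n z.1 ≤ ⟪n, z.2.1⟫_ℝ} := by
          ext z
          simp only [mem_ofPred_eq, mem_inter_iff, mem_iInter]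
          constructor
          · rintro ⟨h1, h2, h3⟩
            exact ⟨fun m hm => ⟨h1, h2 m hm⟩, h1, h3.ge⟩
          · rintro ⟨h1, h2, h3⟩
            exact ⟨h2, fun m hm => (h1 m hm).2, le_antisymm (h1 n hn).2 h3⟩
        rw [e1]
        refine IsClosed.inter (isClosed_biInter fun m hm => ?_) ?_
        · exact hWc.isClosed_le (hic m) (hhc m hm)
        · exact hWc.isClosed_le (hhc n hn) (hic n)
      rcases Z.eq_empty_or_nonempty with hZ0 | hZ0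
      · refine ⟨1, one_pos, fun s hs0 hsℓ a ha han κ hκ => ?_⟩
        have : ((s, a, κ) : ℝ × E × M) ∈ Z := ⟨⟨hs0, hsℓ⟩, ha, han, hκ⟩
        rw [hZ0] at this
        exact absurd this (notMem_empty _)
      · have hfc : Continuous fun z : ℝ × E × M => ⟪n, X z.2.2 z.2.1⟫_ℝ :=
          continuous_const.inner (hX.comp (by fun_prop : Continuous fun z : ℝ × E × M =>
            ((z.2.2, z.2.1) : M × E)))
        obtain ⟨z₀, hz₀, hmax⟩ := hZc.exists_isMaxOn hZ0 hfc.continuousOn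
        have hneg : ⟪n, X z₀.2.2 z₀.2.1⟫_ℝ < 0 :=
          hin z₀.1 hz₀.1.1 hz₀.1.2 z₀.2.1 hz₀.2.1 n hn hz₀.2.2.1 _ hz₀.2.2.2
        refine ⟨-⟪n, X z₀.2.2 z₀.2.1⟫_ℝ / 2, by linarith, fun s hs0 hsℓ a ha han κ hκ => ?_⟩
        have h1 : ((s, a, κ) : ℝ × E × M) ∈ Z := ⟨⟨hs0, hsℓ⟩, ha, han, hκ⟩
        have h2 := hmax h1
        simp only [mem_ofPred_eq] at h2
        linarith
    have hall : ∀ᶠ δ in 𝓝[>] (0:ℝ), ∀ n ∈ N, ∀ s, 0 ≤ s → s ≤ ℓ → ∀ a : E,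
        (∀ m ∈ N, ⟪m, a⟫_ℝ ≤ hgt m s) → ⟪n, a⟫_ℝ = hgt n s → ∀ κ ∈ B, ⟪n, X κ a⟫_ℝ < - δ := by
      rw [Filter.eventually_all_finset]
      intro n hn
      obtain ⟨δ, hδ, h⟩ := hone n hn
      filter_upwards [Ioo_mem_nhdsGT hδ] with r hr s hs0 hsℓ a ha han κ hκ
      have := h s hs0 hsℓ a ha han κ hκ
      linarith [hr.2]
    obtain ⟨δ, h1, h2⟩ := (hall.and self_mem_nhdsWithin).exists
    exact ⟨δ, h2, fun s hs0 hsℓ a ha n hn => h1 n hn s hs0 hsℓ a ha⟩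
  obtain ⟨δ, hδ0, hδ⟩ := hδ
  set v : ℝ := δ / (L + 1) with hv
  have hv0 : 0 < v := by positivity
  have hvL : L * v ≤ δ := by
    rw [hv, mul_div_assoc', div_le_iff₀ (by linarith)]
    nlinarith
  refine ⟨ℓ / v, by positivity, fun X' hX' hXX x t₀ t₁ hx hx0 => ?_⟩
  -- parameter path
  set σ : ℝ → ℝ := fun t => min ℓ (max 0 (v * (t - t₀))) with hσ
  have hσ0 : ∀ t, 0 ≤ σ t := fun t => le_min hℓ (le_max_left _ _)
  have hσℓ : ∀ t, σ t ≤ ℓ := fun t => min_le_left _ _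
  have hσmono : ∀ t t', t ≤ t' → σ t ≤ σ t' := fun t t' h =>
    min_le_min le_rfl (max_le_max le_rfl (by nlinarith))
  have hσlip : ∀ t t', t ≤ t' → σ t' ≤ σ t + v * (t' - t) := by
    intro t t' h
    have h0 : 0 ≤ v * (t' - t) := mul_nonneg hv0.le (by linarith)
    simp only [hσ]
    rw [← min_add_add_right, ← max_add_add_right]
    refine min_le_min (by linarith) (max_le_max (by linarith) (by linarith))
  have hσcont : Continuous σ := by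
    simp only [hσ]; fun_prop
  have hbar := barrier hX' hB hx N (fun n t => hgt n (σ t)) (e := δ)
    (fun n hn => (hcont n hn).comp hσcont.continuousOn fun t _ => ⟨hσ0 t, hσℓ t⟩)
    (by
      intro n hn t _ t' _ htt
      have h1 := (hmono n hn (σ t) (σ t') (hσ0 t) (hσmono t t' htt) (hσℓ t')).2
      have h2 := hσlip t t' htt
      have h3 : L * (σ t' - σ t) ≤ L * (v * (t' - t)) := mul_le_mul_of_nonneg_left (by linarith) hL
      have h4 : L * (v * (t' - t)) ≤ δ * (t' - t) := by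
        rw [← mul_assoc]; exact mul_le_mul_of_nonneg_right hvL (by linarith)
      linarith)
    (by
      intro n hn
      have : σ t₀ = 0 := by simp [hσ, hℓ]
      simp only [this]
      exact hx0 n hn)
    (by
      intro t _ a ha n hn han κ hκ
      rw [hXX κ hκ a fun m hm => (ha m hm).trans (hmono m hm 0 (σ t) le_rfl (hσ0 t) (hσℓ t)).1]
      exact hδ (σ t) (hσ0 t) (hσℓ t) a ha n hn han κ hκ)
  refine ⟨fun t ht n hn => ?_, fun t ht htT n hn => ?_⟩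
  · exact (hbar t ht n hn).trans (hmono n hn 0 (σ t) le_rfl (hσ0 t) (hσℓ t)).1
  · have h1 := hbar t ht n hn
    have h2 : σ t = ℓ := by
      simp only [hσ]
      apply min_eq_left
      apply le_max_of_le_right
      have : ℓ / v ≤ t - t₀ := by linarith
      rw [div_le_iff₀ hv0] at this
      linarith
    simp only [h2] at h1
    exact h1

end Barrier

section Absorb

variable {E : Type*} [NormedAddCommGroup E] [InnerProductSpace ℝ E] [FiniteDimensional ℝ E]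
  {ι : Type*} [Fintype ι] {M : Type*} [TopologicalSpace M]

/-- Uniform absorbing compact set for the inclusion, from the inward condition. -/
theorem Sys.absorb (S : Sys E ι) (hdim : Module.finrank ℝ E ≤ 2) {V N : Finset E}
    (hN : IsNormals S V N) (hVs : ∀ v ∈ V, -v ∈ V)
    (hsp : ∀ a : E, (∀ v ∈ V, ⟪v, a⟫_ℝ = 0) → a = 0) {C : ℝ} (hC : 0 < C)
    {X : M → E → E} (hX : Continuous (fun p : M × E => X p.1 p.2)) {B : Set M}
    (hB : IsCompact B)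
    (hin : ∀ n ∈ N, ∀ a ∈ S.P, (∀ v ∈ V, 0 < ⟪n, v⟫_ℝ → C ≤ ⟪S.Th a, v⟫_ℝ) →
      ∀ κ ∈ B, ⟪n, X κ a⟫_ℝ < 0) :
    ∃ K : Set E, IsCompact K ∧ K ⊆ S.P ∧ ∀ a₀ ∈ S.P, ∃ K₁ : Set E, IsCompact K₁ ∧ K₁ ⊆ S.P ∧
      a₀ ∈ K₁ ∧ ∃ T : ℝ, 0 ≤ T ∧ ∀ (X' : M → E → E), Continuous (fun p : M × E => X' p.1 p.2) →
      (∀ κ ∈ B, ∀ a ∈ K₁, X' κ a = X κ a) →
      ∀ (x : ℝ → E) (t₁ : ℝ), IsTraj X' B x 0 t₁ → x 0 = a₀ →
        (∀ t ∈ Icc 0 t₁, x t ∈ K₁) ∧ (∀ t ∈ Icc 0 t₁, T ≤ t → x t ∈ K) := by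
  classical
  obtain ⟨U₀, hadm, hfac⟩ := S.facets hdim hN hVs hsp hC
  obtain ⟨η₀, hη₀, hf₀⟩ := hfac U₀ le_rfl
  refine ⟨S.Q N U₀ η₀, S.isCompact_Q hN hVs hsp (hadm U₀ le_rfl) hη₀,
    S.Q_subset_P hN (hadm U₀ le_rfl) hη₀, fun a₀ ha₀ => ?_⟩
  obtain ⟨η₂, hη₂, hev⟩ := S.mem_Q_of_large hN ha₀
  obtain ⟨u₁, hu₁, hu₁U⟩ := (hev.and (eventually_ge_atTop U₀)).exists
  obtain ⟨η₃, hη₃, hf₁⟩ := hfac u₁ hu₁U
  set η : ℝ := min η₀ (min η₂ η₃) with hη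
  have hη0 : 0 < η := lt_min hη₀ (lt_min hη₂ hη₃)
  have hηη₀ : η ≤ η₀ := min_le_left _ _
  have hηη₂ : η ≤ η₂ := (min_le_right _ _).trans (min_le_left _ _)
  have hηη₃ : η ≤ η₃ := (min_le_right _ _).trans (min_le_right _ _)
  obtain ⟨L, hL, hlip⟩ := S.height_lip hN (u₁ := u₁) (hadm U₀ le_rfl) η
  have hK₁c := S.isCompact_Q hN hVs hsp (hadm u₁ hu₁U) hη0
  have hK₁P := S.Q_subset_P hN (hadm u₁ hu₁U) hη0
  -- stage 1
  obtain ⟨T₁, hT₁, h1⟩ := stage hX hB N (fun n s => S.height n (u₁ - s) η)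
    (ℓ := u₁ - U₀) (L := L) (by linarith) hL
    (by
      intro n hn s s' hs hss hs'
      have := hlip n hn (u₁ - s') (u₁ - s) (by linarith) (by linarith) (by linarith)
      refine ⟨this.1, this.2.trans (le_of_eq (by ring))⟩)
    (by simpa [Sys.Q] using hK₁c)
    (by
      intro s hs hsℓ a ha n hn han κ hκ
      have hu : U₀ ≤ u₁ - s := by linarith
      refine hin n hn a (S.Q_subset_P hN (hadm _ hu) hη0 ha) ?_ κ hκ
      exact hf₁ (u₁ - s) hu (by linarith) η hη0 hηη₃ n hn a ha han)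
  -- stage 2
  obtain ⟨T₂, hT₂, h2⟩ := stage hX hB N (fun n s => S.height n U₀ (η + s))
    (ℓ := η₀ - η) (L := 1) (by linarith) zero_le_one
    (by
      intro n hn s s' hs hss hs'
      have := S.height_eta n U₀ (show η + s ≤ η + s' by linarith)
      refine ⟨this.1, this.2.trans (le_of_eq (by ring))⟩)
    (by simpa [Sys.Q] using S.isCompact_Q hN hVs hsp (hadm U₀ le_rfl) hη0)
    (by
      intro s hs hsℓ a ha n hn han κ hκ
      refine hin n hn a (S.Q_subset_P hN (hadm _ le_rfl) (by linarith) ha) ?_ κ hκ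
      exact hf₀ U₀ le_rfl le_rfl (η + s) (by linarith) (by linarith) n hn a ha han)
  refine ⟨S.Q N u₁ η, hK₁c, hK₁P, hu₁ η hηη₂, T₁ + T₂, by linarith,
    fun X' hX' hXX x t₁ hx hx0 => ?_⟩
  have hx0' : ∀ n ∈ N, ⟪n, x 0⟫_ℝ ≤ S.height n (u₁ - 0) η := by
    rw [hx0, sub_zero]
    exact hu₁ η hηη₂
  obtain ⟨h3, h4⟩ := h1 X' hX' (fun κ hκ a ha => hXX κ hκ a (by simpa [Sys.Q] using ha))
    x 0 t₁ hx hx0'
  refine ⟨fun t ht n hn => by simpa using h3 t ht n hn, fun t ht htT => ?_⟩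
  have hT₁t : T₁ ∈ Icc 0 t₁ := ⟨hT₁, by linarith [ht.2]⟩
  have h5 : ∀ n ∈ N, ⟪n, x T₁⟫_ℝ ≤ S.height n U₀ (η + 0) := by
    intro n hn
    have := h4 T₁ hT₁t (by linarith) n hn
    simpa using this
  obtain ⟨-, h6⟩ := h2 X' hX' (fun κ hκ a ha => hXX κ hκ a (fun n hn => by
      have h7 := ha n hn
      simp only [add_zero] at h7
      refine h7.trans ?_
      have h8 := hlip n hn U₀ u₁ le_rfl hu₁U le_rfl
      exact h8.1))
    x T₁ t₁ (hx.sub hT₁ le_rfl) h5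
  intro n hn
  have := h6 t ⟨by linarith, ht.2⟩ (by linarith) n hn
  simpa using this

end Absorb

end Vale.Agent.P072
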