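import Vale.Agent.P072.Barrier

open Real Set Filter Topology MeasureTheory intervalIntegral
open scoped InnerProductSpace RealInnerProductSpace

namespace Vale.Agent.P072

set_option linter.unusedSectionVars false

section Barrier

variable {E : Type*} [NormedAddCommGroup E] [InnerProductSpace ℝ E] [CompleteSpace E]
  {M : Type*} [TopologicalSpace M] {J : Type} [Finite J]

/-- Barrier lemma with moving heights. -/
lemma barrierJ {X : M → E → E} (hX : Continuous (fun p : M × E => X p.1 p.2)) {B : Set M}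
    (hB : IsCompact B) {x : ℝ → E} {t₀ t₁ : ℝ} (hx : IsTraj X B x t₀ t₁) (ν : J → E)
    (b : J → ℝ → ℝ) {e : ℝ}
    (hb : ∀ n : J, ContinuousOn (b n) (Icc t₀ t₁))
    (hbe : ∀ n : J, ∀ t ∈ Icc t₀ t₁, ∀ t' ∈ Icc t₀ t₁, t ≤ t' → b n t ≤ b n t' + e * (t' - t))
    (h0 : ∀ n : J, ⟪ν n, x t₀⟫_ℝ ≤ b n t₀)
    (hin : ∀ t ∈ Icc t₀ t₁, ∀ a : E, (∀ m : J, ⟪ν m, a⟫_ℝ ≤ b m t) → ∀ n : J,
      ⟪ν n, a⟫_ℝ = b n t → ∀ κ ∈ B, ⟪ν n, X κ a⟫_ℝ < - e) :
    ∀ t ∈ Icc t₀ t₁, ∀ n : J, ⟪ν n, x t⟫_ℝ ≤ b n t := by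
  obtain ⟨w, hw, hw'⟩ := hx.exists_vel
  set A : Set ℝ := {t | ∀ n : J, ⟪ν n, x t⟫_ℝ ≤ b n t} with hA
  have hclosed : IsClosed (A ∩ Icc t₀ t₁) := by
    rcases isEmpty_or_nonempty J with hN | hN
    · have : A ∩ Icc t₀ t₁ = Icc t₀ t₁ := by
        ext t; simp [hA]
      rw [this]; exact isClosed_Icc
    · have : A ∩ Icc t₀ t₁ = ⋂ n : J, {t | t ∈ Icc t₀ t₁ ∧ ⟪ν n, x t⟫_ℝ ≤ b n t} := by
        ext t
        simp only [hA, mem_inter_iff, mem_ofPred_eq, mem_iInter]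
        constructor
        · rintro ⟨h1, h2⟩ n; exact ⟨h2, h1 n⟩
        · intro h
          obtain ⟨n⟩ := hN
          exact ⟨fun m => (h m).2, (h n).1⟩
      rw [this]
      refine isClosed_iInter fun n => ?_
      exact isClosed_Icc.isClosed_le (continuousOn_const.inner hx.cont) (hb n)
  intro t ht
  have hle : t₀ ≤ t₁ := ht.1.trans ht.2
  have key : Icc t₀ t₁ ⊆ A := by
    refine IsClosed.Icc_subset_of_forall_mem_nhdsWithin hclosed h0 ?_
    rintro s ⟨hsA, hs⟩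
    have hs' : s ∈ Icc t₀ t₁ := ⟨hs.1, hs.2.le⟩
    have hnhds : Icc s t₁ ∈ 𝓝[>] s := by
      have : Icc s t₁ ∈ 𝓝[≥] s := Icc_mem_nhdsGE hs.2
      exact nhdsWithin_mono _ Ioi_subset_Ici_self this
    have hcx : Tendsto x (𝓝[>] s) (𝓝 (x s)) := by
      have h1 := (hx.cont s hs')
      have h2 : 𝓝[>] s ≤ 𝓝[Icc t₀ t₁] s := by
        refine nhdsWithin_le_iff.2 ?_
        filter_upwards [hnhds] with r hr
        exact ⟨hs.1.trans hr.1, hr.2⟩
      exact h1.mono_left h2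
    have : ∀ᶠ s' in 𝓝[>] s, ∀ n : J, ⟪ν n, x s'⟫_ℝ ≤ b n s' := by
      rw [Filter.eventually_all]
      intro n
      rcases (hsA n).lt_or_eq with hlt | heq
      · have hcb : Tendsto (b n) (𝓝[>] s) (𝓝 (b n s)) := by
          have h1 := (hb n s hs')
          have h2 : 𝓝[>] s ≤ 𝓝[Icc t₀ t₁] s := by
            refine nhdsWithin_le_iff.2 ?_
            filter_upwards [hnhds] with r hr
            exact ⟨hs.1.trans hr.1, hr.2⟩
          exact h1.mono_left h2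
        have hcx' : Tendsto (fun r => ⟪ν n, x r⟫_ℝ) (𝓝[>] s) (𝓝 ⟪ν n, x s⟫_ℝ) :=
          tendsto_const_nhds.inner hcx
        filter_upwards [hcx'.eventually_lt hcb hlt] with r hr
        exact hr.le
      · have hU : ∀ᶠ a in 𝓝 (x s), ∀ κ ∈ B, ⟪ν n, X κ a⟫_ℝ < - e := by
          apply hB.eventually_forall_of_forall_eventually
          intro κ hκ
          have hc : Continuous fun z : E × M => ⟪ν n, X z.2 z.1⟫_ℝ :=
            continuous_const.inner (hX.comp continuous_swap)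
          have h5 : ∀ᶠ z : E × M in 𝓝 (x s, κ), ⟪ν n, X z.2 z.1⟫_ℝ < - e :=
            (hc.tendsto (x s, κ)).eventually_lt_const (hin s hs' (x s) hsA n heq κ hκ)
          exact h5
        have hU' := hcx.eventually hU
        obtain ⟨u, hu, hu'⟩ := (mem_nhdsGT_iff_exists_Ioc_subset).1 (hU'.and hnhds)
        have hmem : Ioc s u ∈ 𝓝[>] s := Ioc_mem_nhdsGT hu
        filter_upwards [hmem] with r hr
        have hr' : r ∈ Icc t₀ t₁ := ⟨hs.1.trans hr.1.le, ((hu' hr).2).2⟩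
        obtain ⟨hint, hxr⟩ := hw' s hs' r hr' hr.1.le
        have h2 : ⟪ν n, x r⟫_ℝ = ⟪ν n, x s⟫_ℝ + ∫ q in s..r, ⟪ν n, w q⟫_ℝ := by
          rw [hxr, inner_add_right]
          congr 1
          have := (innerSL ℝ (ν n)).intervalIntegral_comp_comm hint
          simpa using this.symm
        have h3 : ∫ q in s..r, ⟪ν n, w q⟫_ℝ ≤ ∫ q in s..r, (-e : ℝ) := by
          apply intervalIntegral.integral_mono_on_of_le_Ioo hr.1.le
          · exact ⟨(innerSL ℝ (ν n)).integrable_comp hint.1, (innerSL ℝ (ν n)).integrable_comp hint.2⟩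
          · exact intervalIntegrable_const
          · intro q hq
            have hq' : q ∈ Ioc s u := ⟨hq.1, hq.2.le.trans hr.2⟩
            have h4 := (hu' hq').1
            obtain ⟨κ, hκ, hwq⟩ := hw q ⟨hs.1.trans hq.1.le, hq.2.le.trans hr'.2⟩
            rw [hwq]
            exact (h4 κ hκ).le
        rw [intervalIntegral.integral_const, smul_eq_mul] at h3
        have h4 := hbe n s hs' r hr' hr.1.le
        rw [h2, heq]
        nlinarith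
    exact this
  exact key ht

/-- Moving through a monotone Lipschitz family of polygons. -/
lemma stageJ {X : M → E → E} (hX : Continuous (fun p : M × E => X p.1 p.2)) {B : Set M}
    (hB : IsCompact B) (ν : J → E) (hgt : J → ℝ → ℝ) {ℓ L : ℝ} (hℓ : 0 ≤ ℓ) (hL : 0 ≤ L)
    (hmono : ∀ n : J, ∀ s s', 0 ≤ s → s ≤ s' → s' ≤ ℓ →
      hgt n s' ≤ hgt n s ∧ hgt n s ≤ hgt n s' + L * (s' - s))
    (hcpt : IsCompact {a : E | ∀ n : J, ⟪ν n, a⟫_ℝ ≤ hgt n 0})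
    (hin : ∀ s, 0 ≤ s → s ≤ ℓ → ∀ a : E, (∀ m : J, ⟪ν m, a⟫_ℝ ≤ hgt m s) → ∀ n : J,
      ⟪ν n, a⟫_ℝ = hgt n s → ∀ κ ∈ B, ⟪ν n, X κ a⟫_ℝ < 0) :
    ∃ T : ℝ, 0 ≤ T ∧ ∀ (X' : M → E → E), Continuous (fun p : M × E => X' p.1 p.2) →
      (∀ κ ∈ B, ∀ a : E, (∀ n : J, ⟪ν n, a⟫_ℝ ≤ hgt n 0) → X' κ a = X κ a) →
      ∀ (x : ℝ → E) (t₀ t₁ : ℝ), IsTraj X' B x t₀ t₁ →
      (∀ n : J, ⟪ν n, x t₀⟫_ℝ ≤ hgt n 0) →
      (∀ t ∈ Icc t₀ t₁, ∀ n : J, ⟪ν n, x t⟫_ℝ ≤ hgt n 0) ∧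
      (∀ t ∈ Icc t₀ t₁, t₀ + T ≤ t → ∀ n : J, ⟪ν n, x t⟫_ℝ ≤ hgt n ℓ) := by
  classical
  have hcont : ∀ n : J, ContinuousOn (hgt n) (Icc 0 ℓ) := by
    intro n
    have : LipschitzOnWith (Real.toNNReal L) (hgt n) (Icc 0 ℓ) := by
      apply LipschitzOnWith.of_dist_le_mul
      intro s hs s' hs'
      rw [Real.coe_toNNReal _ hL, Real.dist_eq, Real.dist_eq]
      rcases le_total s s' with h | h
      · obtain ⟨h1, h2⟩ := hmono n s s' hs.1 h hs'.2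
        rw [abs_of_nonneg (by linarith), abs_of_nonpos (by linarith)]
        linarith
      · obtain ⟨h1, h2⟩ := hmono n s' s hs'.1 h hs.2
        rw [abs_of_nonpos (by linarith), abs_of_nonneg (by linarith)]
        linarith
    exact this.continuousOn
  -- uniform strictness
  have hδ : ∃ δ : ℝ, 0 < δ ∧ ∀ s, 0 ≤ s → s ≤ ℓ → ∀ a : E, (∀ m : J, ⟪ν m, a⟫_ℝ ≤ hgt m s) →
      ∀ n : J, ⟪ν n, a⟫_ℝ = hgt n s → ∀ κ ∈ B, ⟪ν n, X κ a⟫_ℝ < - δ := by
    have hone : ∀ n : J, ∃ δ : ℝ, 0 < δ ∧ ∀ s, 0 ≤ s → s ≤ ℓ → ∀ a : E,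
        (∀ m : J, ⟪ν m, a⟫_ℝ ≤ hgt m s) → ⟪ν n, a⟫_ℝ = hgt n s → ∀ κ ∈ B, ⟪ν n, X κ a⟫_ℝ < - δ := by
      intro n
      set Z : Set (ℝ × E × M) := {z | z.1 ∈ Icc 0 ℓ ∧ (∀ m : J, ⟪ν m, z.2.1⟫_ℝ ≤ hgt m z.1) ∧
        ⟪ν n, z.2.1⟫_ℝ = hgt n z.1 ∧ z.2.2 ∈ B} with hZ
      have hZc : IsCompact Z := by
        have hbig : IsCompact (Icc (0:ℝ) ℓ ×ˢ ({a : E | ∀ n : J, ⟪ν n, a⟫_ℝ ≤ hgt n 0} ×ˢ B)) :=
          isCompact_Icc.prod (hcpt.prod hB)
        have hZe : Z = (Icc (0:ℝ) ℓ ×ˢ ({a : E | ∀ n : J, ⟪ν n, a⟫_ℝ ≤ hgt n 0} ×ˢ B)) ∩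
            {z | z.1 ∈ Icc 0 ℓ ∧ (∀ m : J, ⟪ν m, z.2.1⟫_ℝ ≤ hgt m z.1) ∧
              ⟪ν n, z.2.1⟫_ℝ = hgt n z.1} := by
          ext z
          simp only [hZ, mem_ofPred_eq, mem_inter_iff, mem_prod]
          constructor
          · rintro ⟨h1, h2, h3, h4⟩
            refine ⟨⟨h1, fun m => (h2 m).trans (hmono m 0 z.1 le_rfl h1.1 h1.2).1, h4⟩,
              h1, h2, h3⟩
          · rintro ⟨⟨-, -, h4⟩, h1, h2, h3⟩
            exact ⟨h1, h2, h3, h4⟩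
        rw [hZe]
        refine hbig.inter_right ?_
        set W : Set (ℝ × E × M) := {z | z.1 ∈ Icc 0 ℓ} with hW
        have hWc : IsClosed W := isClosed_Icc.preimage continuous_fst
        have hhc : ∀ m : J, ContinuousOn (fun z : ℝ × E × M => hgt m z.1) W := fun m =>
          (hcont m).comp continuousOn_fst (fun z hz => hz)
        have hic : ∀ m : J, ContinuousOn (fun z : ℝ × E × M => ⟪ν m, z.2.1⟫_ℝ) W := fun m => by
          fun_prop
        have e1 : {z : ℝ × E × M | z.1 ∈ Icc 0 ℓ ∧ (∀ m : J, ⟪ν m, z.2.1⟫_ℝ ≤ hgt m z.1) ∧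
              ⟪ν n, z.2.1⟫_ℝ = hgt n z.1} =
            (⋂ m : J, {z | z ∈ W ∧ ⟪ν m, z.2.1⟫_ℝ ≤ hgt m z.1}) ∩
              {z | z ∈ W ∧ hgt n z.1 ≤ ⟪ν n, z.2.1⟫_ℝ} := by
          ext z
          simp only [mem_ofPred_eq, mem_inter_iff, mem_iInter]
          constructor
          · rintro ⟨h1, h2, h3⟩
            exact ⟨fun m => ⟨h1, h2 m⟩, h1, h3.ge⟩
          · rintro ⟨h1, h2, h3⟩
            exact ⟨h2, fun m => (h1 m).2, le_antisymm (h1 n).2 h3⟩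
        rw [e1]
        refine IsClosed.inter (isClosed_iInter fun m => ?_) ?_
        · exact hWc.isClosed_le (hic m) (hhc m)
        · exact hWc.isClosed_le (hhc n) (hic n)
      rcases Z.eq_empty_or_nonempty with hZ0 | hZ0
      · refine ⟨1, one_pos, fun s hs0 hsℓ a ha han κ hκ => ?_⟩
        have : ((s, a, κ) : ℝ × E × M) ∈ Z := ⟨⟨hs0, hsℓ⟩, ha, han, hκ⟩
        rw [hZ0] at this
        exact absurd this (notMem_empty _)
      · have hfc : Continuous fun z : ℝ × E × M => ⟪ν n, X z.2.2 z.2.1⟫_ℝ :=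
          continuous_const.inner (hX.comp (by fun_prop : Continuous fun z : ℝ × E × M =>
            ((z.2.2, z.2.1) : M × E)))
        obtain ⟨z₀, hz₀, hmax⟩ := hZc.exists_isMaxOn hZ0 hfc.continuousOn
        have hneg : ⟪ν n, X z₀.2.2 z₀.2.1⟫_ℝ < 0 :=
          hin z₀.1 hz₀.1.1 hz₀.1.2 z₀.2.1 hz₀.2.1 n hz₀.2.2.1 _ hz₀.2.2.2
        refine ⟨-⟪ν n, X z₀.2.2 z₀.2.1⟫_ℝ / 2, by linarith, fun s hs0 hsℓ a ha han κ hκ => ?_⟩
        have h1 : ((s, a, κ) : ℝ × E × M) ∈ Z := ⟨⟨hs0, hsℓ⟩, ha, han, hκ⟩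
        have h2 := hmax h1
        simp only [mem_ofPred_eq] at h2
        linarith
    have hall : ∀ᶠ δ in 𝓝[>] (0:ℝ), ∀ n : J, ∀ s, 0 ≤ s → s ≤ ℓ → ∀ a : E,
        (∀ m : J, ⟪ν m, a⟫_ℝ ≤ hgt m s) → ⟪ν n, a⟫_ℝ = hgt n s → ∀ κ ∈ B, ⟪ν n, X κ a⟫_ℝ < - δ := by
      rw [Filter.eventually_all]
      intro n
      obtain ⟨δ, hδ, h⟩ := hone n
      filter_upwards [Ioo_mem_nhdsGT hδ] with r hr s hs0 hsℓ a ha han κ hκ
      have := h s hs0 hsℓ a ha han κ hκ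
      linarith [hr.2]
    obtain ⟨δ, h1, h2⟩ := (hall.and self_mem_nhdsWithin).exists
    exact ⟨δ, h2, fun s hs0 hsℓ a ha n => h1 n s hs0 hsℓ a ha⟩
  obtain ⟨δ, hδ0, hδ⟩ := hδ
  set v : ℝ := δ / (L + 1) with hv
  have hv0 : 0 < v := by positivity
  have hvL : L * v ≤ δ := by
    rw [hv, mul_div_assoc', div_le_iff₀ (by linarith)]
    nlinarith
  refine ⟨ℓ / v, by positivity, fun X' hX' hXX x t₀ t₁ hx hx0 => ?_⟩
  -- parameter path
  set σ : ℝ → ℝ := fun t => min ℓ (max 0 (v * (t - t₀))) with hσ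
  have hσ0 : ∀ t, 0 ≤ σ t := fun t => le_min hℓ (le_max_left _ _)
  have hσℓ : ∀ t, σ t ≤ ℓ := fun t => min_le_left _ _
  have hσmono : ∀ t t', t ≤ t' → σ t ≤ σ t' := fun t t' h =>
    min_le_min le_rfl (max_le_max le_rfl (by nlinarith))
  have hσlip : ∀ t t', t ≤ t' → σ t' ≤ σ t + v * (t' - t) := by
    intro t t' h
    have h0 : 0 ≤ v * (t' - t) := mul_nonneg hv0.le (by linarith)
    simp only [hσ]
    rw [← min_add_add_right, ← max_add_add_right]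
    refine min_le_min (by linarith) (max_le_max (by linarith) (by linarith))
  have hσcont : Continuous σ := by
    simp only [hσ]; fun_prop
  have hbar := barrierJ hX' hB hx ν (fun n t => hgt n (σ t)) (e := δ)
    (fun n => (hcont n).comp hσcont.continuousOn fun t _ => ⟨hσ0 t, hσℓ t⟩)
    (by
      intro n t _ t' _ htt
      have h1 := (hmono n (σ t) (σ t') (hσ0 t) (hσmono t t' htt) (hσℓ t')).2
      have h2 := hσlip t t' htt
      have h3 : L * (σ t' - σ t) ≤ L * (v * (t' - t)) := mul_le_mul_of_nonneg_left (by linarith) hL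
      have h4 : L * (v * (t' - t)) ≤ δ * (t' - t) := by
        rw [← mul_assoc]; exact mul_le_mul_of_nonneg_right hvL (by linarith)
      linarith)
    (by
      intro n
      have : σ t₀ = 0 := by simp [hσ, hℓ]
      simp only [this]
      exact hx0 n)
    (by
      intro t _ a ha n han κ hκ
      rw [hXX κ hκ a fun m => (ha m).trans (hmono m 0 (σ t) le_rfl (hσ0 t) (hσℓ t)).1]
      exact hδ (σ t) (hσ0 t) (hσℓ t) a ha n han κ hκ)
  refine ⟨fun t ht n => ?_, fun t ht htT n => ?_⟩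
  · exact (hbar t ht n).trans (hmono n 0 (σ t) le_rfl (hσ0 t) (hσℓ t)).1
  · have h1 := hbar t ht n
    have h2 : σ t = ℓ := by
      simp only [hσ]
      apply min_eq_left
      apply le_max_of_le_right
      have : ℓ / v ≤ t - t₀ := by linarith
      rw [div_le_iff₀ hv0] at this
      linarith
    simp only [h2] at h1
    exact h1

end Barrier


end Vale.Agent.P072
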