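import Vale.Agent.P072.Heights

open Set Filter Topology Real

namespace Vale.Agent.P072

set_option linter.unusedSectionVars false

/-- The normal vector attached to an embedding and a sequence. -/
noncomputable def nrm {d q : ℕ} (ι : Fin q ↪ Fin d) (m : ℕ → ℝ) : Fin d → ℝ :=
  fun k => ∑ i : Fin q, if ι i = k then m i else 0

lemma nrm_dot {d q : ℕ} (ι : Fin q ↪ Fin d) (m : ℕ → ℝ) (x : Fin d → ℝ) :
    ∑ k, nrm ι m k * x k = ∑ i : Fin q, m i * x (ι i) := by
  unfold nrm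
  simp_rw [Finset.sum_mul]
  rw [Finset.sum_comm]
  refine Finset.sum_congr rfl fun i _ => ?_
  simp

/-- Data of one family of facets. -/
structure Fac (d : ℕ) (V₀ : Finset (Fin d → ℝ)) (T : ℝ) where
  q : ℕ
  s : ℝ
  κ : ℝ
  lo : ℝ
  F : Finset ((ℕ → ℝ) × (ℝ → ℝ))
  hs : s = 1 ∨ s = -1
  hlo : 0 < lo
  hκ : 1 ≤ κ
  fp : FP d q V₀ s lo T F

variable {d : ℕ} {V₀ : Finset (Fin d → ℝ)} {T : ℝ}

/-- The sequence of speeds. -/
noncomputable def Kseq (A : ℝ) (lom : ℕ → ℝ) (d : ℕ) : ℕ → ℝ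
  | 0 => 1
  | n + 1 => max (Kseq A lom d n) ((A * (Kseq A lom d n + 1) + 1) / lom (d - (n + 1)))

lemma Kseq_ge_one (A : ℝ) (lom : ℕ → ℝ) (d n : ℕ) : 1 ≤ Kseq A lom d n := by
  induction n with
  | zero => exact le_rfl
  | succ n ih => exact ih.trans (le_max_left _ _)

lemma exists_kappa (A : ℝ) (lom : ℕ → ℝ) (hlom : ∀ k, 0 < lom k) (d : ℕ) :
    ∃ κ : ℕ → ℝ, (∀ k, 1 ≤ κ k) ∧ (∀ k < d, κ (k + 1) ≤ κ k) ∧
      ∀ k < d, A * (κ (k + 1) + 1) + 1 ≤ lom k * κ k := by
  refine ⟨fun k => Kseq A lom d (d - k), fun k => Kseq_ge_one _ _ _ _, fun k hk => ?_,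
    fun k hk => ?_⟩
  · have e : d - k = (d - (k + 1)) + 1 := by omega
    simp only
    rw [e, Kseq]
    exact le_max_left _ _
  · have e : d - k = (d - (k + 1)) + 1 := by omega
    have e2 : d - ((d - (k + 1)) + 1) = k := by omega
    simp only
    rw [e, Kseq, e2]
    have h := le_max_right (Kseq A lom d (d - (k + 1)))
      ((A * (Kseq A lom d (d - (k + 1)) + 1) + 1) / lom k)
    rw [div_le_iff₀ (hlom k)] at h
    linarith [mul_comm (lom k) (max (Kseq A lom d (d - (k + 1)))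
      ((A * (Kseq A lom d (d - (k + 1)) + 1) + 1) / lom k))]

/-- Swapping in a new coordinate. -/
lemma le_of_swap {q : ℕ} {ι : Fin q ↪ Fin d} {m : ℕ → ℝ} {x : Fin d → ℝ} {B : ℝ}
    (hle : ∀ ι' : Fin q ↪ Fin d, ∑ i : Fin q, m i * x (ι' i) ≤ B)
    (heq : ∑ i : Fin q, m i * x (ι i) = B) (hm : ∀ i : ℕ, m i < 0) {k : Fin d}
    (hk : ∀ i, ι i ≠ k) (i : Fin q) : x (ι i) ≤ x k := by
  classical
  have h1 := hle (ι.trans (Equiv.swap (ι i) k).toEmbedding)
  simp only [Function.Embedding.trans_apply, Equiv.coe_toEmbedding] at h1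
  have h2 : ∑ l : Fin q, m l * x (Equiv.swap (ι i) k (ι l)) - ∑ l : Fin q, m l * x (ι l) =
      m i * (x k - x (ι i)) := by
    rw [← Finset.sum_sub_distrib, Finset.sum_eq_single i]
    · rw [Equiv.swap_apply_left]; ring
    · intro l _ hl
      rw [Equiv.swap_apply_of_ne_of_ne (fun h => hl (ι.injective h)) (hk l), sub_self]
    · intro h; exact absurd (Finset.mem_univ _) h
  have h3 : m i * (x k - x (ι i)) ≤ 0 := by linarith
  by_contra hcon
  have : 0 < m i * (x k - x (ι i)) := mul_pos_of_neg_of_neg (hm i) (by linarith [not_le.1 hcon])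
  linarith

lemma sum_split {q : ℕ} (ι : Fin q ↪ Fin d) (f : Fin d → ℝ) :
    ∑ k, f k = ∑ i, f (ι i) + ∑ k ∈ (Finset.univ.map ι)ᶜ, f k := by
  classical
  rw [← Finset.sum_add_sum_compl (Finset.univ.map ι) f, Finset.sum_map]

theorem exists_bodies (d : ℕ) (V₀ : Finset (Fin d → ℝ)) :
    ∃ (J : Type) (_ : Finite J) (ω : J → (Fin d → ℝ)) (h : J → ℝ → ℝ) (Λ₀ T : ℝ),
      (∀ j Λ Λ', Λ₀ ≤ Λ → Λ ≤ Λ' → h j Λ ≤ h j Λ') ∧
      (∀ j Λ₁, ∃ L, 0 ≤ L ∧ ∀ Λ Λ', Λ₀ ≤ Λ → Λ ≤ Λ' → Λ' ≤ Λ₁ →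
        h j Λ' ≤ h j Λ + L * (Λ' - Λ)) ∧
      (∀ (Λ : ℝ) (x : Fin d → ℝ), Λ₀ ≤ Λ → (∀ j, ∑ k, ω j k * x k ≤ h j Λ) →
        ∀ k, exp (-T * Λ) ≤ x k ∧ x k ≤ exp Λ) ∧
      (∀ x : Fin d → ℝ, (∀ k, 0 < x k) → ∀ j, ∀ᶠ Λ in atTop, ∑ k, ω j k * x k < h j Λ) ∧
      (∀ C : ℝ, ∀ᶠ Λ in atTop, ∀ x : Fin d → ℝ, (∀ j, ∑ k, ω j k * x k ≤ h j Λ) →
        ∀ j, ∑ k, ω j k * x k = h j Λ → ∀ w ∈ V₀, 0 < ∑ k, ω j k * w k →
          C ≤ ∑ k, w k * log (x k)) := by
  classical
  rcases Nat.eq_zero_or_pos d with hd | hd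
  · subst hd
    exact ⟨Empty, inferInstance, fun j => j.elim, fun j => j.elim, 0, 0, fun j => j.elim,
      fun j => j.elim, fun _ _ _ _ k => k.elim0, fun _ _ j => j.elim,
      fun _ => Eventually.of_forall fun _ _ _ j => j.elim⟩
  -- constants
  obtain ⟨A, hA0, hA⟩ : ∃ A : ℝ, 0 ≤ A ∧ ∀ w ∈ V₀, ∑ k, |w k| ≤ A := by
    obtain ⟨A, hA⟩ := (V₀.image fun w => ∑ k, |w k|).exists_le
    exact ⟨max A 0, le_max_right _ _, fun w hw =>
      (hA _ (Finset.mem_image_of_mem _ hw)).trans (le_max_left _ _)⟩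
  have hFPm : ∀ k : ℕ, ∃ lo : ℝ, 0 < lo ∧ ∀ T : ℝ, ∃ F, FP d (k + 1) V₀ (-1) lo T F := fun k =>
    exists_FP d (by omega) V₀ (Or.inr rfl)
  choose lom hlom hFm using hFPm
  obtain ⟨lop, hlop, hFp⟩ := exists_FP d hd V₀ (s := 1) (Or.inl rfl)
  obtain ⟨κ, hκ1, hκmono, hκlo⟩ := exists_kappa A lom hlom d
  set T := κ 0 with hT
  have hT1 : 1 ≤ T := hκ1 0
  obtain ⟨Fp, hFp⟩ := hFp T
  choose Fm hFm using fun k => hFm k T
  let fc : Option (Fin d) → Fac d V₀ T := fun o => match o with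
    | none => ⟨d, 1, 1, lop, Fp, Or.inl rfl, hlop, le_rfl, hFp⟩
    | some k => ⟨k + 1, -1, κ k, lom k, Fm k, Or.inr rfl, hlom k, hκ1 k, hFm k⟩
  let J : Type := Σ o : Option (Fin d), (Fin (fc o).q ↪ Fin d) × {p // p ∈ (fc o).F}
  have hJ : Finite J := inferInstance
  let ω : J → (Fin d → ℝ) := fun j => nrm j.2.1 j.2.2.1.1
  let h : J → ℝ → ℝ := fun j => hgt (fc j.1).s (fc j.1).κ j.2.2.1.2
  have hωx : ∀ (j : J) (x : Fin d → ℝ), ∑ k, ω j k * x k =
      ∑ i : Fin (fc j.1).q, j.2.2.1.1 i * x (j.2.1 i) := fun j x => nrm_dot _ _ _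
  have hκpos : ∀ o, 0 < (fc o).κ := fun o => lt_of_lt_of_le one_pos (fc o).hκ
  have htame : ∀ j : J, Tame ((fc j.1).s - 4 * (fc j.1).lo) j.2.2.1.2 := fun j =>
    (fc j.1).fp.tame _ j.2.2.2
  -- monotonicity threshold
  have hmono : ∀ᶠ Λ₀ in atTop, ∀ j Λ Λ', Λ₀ ≤ Λ → Λ ≤ Λ' → h j Λ ≤ h j Λ' := by
    rw [Filter.eventually_all]
    intro j
    exact hgt_mono (fc j.1).hs (fc j.1).hlo (hκpos _) (htame j)
  obtain ⟨Λ₀, hΛ₀⟩ := hmono.exists
  -- bounds
  have hbdd : ∀ (Λ : ℝ) (x : Fin d → ℝ), (∀ j : J, ∑ k, ω j k * x k ≤ h j Λ) →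
      ∀ k, exp (-T * Λ) ≤ x k ∧ x k ≤ exp Λ := by
    intro Λ x hx
    have hlow : ∀ k, exp (-T * Λ) ≤ x k := by
      intro k
      let ι0 : Fin (0 + 1) ↪ Fin d := ⟨fun _ => k, fun a b _ => Fin.ext (by omega)⟩
      have h1 := hx ⟨some ⟨0, hd⟩, ι0, ⟨_, (hFm 0).const⟩⟩
      rw [hωx] at h1
      simp only [h, hgt, fc] at h1
      simp at h1
      have : -T * Λ = -(T * Λ) := by ring
      rw [this]
      exact h1
    refine fun k => ⟨hlow k, ?_⟩
    have h1 := hx ⟨none, Function.Embedding.refl _, ⟨_, hFp.const⟩⟩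
    rw [hωx] at h1
    simp only [h, hgt, fc] at h1
    simp at h1
    refine le_trans ?_ h1
    exact Finset.single_le_sum (f := x) (fun i _ => (Real.exp_pos _).le.trans (hlow i))
      (Finset.mem_univ k)
  refine ⟨J, hJ, ω, h, Λ₀, T, hΛ₀, fun j Λ₁ => hgt_lip (fc j.1).hs (fc j.1).hlo (hκpos _)
    (htame j) Λ₀ Λ₁, fun Λ x _ hx => hbdd Λ x hx, fun x hx j => ?_, fun C => ?_⟩
  · -- exhaustion
    apply hgt_exh (fc j.1).hs (fc j.1).hlo (hκpos _) (htame j)
    intro hs
    rw [hωx]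
    obtain ⟨o, ι, p, hp⟩ := j
    have hneg : ∀ i : ℕ, p.1 i ≤ -1 := fun i => by
      have h1 := (fc o).fp.anti p hp 0 i (Nat.zero_le _)
      rw [(fc o).fp.zero p hp] at h1
      simp only at hs
      rw [hs] at h1; exact h1
    match o, ι, p, hp, hs, hneg with
    | none, _, _, _, hs, _ =>
      simp only [fc] at hs
      norm_num at hs
    | some k, ι, p, hp, _, hneg =>
      simp only
      apply Finset.sum_neg
      · intro i _
        exact mul_neg_of_neg_of_pos (lt_of_le_of_lt (hneg i) (by norm_num)) (hx _)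
      · exact ⟨(⟨0, Nat.succ_pos _⟩ : Fin (k.1 + 1)), Finset.mem_univ _⟩
  · -- facets
    have hcore : ∀ᶠ Λ in atTop, ∀ o : Option (Fin d), ∀ x : Fin d → ℝ,
        (∀ k, exp (-T * ((fc o).κ * Λ)) ≤ x k) →
        (∀ ι : Fin (fc o).q ↪ Fin d, ∀ p ∈ (fc o).F, ∑ i : Fin (fc o).q, p.1 i * x (ι i) -
          p.2 ((fc o).κ * Λ) ≤ (fc o).s * exp ((fc o).s * ((fc o).κ * Λ))) →
        ∀ ι : Fin (fc o).q ↪ Fin d, ∀ p ∈ (fc o).F, ∑ i : Fin (fc o).q, p.1 i * x (ι i) -
          p.2 ((fc o).κ * Λ) = (fc o).s * exp ((fc o).s * ((fc o).κ * Λ)) →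
        ∀ w ∈ V₀, 0 < ∑ i : Fin (fc o).q, p.1 i * w (ι i) →
          (fc o).lo * ((fc o).κ * Λ) ≤ ∑ i : Fin (fc o).q, w (ι i) * log (x (ι i)) := by
      rw [Filter.eventually_all]
      intro o
      have h2 : Tendsto (fun Λ : ℝ => (fc o).κ * Λ) atTop atTop :=
        tendsto_id.const_mul_atTop (hκpos o)
      exact h2.eventually (fc o).fp.core
    have hbig1 : ∀ᶠ Λ in atTop, C ≤ lop * Λ :=
      (tendsto_id.const_mul_atTop hlop : Tendsto (fun Λ : ℝ => lop * Λ) atTop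
        atTop).eventually_ge_atTop _
    filter_upwards [hcore, hbig1, eventually_ge_atTop (C + A * log (d + 1)),
      eventually_ge_atTop 0] with Λ hΛ hC1 hC2 hΛ0 x hx j hj w hw hpos
    have hxb := hbdd Λ x hx
    have hx0 : ∀ k, 0 < x k := fun k => (Real.exp_pos _).trans_le (hxb k).1
    obtain ⟨o, ι, p, hp⟩ := j
    rw [hωx] at hj hpos
    simp only [h, hgt] at hj hpos
    have hcons : ∀ ι' : Fin (fc o).q ↪ Fin d, ∀ p' ∈ (fc o).F,
        ∑ i : Fin (fc o).q, p'.1 i * x (ι' i) - p'.2 ((fc o).κ * Λ) ≤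
          (fc o).s * exp ((fc o).s * ((fc o).κ * Λ)) := by
      intro ι' p' hp'
      have h1 := hx ⟨o, ι', p', hp'⟩
      rw [hωx] at h1
      simp only [h, hgt] at h1
      linarith
    have h1 := hΛ o x (fun k => (hxb k).1.trans' (by
      apply Real.exp_le_exp.2
      have h2 : T * Λ ≤ T * ((fc o).κ * Λ) := by
        apply mul_le_mul_of_nonneg_left _ (by linarith)
        have := mul_le_mul_of_nonneg_right (fc o).hκ hΛ0
        linarith
      linarith)) hcons ι p hp (by linarith) w hw hpos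
    match o, ι, p, hp, hj, hpos, hcons, h1 with
    | none, ι, p, hp, _, _, _, h1 =>
      simp only [fc] at h1 ι
      have hbij : Function.Bijective ι := Finite.injective_iff_bijective.1 ι.injective
      have h2 := Function.Bijective.sum_comp hbij (fun k => w k * log (x k))
      rw [h2] at h1
      linarith
    | some k, ι, p, hp, hj, _, hcons, h1 =>
      simp only [fc] at h1 ι hj hcons
      have hneg : ∀ i : ℕ, p.1 i < 0 := fun i => by
        have h1 := (hFm k).anti p hp 0 i (Nat.zero_le _)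
        rw [(hFm k).zero p hp] at h1
        linarith
      rw [sum_split ι (fun k => w k * log (x k))]
      -- bound the remaining coordinates
      set B : ℝ := κ (k + 1) * Λ + Λ + log (d + 1) with hB
      have hd1 : (1:ℝ) ≤ d := by exact_mod_cast hd
      have hlogd : 0 ≤ log ((d:ℝ) + 1) := Real.log_nonneg (by linarith)
      have hκΛ : 0 ≤ κ (k + 1) * Λ := mul_nonneg (by linarith [hκ1 (k + 1)]) hΛ0
      have hB0 : 0 ≤ B := by rw [hB]; positivity
      have hrest : ∀ k' ∈ (Finset.univ.map ι)ᶜ, |log (x k')| ≤ B := by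
        intro k' hk'
        have hk'' : ∀ i, ι i ≠ k' := by
          intro i hi
          rw [Finset.mem_compl, Finset.mem_map] at hk'
          exact hk' ⟨i, Finset.mem_univ _, hi⟩
        have hcard : (k:ℕ) + 1 < d := by
          have h3 : (Finset.univ.map ι).card < (Finset.univ : Finset (Fin d)).card :=
            Finset.card_lt_card (Finset.ssubset_univ_iff.2 (by
              intro h4
              rw [h4] at hk'
              simp at hk'))
          rw [Finset.card_map, Finset.card_univ, Finset.card_univ, Fintype.card_fin,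
            Fintype.card_fin] at h3
          exact h3
        have hswap : ∀ i, x (ι i) ≤ x k' := by
          apply le_of_swap (m := p.1) (B := ∑ i : Fin (k.1 + 1), p.1 i * x (ι i)) _ rfl hneg hk''
          intro ι'
          have h3 := hcons ι' p hp
          linarith
        -- the constraint of the next order
        let ι'' : Fin (k.1 + 1 + 1) ↪ Fin d := ⟨Fin.cons k' ι, by
          rw [Fin.cons_injective_iff]
          exact ⟨by rintro ⟨i, hi⟩; exact hk'' i hi, ι.injective⟩⟩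
        have h3 := hx ⟨some ⟨k.1 + 1, hcard⟩, ι'', ⟨_, (hFm (k.1 + 1)).const⟩⟩
        rw [hωx] at h3
        simp only [h, hgt, fc] at h3
        have h4 : ∑ i : Fin (k.1 + 1 + 1), -1 * x (ι'' i) = -(x k' + ∑ i, x (ι i)) := by
          rw [Fin.sum_univ_succ]
          simp only [ι'', Function.Embedding.coeFn_mk, Fin.cons_zero, Fin.cons_succ]
          rw [← Finset.mul_sum]; ring
        rw [h4] at h3
        have h5 : ∑ i, x (ι i) ≤ (k.1 + 1) * x k' := by
          have := Finset.sum_le_card_nsmul Finset.univ (fun i => x (ι i)) (x k')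
            (fun i _ => hswap i)
          rw [Finset.card_univ, Fintype.card_fin, nsmul_eq_mul] at this
          push_cast at this
          exact this
        have h6 : exp (-1 * (κ (k.1 + 1) * Λ)) ≤ (d + 1) * x k' := by
          have h7 : ((k.1:ℝ) + 1 + 1) ≤ d + 1 := by
            have : (k.1 + 1 : ℕ) ≤ d := by omega
            have : ((k.1 + 1 : ℕ) : ℝ) ≤ d := by exact_mod_cast this
            push_cast at this
            linarith
          have h8 := mul_le_mul_of_nonneg_right h7 (hx0 k').le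
          linarith
        rw [abs_le]
        constructor
        · have h7 := Real.log_le_log (Real.exp_pos _) h6
          rw [Real.log_exp, Real.log_mul (by positivity) (hx0 k').ne'] at h7
          rw [hB]; linarith
        · have h7 := Real.log_le_log (hx0 k') (hxb k').2
          rw [Real.log_exp] at h7
          rw [hB]; linarith
      have hsum : -(A * B) ≤ ∑ k' ∈ (Finset.univ.map ι)ᶜ, w k' * log (x k') := by
        have h2 : |∑ k' ∈ (Finset.univ.map ι)ᶜ, w k' * log (x k')| ≤ A * B := by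
          calc |∑ k' ∈ (Finset.univ.map ι)ᶜ, w k' * log (x k')|
              ≤ ∑ k' ∈ (Finset.univ.map ι)ᶜ, |w k' * log (x k')| := Finset.abs_sum_le_sum_abs _ _
            _ ≤ ∑ k' ∈ (Finset.univ.map ι)ᶜ, |w k'| * B := by
                refine Finset.sum_le_sum fun k' hk' => ?_
                rw [abs_mul]
                exact mul_le_mul_of_nonneg_left (hrest k' hk') (abs_nonneg _)
            _ = (∑ k' ∈ (Finset.univ.map ι)ᶜ, |w k'|) * B := by rw [Finset.sum_mul]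
            _ ≤ (∑ k', |w k'|) * B := by
                apply mul_le_mul_of_nonneg_right _ hB0
                exact Finset.sum_le_sum_of_subset_of_nonneg (Finset.subset_univ _)
                  (fun _ _ _ => abs_nonneg _)
            _ ≤ A * B := mul_le_mul_of_nonneg_right (hA w hw) hB0
        exact (abs_le.1 h2).1
      have h2 := hκlo k k.2
      have h3 : (A * (κ (k + 1) + 1) + 1) * Λ ≤ lom k * κ k * Λ :=
        mul_le_mul_of_nonneg_right h2 hΛ0
      have h4 : A * B = A * (κ (k + 1) + 1) * Λ + A * log (d + 1) := by rw [hB]; ring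
      have h5 : lom k * (κ k * Λ) = lom k * κ k * Λ := by ring
      linarith

end Vale.Agent.P072
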