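import Mathlib

open Set Filter Topology

namespace Vale.Agent.P072

/-- Interlacing sequences adapted to a finite critical set `Cr` with top element `a`. -/
lemma exists_chain (Cr : Finset ℝ) {a W δ : ℝ} (ha : a ∈ Cr) (hδ : 0 < δ) (hδW : 2 * δ ≤ W)
    (hsep : ∀ c ∈ Cr, ∀ c' ∈ Cr, c ≠ c' → 2 * W ≤ |c - c'|) :
    ∃ b s : ℕ → ℝ, b 0 = a ∧ s 0 = a - W ∧
      (∀ i, b (i + 1) < s i) ∧ (∀ i, s i < b i) ∧ (∀ i, s (i + 1) ≤ s i - δ) ∧
      ∀ i, (b (i + 1) ∈ Cr ∧ s i - b (i + 1) ≤ W ∧ b (i + 1) - s (i + 1) = W) ∨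
        ((∀ c ∈ Cr, W / 2 ≤ |b (i + 1) - c|) ∧ s i - b (i + 1) ≤ δ ∧
          b (i + 1) - s (i + 1) ≤ δ) := by
  classical
  have hW : 0 < W := by linarith
  -- admissible thresholds
  let Adm : ℝ → Prop := fun s => ∀ c ∈ Cr, W / 2 ≤ |s - c|
  have hstep : ∀ s : {s : ℝ // Adm s}, ∃ q : ℝ × {s : ℝ // Adm s},
      q.1 < s.1 ∧ q.2.1 < q.1 ∧ q.2.1 ≤ s.1 - δ ∧
      ((q.1 ∈ Cr ∧ s.1 - q.1 ≤ W ∧ q.1 - q.2.1 = W) ∨
        ((∀ c ∈ Cr, W / 2 ≤ |q.1 - c|) ∧ s.1 - q.1 ≤ δ ∧ q.1 - q.2.1 ≤ δ)) := by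
    rintro ⟨s, hs⟩
    by_cases h : ∃ c ∈ Cr, c < s ∧ s ≤ c + W
    · obtain ⟨c, hc, hcs, hsc⟩ := h
      have hadm : Adm (c - W) := by
        intro c' hc'
        by_cases hcc : c' = c
        · rw [hcc]
          have : c - W - c = -W := by ring
          rw [this, abs_neg, abs_of_pos hW]; linarith
        · have h1 := hsep c hc c' hc' (Ne.symm hcc)
          rcases abs_cases (c - c') with h2 | h2
          · rw [h2.1] at h1
            rw [abs_of_nonneg (by linarith)]; linarith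
          · rw [h2.1] at h1
            rw [abs_of_nonpos (by linarith)]; linarith
      refine ⟨(c, ⟨c - W, hadm⟩), hcs, ?_, ?_, Or.inl ⟨hc, ?_, ?_⟩⟩
      · simp only; linarith
      · simp only; linarith
      · simp only; linarith
      · simp only; ring
    · push Not at h
      have hfar : ∀ c ∈ Cr, c < s → c + W < s := fun c hc hcs => h c hc hcs
      have hgen : ∀ r, s - δ ≤ r → r ≤ s → ∀ c ∈ Cr, W / 2 ≤ |r - c| := by
        intro r hr1 hr2 c hc
        by_cases hcs : c < s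
        · have := hfar c hc hcs
          rw [abs_of_nonneg (by linarith)]; linarith
        · have h1 := hs c hc
          have h2 : s ≤ c := not_lt.1 hcs
          rw [abs_of_nonpos (by linarith)] at h1
          rw [abs_of_nonpos (by linarith)]; linarith
      refine ⟨(s - δ / 2, ⟨s - δ, hgen _ le_rfl (by linarith)⟩), ?_, ?_, ?_, Or.inr ⟨?_, ?_, ?_⟩⟩
      · simp only; linarith
      · simp only; linarith
      · simp only; linarith
      · exact hgen _ (by linarith) (by linarith)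
      · simp only; linarith
      · simp only; linarith
  choose f hf1 hf2 hf3 hf4 using hstep
  have hadm0 : Adm (a - W) := by
    intro c hc
    by_cases hcc : c = a
    · rw [hcc]
      have : a - W - a = -W := by ring
      rw [this, abs_neg, abs_of_pos hW]; linarith
    · have h1 := hsep a ha c hc (Ne.symm hcc)
      rcases abs_cases (a - c) with h2 | h2
      · rw [h2.1] at h1
        rw [abs_of_nonneg (by linarith)]; linarith
      · rw [h2.1] at h1
        rw [abs_of_nonpos (by linarith)]; linarith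
  let S : ℕ → {s : ℝ // Adm s} := fun n => Nat.rec ⟨a - W, hadm0⟩ (fun _ s => (f s).2) n
  have hS0 : S 0 = ⟨a - W, hadm0⟩ := rfl
  have hS1 : ∀ n, S (n + 1) = (f (S n)).2 := fun n => rfl
  refine ⟨fun n => Nat.casesOn n a (fun k => (f (S k)).1), fun n => (S n).1, rfl, rfl,
    fun i => hf1 (S i), fun i => ?_, fun i => hf3 (S i), fun i => ?_⟩
  · cases i with
    | zero =>
      change a - W < a
      linarith
    | succ k => exact hf2 (S k)
  · exact hf4 (S i)

lemma chain_tendsto {s : ℕ → ℝ} {δ : ℝ} (hδ : 0 < δ) (h : ∀ i, s (i + 1) ≤ s i - δ) (T : ℝ) :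
    ∃ L : ℕ, 1 ≤ L ∧ s (L - 1) < -T := by
  have h1 : ∀ n : ℕ, s n ≤ s 0 - n * δ := by
    intro n
    induction n with
    | zero => simp
    | succ n ih => push_cast; linarith [h n]
  obtain ⟨n, hn⟩ := exists_nat_gt ((s 0 + T) / δ)
  refine ⟨n + 1, by omega, ?_⟩
  rw [div_lt_iff₀ hδ] at hn
  have := h1 n
  simp only [Nat.add_sub_cancel]
  linarith

end Vale.Agent.P072
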