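import Vale.Agent.P072.Select

open Set Filter Topology Real

namespace Vale.Agent.P072

/-- Accumulated height correction. -/
noncomputable def accE (b s : ℕ → ℝ) (i : ℕ) (Λ : ℝ) : ℝ :=
  ∑ k ∈ Finset.range i, -((b k - b (k + 1)) * Real.exp (s k * Λ))

lemma accE_zero (b s : ℕ → ℝ) (Λ : ℝ) : accE b s 0 Λ = 0 := by simp [accE]

lemma accE_succ (b s : ℕ → ℝ) (i : ℕ) (Λ : ℝ) :
    accE b s (i + 1) Λ = accE b s i Λ - (b i - b (i + 1)) * Real.exp (s i * Λ) := by
  unfold accE; rw [Finset.sum_range_succ]; ring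

lemma dt_sub_ge {q j : ℕ} (hj : j < q) {m m' z : ℕ → ℝ} (hz : ∀ i < q, 0 ≤ z i)
    (hle : ∀ i < q, m' i ≤ m i) : (m j - m' j) * z j ≤ dt q m z - dt q m' z := by
  unfold dt
  rw [← Finset.sum_sub_distrib]
  have h : (m j - m' j) * z j = m j * z j - m' j * z j := by ring
  rw [h]
  refine Finset.single_le_sum (f := fun i => m i * z i - m' i * z i) (fun i hi => ?_)
    (Finset.mem_range.2 hj)
  have hi' := Finset.mem_range.1 hi
  have := mul_le_mul_of_nonneg_right (hle i hi') (hz i hi')
  linarith

lemma dt_sub_le {q : ℕ} {m m' z : ℕ → ℝ} {B : ℝ}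
    (h : ∀ i < q, (m i - m' i) * z i ≤ B) : dt q m z - dt q m' z ≤ q * B := by
  unfold dt
  rw [← Finset.sum_sub_distrib]
  have h5 := Finset.sum_le_card_nsmul (Finset.range q) (fun i => m i * z i - m' i * z i) B
    (fun i hi => by
      have := h i (Finset.mem_range.1 hi)
      linarith [this])
  rwa [Finset.card_range, nsmul_eq_mul] at h5

theorem combine {q j : ℕ} (hj1 : 1 ≤ j) (hjq : j < q) {a : ℕ → ℝ} {lo : ℝ} (hlo : 0 < lo) {T : ℝ}
    (Vq : Finset (ℕ → ℝ)) {b s : ℕ → ℝ} (hb0 : b 0 = a (j - 1))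
    (hbs : ∀ i, b (i + 1) < s i) (hsb : ∀ i, s i < b i) (hs0 : s 0 ≤ a (j - 1) - 4 * lo)
    {l : ℕ → ℝ} {G : ℕ → Finset ((ℕ → ℝ) × (ℝ → ℝ))} (hl : ∀ i, lo ≤ l i)
    (hlow : ∀ i, b i - s i ≤ l i / 2) (hup : ∀ i, s i - b (i + 1) ≤ l (i + 1) / 2)
    (hFam : ∀ i, Fam (j + 1) (Function.update a j (b i)) (l i) (G i))
    (hSel : ∀ i, Sel q (j + 1) (Function.update a j (b i)) (l i) Vq T (G i))
    {L : ℕ} (hL : 1 ≤ L) (hLT : s (L - 1) < -T) :
    ∃ F, Fam j a lo F ∧ Sel q j a lo Vq T F := by
  classical
  have hl0 : ∀ i, 0 < l i := fun i => hlo.trans_le (hl i)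
  have hbanti : ∀ i k, i ≤ k → b k ≤ b i := by
    intro i k hik
    induction hik with
    | refl => exact le_rfl
    | step _ ih => exact ((hbs _).trans (hsb _)).le.trans ih
  have hsanti : ∀ i k, i ≤ k → s k ≤ s i := by
    intro i k hik
    induction hik with
    | refl => exact le_rfl
    | step _ ih => exact ((hsb _).trans (hbs _)).le.trans ih
  -- truncated children
  set G' : ℕ → Finset ((ℕ → ℝ) × (ℝ → ℝ)) := fun i =>
    if i < L then G i else {(cst (j + 1) (Function.update a j (b i)), fun _ => (0:ℝ))} with hG'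
  have hFam' : ∀ i, Fam (j + 1) (Function.update a j (b i)) (l i) (G' i) := by
    intro i
    simp only [hG']
    split_ifs
    · exact hFam i
    · exact fam_singleton _ _
  set F : Finset ((ℕ → ℝ) × (ℝ → ℝ)) := (Finset.range (L + 1)).biUnion fun i =>
    (G' i).image fun p => (p.1, fun Λ => accE b s i Λ + p.2 Λ) with hF
  have hmemF : ∀ p, p ∈ F ↔ ∃ i ≤ L, ∃ p₀ ∈ G' i, (p₀.1, fun Λ => accE b s i Λ + p₀.2 Λ) = p := by
    intro p
    simp only [hF, Finset.mem_biUnion, Finset.mem_range, Finset.mem_image]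
    constructor
    · rintro ⟨i, hi, p₀, hp₀, rfl⟩; exact ⟨i, by omega, p₀, hp₀, rfl⟩
    · rintro ⟨i, hi, p₀, hp₀, rfl⟩; exact ⟨i, by omega, p₀, hp₀, rfl⟩
  have hupd : ∀ (c : ℝ) (i : ℕ), i < j → Function.update a j c i = a i := fun c i hi =>
    Function.update_of_ne (by omega) _ _
  have hupdj : ∀ (c : ℝ), Function.update a j c j = c := fun c => Function.update_self _ _ _
  have hpj : ∀ i, ∀ p ∈ G' i, p.1 j = b i := fun i p hp => by
    rw [(hFam' i).pre p hp j (by omega), hupdj]
  have hpk : ∀ i, ∀ p ∈ G' i, ∀ k, j ≤ k → p.1 k ≤ b i := fun i p hp k hk => by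
    rw [← hpj i p hp]
    exact (hFam' i).anti p hp j k (by omega) hk
  have hplt : ∀ i, ∀ p ∈ G' i, ∀ k, k < j → p.1 k = a k := fun i p hp k hk => by
    rw [(hFam' i).pre p hp k (by omega), hupd _ _ hk]
  refine ⟨F, ⟨?_, ?_, ?_, ?_⟩, ?_⟩
  · -- pre
    intro p hp i hi
    obtain ⟨k, -, p₀, hp₀, rfl⟩ := (hmemF p).1 hp
    exact hplt k p₀ hp₀ i hi
  · -- anti
    intro p hp i k hi hik
    obtain ⟨k', -, p₀, hp₀, rfl⟩ := (hmemF p).1 hp
    simp only
    by_cases h : j ≤ i
    · exact (hFam' k').anti p₀ hp₀ i k (by omega) hik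
    · have hij : i = j - 1 := by omega
      by_cases h2 : k = i
      · rw [h2]
      · rw [hplt k' p₀ hp₀ i (by omega), hij, ← hb0]
        exact (hpk k' p₀ hp₀ k (by omega)).trans (hbanti 0 k' (Nat.zero_le _))
  · -- const
    rw [hmemF]
    refine ⟨0, Nat.zero_le _, _, (hFam' 0).const, ?_⟩
    ext1
    · simp only
      ext i
      by_cases h : i < j + 1
      · rw [cst_of_lt _ h]
        by_cases h2 : i < j
        · rw [hupd _ _ h2, cst_of_lt _ h2]
        · have : i = j := by omega
          rw [this, hupdj, cst_of_ge _ le_rfl, hb0]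
      · rw [cst_of_ge _ (by omega), cst_of_ge _ (by omega)]
        simp only [Nat.add_sub_cancel]
        rw [hupdj, hb0]
    · simp only
      ext Λ
      rw [accE_zero, add_zero]
  · -- tame
    intro p hp
    obtain ⟨k, -, p₀, hp₀, rfl⟩ := (hmemF p).1 hp
    have h1 : Tame (a (j - 1) - 4 * lo) (fun Λ => accE b s k Λ) := by
      unfold accE
      apply Tame.sum
      intro i _
      apply (Tame.exp (t := s i) (c := b i - b (i + 1)) _).mono
      · exact (hsanti 0 i (Nat.zero_le _)).trans hs0
      · linarith [hbanti i (i + 1) (by omega)]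
    refine h1.add (((hFam' k).tame p₀ hp₀).mono ?_)
    simp only [Nat.add_sub_cancel]
    rw [hupdj]
    rcases Nat.eq_zero_or_pos k with h | h
    · rw [h, hb0]; linarith [hl 0]
    · obtain ⟨k', rfl⟩ : ∃ k', k = k' + 1 := ⟨k - 1, by omega⟩
      have := hbs k'
      have := hsanti 0 k' (Nat.zero_le _)
      linarith [hl0 (k' + 1)]
  · -- selection
    choose R hR0 hR using fun i => exists_uniform_bd (G' i) (τ := b i - 4 * l i) (by
      intro p hp
      have := (hFam' i).tame p hp
      simp only [Nat.add_sub_cancel] at this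
      rwa [hupdj] at this)
    have hev1 : ∀ᶠ Λ in atTop, ∀ i ∈ Finset.range (L + 1),
        (R i * Real.exp ((b i - 4 * l i) * Λ) ≤ (b i - b (i + 1)) / 2 * Real.exp (s i * Λ)) := by
      rw [Filter.eventually_all_finset]
      intro i _
      apply eventually_exp_le
      · linarith [hlow i, hl0 i]
      · linarith [hbs i, hsb i]
    have hev2 : ∀ᶠ Λ in atTop, ∀ i ∈ Finset.range (L + 1),
        (R (i + 1) * Real.exp ((b (i + 1) - 4 * l (i + 1)) * Λ) ≤
          (b i - b (i + 1)) * Real.exp (s i * Λ)) := by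
      rw [Filter.eventually_all_finset]
      intro i _
      apply eventually_exp_le
      · linarith [hbs i, hl0 (i + 1)]
      · linarith [hbs i, hsb i]
    have hev3 : ∀ᶠ Λ in atTop, 2 * Real.exp (s (L - 1) * Λ) ≤ 1 / 2 * Real.exp (-T * Λ) :=
      eventually_exp_le hLT (by norm_num)
    have hev4 : ∀ᶠ Λ in atTop, ∀ i ∈ Finset.range L, ∀ z : ℕ → ℝ,
        (∀ i < q, Real.exp (-T * Λ) ≤ z i) → (∀ i k, i ≤ k → k < q → z k ≤ z i) →
        (∀ k < j + 1, |log (z k) - Function.update a j (b i) k * Λ| ≤ l i * Λ) →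
        ∀ p ∈ G i, (∀ p' ∈ G i, dt q p'.1 z - p'.2 Λ ≤ dt q p.1 z - p.2 Λ) →
        ∀ u ∈ Vq, 0 < dt q u p.1 → l i * Λ ≤ ∑ i ∈ Finset.range q, u i * log (z i) := by
      rw [Filter.eventually_all_finset]
      intro i _
      exact hSel i
    have hev5 : ∀ᶠ Λ in atTop, log (2 * q) ≤ lo / 2 * Λ := by
      have : Tendsto (fun Λ : ℝ => lo / 2 * Λ) atTop atTop :=
        tendsto_id.const_mul_atTop (by linarith)
      exact this.eventually_ge_atTop _
    unfold Sel
    filter_upwards [hev1, hev2, hev3, hev4, hev5, eventually_ge_atTop 0] with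
      Λ h1 h2 h3 h4 h5 hΛ z hzT hzanti hzlog p hp hmax u hu hpos
    have hz0 : ∀ i < q, 0 < z i := fun i hi => (Real.exp_pos _).trans_le (hzT i hi)
    obtain ⟨i, hiL, p₀, hp₀, rfl⟩ := (hmemF p).1 hp
    simp only at hmax hpos
    have hq1 : (1:ℝ) ≤ q := by
      have : 1 ≤ q := by omega
      exact_mod_cast this
    -- competitors
    have hcomp : ∀ k ≤ L, dt q (cst (j + 1) (Function.update a j (b k))) z - accE b s k Λ ≤
        dt q p₀.1 z - (accE b s i Λ + p₀.2 Λ) := by
      intro k hk
      have := hmax _ ((hmemF _).2 ⟨k, hk, _, (hFam' k).const, rfl⟩)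
      simpa using this
    have hcval : ∀ k i', i' < q → cst (j + 1) (Function.update a j (b k)) i' =
        if i' < j then a i' else b k := by
      intro k i' _
      split_ifs with h
      · rw [cst_of_lt _ (by omega), hupd _ _ h]
      · by_cases h' : i' < j + 1
        · have : i' = j := by omega
          rw [cst_of_lt _ h', this, hupdj]
        · rw [cst_of_ge _ (by omega)]
          simp only [Nat.add_sub_cancel]
          rw [hupdj]
    -- upper bound
    have hupper : ∀ k, i = k + 1 → z j ≤ 2 * Real.exp (s k * Λ) := by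
      intro k hik
      have hbk : 0 < b k - b (k + 1) := by linarith [hbs k, hsb k]
      have h6 := hcomp k (by omega)
      have h7 := dt_sub_ge hjq (m := cst (j + 1) (Function.update a j (b k))) (m' := p₀.1)
        (fun i hi => (hz0 i hi).le) (by
          intro i' hi'
          rw [hcval k i' hi']
          split_ifs with h
          · exact (hplt i p₀ hp₀ i' h).le
          · refine (hpk i p₀ hp₀ i' (by omega)).trans (hbanti k i (by omega)))
      rw [hcval k j hjq, if_neg (lt_irrefl _), hpj i p₀ hp₀, hik] at h7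
      rw [hik, accE_succ] at h6
      have h8 := hR (k + 1) p₀ (by rw [← hik]; exact hp₀) Λ hΛ
      have h9 := h2 k (Finset.mem_range.2 (by omega))
      have h10 : (b k - b (k + 1)) * z j ≤ (b k - b (k + 1)) * (2 * Real.exp (s k * Λ)) := by
        linarith
      exact le_of_mul_le_mul_left h10 hbk
    -- the last node is never selected
    have hiL' : i < L := by
      by_contra hcon
      have hiL2 : i = (L - 1) + 1 := by omega
      have h6 := hupper (L - 1) hiL2
      have h7 := hzT j hjq
      have h8 := Real.exp_pos (-T * Λ)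
      linarith
    -- lower bound
    have hlower : Real.exp (s i * Λ) ≤ 2 * q * z j := by
      have hbk : 0 < b i - b (i + 1) := by linarith [hbs i, hsb i]
      have h6 := hcomp (i + 1) (by omega)
      have h7 := dt_sub_le (q := q) (m := p₀.1) (m' := cst (j + 1) (Function.update a j (b (i + 1))))
        (z := z) (B := (b i - b (i + 1)) * z j) (by
          intro i' hi'
          rw [hcval (i + 1) i' hi']
          split_ifs with h
          · rw [hplt i p₀ hp₀ i' h, sub_self, zero_mul]
            exact mul_nonneg hbk.le (hz0 j hjq).le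
          · have h8 := hpk i p₀ hp₀ i' (by omega)
            have h9 := hzanti j i' (by omega) hi'
            have h10 := (hz0 i' hi').le
            calc (p₀.1 i' - b (i + 1)) * z i' ≤ (b i - b (i + 1)) * z i' :=
                  mul_le_mul_of_nonneg_right (by linarith) h10
              _ ≤ _ := mul_le_mul_of_nonneg_left h9 hbk.le)
      rw [accE_succ] at h6
      have h8 := hR i p₀ hp₀ Λ hΛ
      have h9 := h1 i (Finset.mem_range.2 (by omega))
      have h10 : (b i - b (i + 1)) * Real.exp (s i * Λ) ≤ (b i - b (i + 1)) * (2 * q * z j) := by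
        nlinarith
      exact le_of_mul_le_mul_left h10 hbk
    -- closeness of the new coordinate
    have hzj := hz0 j hjq
    have hlog2q : 0 ≤ log (2 * q) := Real.log_nonneg (by linarith)
    have hclose : |log (z j) - b i * Λ| ≤ l i * Λ := by
      rw [abs_le]
      constructor
      · have h6 : s i * Λ ≤ log (2 * q) + log (z j) := by
          have h7 := Real.log_le_log (Real.exp_pos _) hlower
          rw [Real.log_exp, Real.log_mul (by positivity) hzj.ne'] at h7
          exact h7
        have h7 : (b i - s i) * Λ ≤ l i / 2 * Λ := mul_le_mul_of_nonneg_right (hlow i) hΛ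
        have h8 : lo / 2 * Λ ≤ l i / 2 * Λ :=
          mul_le_mul_of_nonneg_right (by linarith [hl i]) hΛ
        nlinarith
      · rcases Nat.eq_zero_or_pos i with hi0 | hi0
        · rw [hi0, hb0]
          have h6 := (abs_le.1 (hzlog (j - 1) (by omega))).2
          have h7 := Real.log_le_log hzj (hzanti (j - 1) j (by omega) hjq)
          have h8 : lo * Λ ≤ l 0 * Λ := mul_le_mul_of_nonneg_right (hl 0) hΛ
          linarith
        · obtain ⟨k, rfl⟩ : ∃ k, i = k + 1 := ⟨i - 1, by omega⟩
          have h6 := Real.log_le_log hzj (hupper k rfl)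
          rw [Real.log_mul (by norm_num) (Real.exp_pos _).ne', Real.log_exp] at h6
          have h7 : (s k - b (k + 1)) * Λ ≤ l (k + 1) / 2 * Λ :=
            mul_le_mul_of_nonneg_right (hup k) hΛ
          have h8 : lo / 2 * Λ ≤ l (k + 1) / 2 * Λ :=
            mul_le_mul_of_nonneg_right (by linarith [hl (k + 1)]) hΛ
          have h9 : log 2 ≤ log (2 * q) := Real.log_le_log (by norm_num) (by linarith)
          nlinarith
    -- apply the selection property of the child
    have hGi : G' i = G i := by simp only [hG', if_pos hiL']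
    rw [hGi] at hp₀
    have h6 := h4 i (Finset.mem_range.2 hiL') z hzT hzanti (by
      intro k hk
      by_cases hkj : k < j
      · rw [hupd _ _ hkj]
        exact (hzlog k hkj).trans (mul_le_mul_of_nonneg_right (hl i) hΛ)
      · have : k = j := by omega
        rw [this, hupdj]; exact hclose) p₀ hp₀ (by
      intro p' hp'
      have h7 := hmax _ ((hmemF _).2 ⟨i, hiL, p', by rw [hGi]; exact hp', rfl⟩)
      simp only at h7
      linarith) u hu hpos
    exact (mul_le_mul_of_nonneg_right (hl i) hΛ).trans h6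

end Vale.Agent.P072
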