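import Vale.Agent.P072.Levels

open Real Set Filter Topology
open scoped InnerProductSpace RealInnerProductSpace

namespace Vale.Agent.P072

set_option linter.unusedSectionVars false

variable {E : Type*} [NormedAddCommGroup E] [InnerProductSpace ℝ E]

/-- In dimension at most two, the orthogonal complement of a nonzero vector is spanned by one
vector. -/
lemma exists_perp [FiniteDimensional ℝ E] (hdim : Module.finrank ℝ E ≤ 2) {v : E} (hv : v ≠ 0) :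
    ∃ p : E, ⟪p, v⟫_ℝ = 0 ∧ ∀ θ : E, ⟪θ, v⟫_ℝ = 0 → ∃ μ : ℝ, θ = μ • p := by
  set K : Submodule ℝ E := Submodule.span ℝ {v} with hK
  have h1 : Module.finrank ℝ K = 1 := finrank_span_singleton hv
  have h2 : Module.finrank ℝ K + Module.finrank ℝ Kᗮ = Module.finrank ℝ E :=
    Submodule.finrank_add_finrank_orthogonal K
  have h3 : Module.finrank ℝ Kᗮ ≤ 1 := by omega
  obtain ⟨p, hp⟩ := finrank_le_one_iff.1 h3
  refine ⟨p, ?_, fun θ hθ => ?_⟩
  · have := Submodule.mem_orthogonal_singleton_iff_inner_right.1 p.2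
    rw [real_inner_comm]; exact this
  · have hθ' : θ ∈ Kᗮ := Submodule.mem_orthogonal_singleton_iff_inner_right.2
      (by rw [real_inner_comm]; exact hθ)
    obtain ⟨c, hc⟩ := hp ⟨θ, hθ'⟩
    exact ⟨c, (congrArg Subtype.val hc).symm⟩

/-- If `n, w` are nonzero orthogonal vectors in dimension at most two then anything orthogonal to
`w` is a multiple of `n`. -/
lemma mult_of_orth [FiniteDimensional ℝ E] (hdim : Module.finrank ℝ E ≤ 2) {n w z : E}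
    (hn : n ≠ 0) (hw : w ≠ 0) (hnw : ⟪n, w⟫_ℝ = 0) (hz : ⟪z, w⟫_ℝ = 0) : ∃ γ : ℝ, z = γ • n := by
  obtain ⟨p, -, hp⟩ := exists_perp hdim hw
  obtain ⟨μ, hμ⟩ := hp n hnw
  obtain ⟨μ', hμ'⟩ := hp z hz
  have hμ0 : μ ≠ 0 := by
    rintro rfl
    rw [zero_smul] at hμ
    exact hn hμ
  refine ⟨μ' / μ, ?_⟩
  rw [hμ', hμ, smul_smul]
  congr 1
  field_simp

variable {ι : Type*} [Fintype ι]

/-- The finite set of facet normals used in the construction. -/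
structure IsNormals (S : Sys E ι) (V N : Finset E) : Prop where
  ne : ∀ n ∈ N, n ≠ 0
  sub : V ⊆ N
  perp : ∀ v ∈ V, ∀ θ : E, θ ≠ 0 → ⟪θ, v⟫_ℝ = 0 → ∃ n ∈ N, ∃ μ : ℝ, 0 < μ ∧ θ = μ • n
  neg : ∀ k, S.g k ≠ 0 → - S.g k ∈ N
  add : ∀ j k, - S.g j - S.g k ≠ 0 → - S.g j - S.g k ∈ N

lemma exists_normals [FiniteDimensional ℝ E] (hdim : Module.finrank ℝ E ≤ 2) (S : Sys E ι)
    (V : Finset E) (hV : ∀ v ∈ V, v ≠ 0) : ∃ N : Finset E, IsNormals S V N := by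
  classical
  have hch : ∀ v : E, ∃ p : E, v ≠ 0 → (⟪p, v⟫_ℝ = 0 ∧ ∀ θ : E, ⟪θ, v⟫_ℝ = 0 → ∃ μ : ℝ, θ = μ • p) := by
    intro v
    by_cases hv : v = 0
    · exact ⟨0, fun h => absurd hv h⟩
    · obtain ⟨p, hp⟩ := exists_perp hdim hv
      exact ⟨p, fun _ => hp⟩
  choose p hp using hch
  set N0 : Finset E := V ∪ V.image p ∪ V.image (fun v => - p v) ∪
    Finset.univ.image (fun k => - S.g k) ∪
    Finset.univ.image (fun jk : ι × ι => - S.g jk.1 - S.g jk.2) with hN0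
  refine ⟨N0.filter (· ≠ 0), ⟨?_, ?_, ?_, ?_, ?_⟩⟩
  · intro n hn; exact (Finset.mem_filter.1 hn).2
  · intro v hv
    refine Finset.mem_filter.2 ⟨?_, hV v hv⟩
    simp only [hN0, Finset.mem_union]; tauto
  · intro v hv θ hθ hθv
    obtain ⟨μ, hμ⟩ := (hp v (hV v hv)).2 θ hθv
    have hμ0 : μ ≠ 0 := by
      rintro rfl
      rw [zero_smul] at hμ
      exact hθ hμ
    have hp0 : p v ≠ 0 := by
      intro h
      rw [h, smul_zero] at hμ
      exact hθ hμ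
    rcases lt_or_gt_of_ne hμ0 with h | h
    · refine ⟨- p v, Finset.mem_filter.2 ⟨?_, neg_ne_zero.2 hp0⟩, -μ, by linarith, ?_⟩
      · simp only [hN0, Finset.mem_union]
        exact Or.inl (Or.inl (Or.inr (Finset.mem_image_of_mem _ hv)))
      · rw [hμ]; simp
    · refine ⟨p v, Finset.mem_filter.2 ⟨?_, hp0⟩, μ, h, hμ⟩
      simp only [hN0, Finset.mem_union]
      exact Or.inl (Or.inl (Or.inl (Or.inr (Finset.mem_image_of_mem _ hv))))
  · intro k hk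
    refine Finset.mem_filter.2 ⟨?_, neg_ne_zero.2 hk⟩
    simp only [hN0, Finset.mem_union]
    exact Or.inl (Or.inr (Finset.mem_image.2 ⟨k, Finset.mem_univ _, rfl⟩))
  · intro j k hjk
    refine Finset.mem_filter.2 ⟨?_, hjk⟩
    simp only [hN0, Finset.mem_union]
    exact Or.inr (Finset.mem_image.2 ⟨(j, k), Finset.mem_univ _, rfl⟩)

namespace Sys

variable (S : Sys E ι)

lemma continuousOn_Th : ContinuousOn S.Th S.P := by
  unfold Th
  apply continuousOn_finsetSum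
  intro k _
  apply ContinuousOn.smul _ continuousOn_const
  exact ContinuousOn.log (S.continuous_ell k).continuousOn fun a ha => (ha k).ne'

variable [FiniteDimensional ℝ E]

/-- Facets whose normal is exposed at a vertex or is unbounded: `Th` pairs well. -/
lemma facet_main {V N : Finset E} (hN : IsNormals S V N) {C : ℝ} (hC : 0 < C) :
    ∀ᶠ u : ℝ in atTop, ∀ n ∈ N, (S.F n).Subsingleton → ∀ a ∈ S.P,
      (∀ m ∈ N, (S.F m).Subsingleton → ⟪m, a⟫_ℝ ≤ S.ht m (S.lev (S.F m) u)) →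
      ⟪n, a⟫_ℝ = S.ht n (S.lev (S.F n) u) → ∀ v ∈ V, 0 < ⟪n, v⟫_ℝ → C ≤ ⟪S.Th a, v⟫_ℝ := by
  classical
  suffices h : ∀ n ∈ N, ∀ v ∈ V, ∀ᶠ u : ℝ in atTop, (S.F n).Subsingleton → ∀ a ∈ S.P,
      (∀ m ∈ N, (S.F m).Subsingleton → ⟪m, a⟫_ℝ ≤ S.ht m (S.lev (S.F m) u)) →
      ⟪n, a⟫_ℝ = S.ht n (S.lev (S.F n) u) → 0 < ⟪n, v⟫_ℝ → C ≤ ⟪S.Th a, v⟫_ℝ by
    have h1 : ∀ᶠ u : ℝ in atTop, ∀ n ∈ N, ∀ v ∈ V, (S.F n).Subsingleton → ∀ a ∈ S.P,
      (∀ m ∈ N, (S.F m).Subsingleton → ⟪m, a⟫_ℝ ≤ S.ht m (S.lev (S.F m) u)) →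
      ⟪n, a⟫_ℝ = S.ht n (S.lev (S.F n) u) → 0 < ⟪n, v⟫_ℝ → C ≤ ⟪S.Th a, v⟫_ℝ :=
      (Filter.eventually_all_finset N).2 fun n hn =>
        (Filter.eventually_all_finset V).2 fun v hv => h n hn v hv
    filter_upwards [h1] with u hu n hn hsub a ha hm hna v hv hnv
    exact hu n hn v hv hsub a ha hm hna hnv
  intro n hn v hv
  by_cases hsub : (S.F n).Subsingleton
  swap
  · exact Eventually.of_forall fun u h => absurd h hsub
  by_cases hnv : 0 < ⟪n, v⟫_ℝ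
  swap
  · exact Eventually.of_forall fun u _ a _ _ _ h => absurd h hnv
  have hn0 := hN.ne n hn
  have hv0 : v ≠ 0 := hN.ne v (hN.sub hv)
  -- constants
  set Kc : ℝ := ∑ k, Real.exp (C / |⟪S.g k, v⟫_ℝ|) / |⟪S.g k, v⟫_ℝ| with hKcdef
  have hKc : ∀ k, ⟪S.g k, v⟫_ℝ ≠ 0 →
      Real.exp (C / |⟪S.g k, v⟫_ℝ|) ≤ Kc * |⟪S.g k, v⟫_ℝ| := by
    intro k hk
    have hpos : 0 < |⟪S.g k, v⟫_ℝ| := abs_pos.2 hk
    rw [← div_le_iff₀ hpos]
    exact Finset.single_le_sum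
      (f := fun k => Real.exp (C / |⟪S.g k, v⟫_ℝ|) / |⟪S.g k, v⟫_ℝ|)
      (fun k _ => div_nonneg (Real.exp_pos _).le (abs_nonneg _)) (Finset.mem_univ k)
  set lam₀ : ℝ := ((1 + C * Kc) * (∑ k, |⟪S.g k, v⟫_ℝ|) + C + 1) / ⟪n, v⟫_ℝ with hlam₀
  have hlam₀' : lam₀ * ⟪n, v⟫_ℝ = (1 + C * Kc) * (∑ k, |⟪S.g k, v⟫_ℝ|) + C + 1 := by
    rw [hlam₀]; field_simp
  have hKc0 : 0 ≤ Kc := Finset.sum_nonneg fun k _ =>
    div_nonneg (Real.exp_pos _).le (abs_nonneg _)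
  have hlam₀pos : 0 < lam₀ := by
    rw [hlam₀]
    apply div_pos _ hnv
    have : 0 ≤ ∑ k, |⟪S.g k, v⟫_ℝ| := Finset.sum_nonneg fun k _ => abs_nonneg _
    positivity
  obtain ⟨r₀, hr₀, hTh₀⟩ := S.exists_ray (lam₀ • n)
  have hr₀F : ∀ b ∈ S.F n, S.H r₀ < S.H b := by
    intro b hb
    have h1 := S.H_ge hb.1 hr₀
    rw [hTh₀, real_inner_smul_left, inner_sub_right] at h1
    have h2 := S.inner_lt_of_mem_P hn0 hr₀ hb
    have := mul_pos hlam₀pos (sub_pos.2 h2)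
    linarith
  have hsep : ∀ n' ∈ N, ∃ p ∈ S.P, (∀ b ∈ S.F n, S.H p < S.H b) ∧
      (S.F n' ≠ S.F n → ∀ a ∈ S.P, ∀ t : ℝ, 0 ≤ t → a - t • v ∈ S.P →
        ⟪S.Th (a - t • v), v⟫_ℝ = 0 →
        (∃ μ : ℝ, 0 ≤ μ ∧ S.Th (a - t • v) = μ • n') → ⟪S.Th a, v⟫_ℝ ≤ C →
        ⟪n, a⟫_ℝ < ⟪n, p⟫_ℝ) := by
    intro n' _
    by_cases hne : S.F n' = S.F n
    · exact ⟨r₀, hr₀, hr₀F, fun h => absurd hne h⟩
    · obtain ⟨p, hp, hpH, hps⟩ := S.separation hn0 hsub hne hv0 C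
      exact ⟨p, hp, hpH, fun _ => hps⟩
  choose! p hpP hpH hps using hsep
  have hev1 : ∀ᶠ u : ℝ in atTop, S.H r₀ < S.lev (S.F n) u := S.lev_eventually hr₀F
  have hev2 : ∀ᶠ u : ℝ in atTop, ∀ n' ∈ N, S.H (p n') < S.lev (S.F n) u :=
    (Filter.eventually_all_finset N).2 fun n' hn' => S.lev_eventually (hpH n' hn')
  filter_upwards [hev1, hev2, eventually_gt_atTop 0] with u hu1 hu2 hu0 _ a ha hm hna _
  set s := S.lev (S.F n) u with hs
  have hsF : ∀ b ∈ S.F n, s < S.H b := S.lev_lt hsub hu0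
  obtain ⟨r, hr, hrs, ⟨lam, hlam, hTh⟩, hrn⟩ := S.exists_support_ht hn0 ⟨r₀, hr₀, hu1⟩ hsF
  have hlamge : lam₀ ≤ lam := S.lam_ge hr hr₀ hlam hTh hTh₀ (by rw [hrs]; exact hu1)
  have hlamnv : (1 + C * Kc) * (∑ k, |⟪S.g k, v⟫_ℝ|) < lam * ⟪n, v⟫_ℝ - C := by
    have := mul_le_mul_of_nonneg_right hlamge hnv.le
    rw [hlam₀'] at this
    linarith
  by_contra hcon
  push Not at hcon
  -- crossing point
  have hcont : ContinuousOn (fun τ : ℝ => ⟪S.Th ((1 - τ) • r + τ • a), v⟫_ℝ) (Icc 0 1) := by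
    apply ContinuousOn.inner _ continuousOn_const
    apply S.continuousOn_Th.comp (by fun_prop)
    intro τ hτ
    exact S.convex_P hr ha (by linarith [hτ.2]) hτ.1 (by ring)
  have hivt := intermediate_value_Icc' zero_le_one hcont
  have hCmem : C ∈ Icc ((fun τ : ℝ => ⟪S.Th ((1 - τ) • r + τ • a), v⟫_ℝ) 1)
      ((fun τ : ℝ => ⟪S.Th ((1 - τ) • r + τ • a), v⟫_ℝ) 0) := by
    constructor
    · simp only [sub_self, zero_smul, one_smul, zero_add]; exact hcon.le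
    · simp only [sub_zero, zero_smul, one_smul, add_zero]
      rw [hTh, real_inner_smul_left]
      have h1 : 0 ≤ ∑ k, |⟪S.g k, v⟫_ℝ| := Finset.sum_nonneg fun k _ => abs_nonneg _
      have h2 : 0 ≤ (1 + C * Kc) * (∑ k, |⟪S.g k, v⟫_ℝ|) := by positivity
      linarith
  obtain ⟨τ, hτ, hτC⟩ := hivt hCmem
  simp only at hτC
  set a₁ := (1 - τ) • r + τ • a with ha₁def
  have ha₁ : a₁ ∈ S.P := S.convex_P hr ha (by linarith [hτ.2]) hτ.1 (by ring)
  have hna₁ : ⟪n, a₁⟫_ℝ = ⟪n, r⟫_ℝ := by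
    rw [ha₁def, inner_add_right, inner_smul_right, inner_smul_right, hna, hrn]; ring
  -- centre along v
  obtain ⟨c, hcP, hcU, hcTh⟩ := S.exists_center (Submodule.span ℝ {v}) ha₁ (0 : E)
  obtain ⟨t', ht'⟩ := Submodule.mem_span_singleton.1 hcU
  set t := -t' with htdef
  have hc : c = a₁ - t • v := by
    rw [htdef, neg_smul, sub_neg_eq_add, ht']; abel
  have hc0 : ⟪S.Th c, v⟫_ℝ = 0 := by
    have := hcTh v (Submodule.mem_span_singleton_self v)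
    simpa using this
  have ht : 0 ≤ t := by
    have h1 := S.H_ge (S.P_subset_Pc hcP) ha₁
    have h2 := S.H_ge (S.P_subset_Pc ha₁) hcP
    have e1 : c - a₁ = -(t • v) := by rw [hc]; abel
    have e2 : a₁ - c = t • v := by rw [hc]; abel
    rw [e1, inner_neg_right, inner_smul_right, hτC] at h1
    rw [e2, inner_smul_right, hc0] at h2
    by_contra hneg
    push Not at hneg
    nlinarith
  rw [hc] at hcP hc0
  have hcs : S.H (a₁ - t • v) ≤ s := by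
    by_cases hz : S.Th (a₁ - t • v) = 0
    · have h1 := S.H_ge (S.P_subset_Pc hr) hcP
      rw [hz, inner_zero_left, add_zero, hrs] at h1
      exact h1
    · obtain ⟨n', hn', μ, hμ, hμn⟩ := hN.perp v hv _ hz hc0
      have hn'v : ⟪n', v⟫_ℝ = 0 := by
        rw [hμn, real_inner_smul_left] at hc0
        rcases mul_eq_zero.1 hc0 with h | h
        · exact absurd h hμ.ne'
        · exact h
      by_cases hFe : S.F n' = S.F n
      · have hsub' : (S.F n').Subsingleton := by rw [hFe]; exact hsub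
        have h1 := hm n' hn' hsub'
        rw [hFe, ← hs] at h1
        have h2 : ⟪n', r⟫_ℝ ≤ S.ht n' s := S.le_ht (S.P_subset_Pc hr) hrs.le
        obtain ⟨r', hr', hrs', -, hrn'⟩ := S.exists_support_ht (hN.ne n' hn') ⟨r₀, hr₀, hu1⟩
          (by rw [hFe]; exact hsF)
        have h3 : ⟪n', a₁⟫_ℝ ≤ ⟪n', r'⟫_ℝ := by
          rw [hrn', ha₁def, inner_add_right, inner_smul_right, inner_smul_right]
          have hh1 := mul_le_mul_of_nonneg_left h1 hτ.1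
          have hh2 := mul_le_mul_of_nonneg_left h2 (sub_nonneg.2 hτ.2)
          linarith
        have h4 := S.H_ge (S.P_subset_Pc hr') hcP
        rw [hμn, real_inner_smul_left, inner_sub_right, inner_sub_right, inner_smul_right, hn'v,
          hrs'] at h4
        have h5 : 0 ≤ μ * (⟪n', r'⟫_ℝ - (⟪n', a₁⟫_ℝ - t * 0)) := by
          apply mul_nonneg hμ.le; linarith
        linarith
      · exfalso
        have h1 := hps n' hn' hFe a₁ ha₁ t ht hcP hc0 ⟨μ, hμ.le, hμn⟩ hτC.le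
        have h2 : ⟪n, p n'⟫_ℝ ≤ S.ht n s :=
          S.le_ht (S.P_subset_Pc (hpP n' hn')) (hu2 n' hn').le
        rw [hna₁, hrn] at h1
        linarith
  exact S.bregman_contra hr hrs hTh hC hKc hlamnv ha₁ hna₁ hτC ht hcP hc0 hcs

end Sys

end Vale.Agent.P072
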