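import Vale.Agent.P072.Defs
import Vale.Agent.P072.Facets

open Real Set Filter Topology
open scoped InnerProductSpace RealInnerProductSpace

namespace Vale.Agent.P072

variable {d : ℕ}

/-- Linear coordinates on the stoichiometric subspace. -/
structure Coord (G : Network d) (E : Type*) [NormedAddCommGroup E] [InnerProductSpace ℝ E] where
  L : E →ₗ[ℝ] (Fin d → ℝ)
  D : (Fin d → ℝ) →ₗ[ℝ] E
  DL : ∀ a, D (L a) = a
  LD : ∀ w ∈ G.stoich, L (D w) = w
  Lmem : ∀ a, L a ∈ G.stoich

lemma exists_coord (G : Network d) :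
    Nonempty (Coord G (EuclideanSpace ℝ (Fin (Module.finrank ℝ G.stoich)))) := by
  have hfr : Module.finrank ℝ (EuclideanSpace ℝ (Fin (Module.finrank ℝ G.stoich))) =
      Module.finrank ℝ G.stoich := by simp
  let e : EuclideanSpace ℝ (Fin (Module.finrank ℝ G.stoich)) ≃ₗ[ℝ] G.stoich :=
    LinearEquiv.ofFinrankEq _ _ hfr
  let L : EuclideanSpace ℝ (Fin (Module.finrank ℝ G.stoich)) →ₗ[ℝ] (Fin d → ℝ) :=
    G.stoich.subtype ∘ₗ e.toLinearMap
  have hinj : Function.Injective L := by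
    intro a b hab
    apply e.injective
    exact Subtype.ext hab
  obtain ⟨D, hD⟩ := LinearMap.exists_leftInverse_of_injective L (LinearMap.ker_eq_bot.2 hinj)
  have hDL : ∀ a, D (L a) = a := fun a => by
    have := LinearMap.congr_fun hD a
    simpa using this
  refine ⟨⟨L, D, hDL, fun w hw => ?_, fun a => (e a).2⟩⟩
  have h1 : L (e.symm ⟨w, hw⟩) = w := by simp [L]
  rw [← h1, hDL]

variable {G : Network d} {E : Type*} [NormedAddCommGroup E] [InnerProductSpace ℝ E]
  [FiniteDimensional ℝ E]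

namespace Coord

variable (Φ : Coord G E)

/-- The positive class in coordinates. -/
noncomputable def sys (c : Fin d → ℝ) (hc : ∀ i, 0 < c i) : Sys E (Fin d) where
  c := c
  g k := (InnerProductSpace.toDual ℝ E).symm
    (LinearMap.toContinuousLinearMap ((LinearMap.proj k : (Fin d → ℝ) →ₗ[ℝ] ℝ) ∘ₗ Φ.L))
  hc := hc
  hg a ha := by
    have h1 : Φ.L a = 0 := by
      ext k
      have := ha k
      simpa using this
    rw [← Φ.DL a, h1, map_zero]

variable (c : Fin d → ℝ) (hc : ∀ i, 0 < c i)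

lemma inner_g (k : Fin d) (a : E) : ⟪(Φ.sys c hc).g k, a⟫_ℝ = Φ.L a k := by
  simp [sys]

lemma ell_eq (k : Fin d) (a : E) : (Φ.sys c hc).ell k a = c k + Φ.L a k := by
  unfold Sys.ell
  rw [inner_g]
  rfl

lemma mem_P_iff (a : E) : a ∈ (Φ.sys c hc).P ↔ c + Φ.L a ∈ G.posClass c := by
  constructor
  · intro h
    refine ⟨fun i => ?_, ?_⟩
    · have := h i
      rw [ell_eq] at this
      exact this
    · rw [add_sub_cancel_left]; exact Φ.Lmem a
  · intro h i
    rw [ell_eq]
    exact h.1 i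

/-- Log of a ratio of monomials. -/
lemma log_mono (u w : Fin d → ℕ) (huw : Network.rvec (u, w) ∈ G.stoich) {a : E}
    (ha : a ∈ (Φ.sys c hc).P) :
    Real.log (∏ i, (c + Φ.L a) i ^ w i) - Real.log (∏ i, (c + Φ.L a) i ^ u i) =
      ⟪(Φ.sys c hc).Th a, Φ.D (Network.rvec (u, w))⟫_ℝ := by
  have hpos : ∀ i, 0 < (c + Φ.L a) i := ((Φ.mem_P_iff c hc a).1 ha).1
  rw [Real.log_prod (fun i _ => (pow_pos (hpos i) _).ne'),
    Real.log_prod (fun i _ => (pow_pos (hpos i) _).ne'), ← Finset.sum_sub_distrib, Sys.inner_Th]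
  apply Finset.sum_congr rfl
  intro k _
  rw [inner_g, Φ.LD _ huw, ell_eq, Real.log_pow, Real.log_pow]
  simp only [Network.rvec, Pi.add_apply]
  ring

end Coord

end Vale.Agent.P072
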