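import Mathlib

open Set Filter Topology Real

namespace Vale.Agent.P072

/-- If `m` is antitone and `∑ m i * y (τ i)` is maximal at the identity, then `y` can be sorted by a
permutation which does not change `m`. -/
lemma exists_sort {q : ℕ} {m y : Fin q → ℝ} (hm : Antitone m)
    (hmax : ∀ τ : Equiv.Perm (Fin q), ∑ i, m i * y (τ i) ≤ ∑ i, m i * y i) :
    ∃ τ : Equiv.Perm (Fin q), Antitone (y ∘ τ) ∧ m ∘ τ = m := by
  classical
  have hmono : ∀ i k, m k < m i → y k ≤ y i := by
    intro i k hik
    have hne : i ≠ k := by rintro rfl; exact lt_irrefl _ hik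
    have h1 := hmax (Equiv.swap i k)
    have h2 : ∑ x, m x * y (Equiv.swap i k x) - ∑ x, m x * y x =
        (m i - m k) * (y k - y i) := by
      rw [← Finset.sum_sub_distrib]
      have h3 : ∀ x, x ≠ i → x ≠ k → m x * y (Equiv.swap i k x) - m x * y x = 0 := by
        intro x hx1 hx2
        rw [Equiv.swap_apply_of_ne_of_ne hx1 hx2, sub_self]
      rw [← Finset.sum_subset (Finset.subset_univ {i, k})
        (by
          intro x _ hx
          simp only [Finset.mem_insert, Finset.mem_singleton, not_or] at hx
          exact h3 x hx.1 hx.2), Finset.sum_pair hne, Equiv.swap_apply_left,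
        Equiv.swap_apply_right]
      ring
    have h4 : (m i - m k) * (y k - y i) ≤ 0 := by linarith
    by_contra hcon
    have h5 : 0 < (m i - m k) * (y k - y i) := mul_pos (by linarith) (by linarith [not_le.1 hcon])
    linarith
  set f : Fin q → ℝ ×ₗ ℝ := fun i => toLex (-y i, -m i) with hf
  set τ := Tuple.sort f with hτ
  have hτm : Monotone (f ∘ τ) := Tuple.monotone_sort f
  have hlex : ∀ i k, i ≤ k → -y (τ i) < -y (τ k) ∨ (-y (τ i) = -y (τ k) ∧ -m (τ i) ≤ -m (τ k)) := by
    intro i k hik
    have := hτm hik
    simp only [Function.comp_apply, hf, Prod.Lex.le_iff, ofLex_toLex] at this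
    exact this
  refine ⟨τ, fun i k hik => ?_, ?_⟩
  · rcases hlex i k hik with h | ⟨h, -⟩
    · simp only [Function.comp_apply]; linarith
    · simp only [Function.comp_apply]; linarith
  · have h1 : Monotone ((fun i => -m i) ∘ τ) := by
      intro i k hik
      rcases hlex i k hik with h | ⟨-, h⟩
      · simp only [Function.comp_apply]
        by_contra hcon
        have h2 : m (τ i) < m (τ k) := by linarith [not_le.1 hcon]
        have := hmono (τ k) (τ i) h2
        linarith
      · exact h
    have h2 : Monotone ((fun i => -m i) ∘ (Equiv.refl (Fin q))) := by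
      intro i k hik
      simp only [Function.comp_apply, Equiv.refl_apply]
      linarith [hm hik]
    have h3 := Tuple.unique_monotone h1 h2
    ext i
    have := congrFun h3 i
    simp only [Function.comp_apply, Equiv.refl_apply] at this ⊢
    linarith

end Vale.Agent.P072
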