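import Vale.Agent.P072.TopFam
import Vale.Agent.P072.Sorting

open Set Filter Topology Real

namespace Vale.Agent.P072

/-- The sequence read off from a vector along an embedding. -/
noncomputable def sq {d q : ℕ} (ι : Fin q ↪ Fin d) (w : Fin d → ℝ) : ℕ → ℝ :=
  fun i => if h : i < q then w (ι ⟨i, h⟩) else 0

lemma sq_fin {d q : ℕ} (ι : Fin q ↪ Fin d) (w : Fin d → ℝ) (i : Fin q) : sq ι w i = w (ι i) := by
  simp [sq]

lemma dt_fin (q : ℕ) (m z : ℕ → ℝ) : dt q m z = ∑ i : Fin q, m i * z i := by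
  unfold dt
  rw [Finset.sum_range]

open Classical in
/-- The base of the tower of order `q`. -/
noncomputable def tbase (d q : ℕ) (V₀ : Finset (Fin d → ℝ)) : Finset (ℕ → ℝ) :=
  (V₀ ×ˢ (Finset.univ : Finset (Fin q ↪ Fin d))).image (fun p => sq p.2 p.1) ∪
    (Finset.range (q - 1)).image tieVec

lemma exists_base_tower (d q : ℕ) (V₀ : Finset (Fin d → ℝ)) :
    ∃ 𝒯 : Tower q, ∀ w ∈ V₀, ∀ ι : Fin q ↪ Fin d, sq ι w ∈ 𝒯.V q := by
  classical
  obtain ⟨𝒯, h𝒯⟩ := exists_tower q (tbase d q V₀) (by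
    intro u hu i hi
    simp only [tbase, Finset.mem_union, Finset.mem_image, Finset.mem_product, Finset.mem_range] at hu
    rcases hu with ⟨p, -, rfl⟩ | ⟨j, hj, rfl⟩
    · simp [sq, not_lt.2 hi]
    · unfold tieVec
      rw [if_neg (by omega), if_neg (by omega)]) (by
    intro j hj
    simp only [tbase, Finset.mem_union, Finset.mem_image, Finset.mem_range]
    exact Or.inr ⟨j, by omega, rfl⟩)
  refine ⟨𝒯, fun w hw ι => ?_⟩
  rw [h𝒯]
  simp only [tbase, Finset.mem_union, Finset.mem_image, Finset.mem_product]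
  exact Or.inl ⟨(w, ι), ⟨hw, Finset.mem_univ _⟩, rfl⟩

/-- The facet estimate for one family. -/
theorem core {d q : ℕ} (V₀ : Finset (Fin d → ℝ)) (𝒯 : Tower q)
    (h𝒯 : ∀ w ∈ V₀, ∀ ι : Fin q ↪ Fin d, sq ι w ∈ 𝒯.V q) {s lo T : ℝ}
    {F : Finset ((ℕ → ℝ) × (ℝ → ℝ))} (hanti : ∀ p ∈ F, ∀ i k, i ≤ k → p.1 k ≤ p.1 i)
    (hF : ∀ᶠ Λ in atTop, ∀ z : ℕ → ℝ, (∀ i < q, exp (-T * Λ) ≤ z i) →
        (∀ i k, i ≤ k → k < q → z k ≤ z i) →
        (∀ p ∈ F, dt q p.1 z - p.2 Λ ≤ s * exp (s * Λ)) →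
        ∀ p ∈ F, dt q p.1 z - p.2 Λ = s * exp (s * Λ) →
        ∀ u ∈ 𝒯.V q, 0 < dt q u p.1 → lo * Λ ≤ ∑ i ∈ Finset.range q, u i * log (z i)) :
    ∀ᶠ Λ in atTop, ∀ x : Fin d → ℝ, (∀ k, exp (-T * Λ) ≤ x k) →
      (∀ ι : Fin q ↪ Fin d, ∀ p ∈ F, ∑ i : Fin q, p.1 i * x (ι i) - p.2 Λ ≤ s * exp (s * Λ)) →
      ∀ ι : Fin q ↪ Fin d, ∀ p ∈ F, ∑ i : Fin q, p.1 i * x (ι i) - p.2 Λ = s * exp (s * Λ) →
      ∀ w ∈ V₀, 0 < ∑ i : Fin q, p.1 i * w (ι i) →
        lo * Λ ≤ ∑ i : Fin q, w (ι i) * log (x (ι i)) := by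
  classical
  filter_upwards [hF] with Λ hΛ x hxT hle ι p hp heq w hw hpos
  obtain ⟨τ, hτy, hτm⟩ := exists_sort (m := fun i : Fin q => p.1 i) (y := fun i => x (ι i))
    (fun i k hik => hanti p hp i k hik) (by
      intro τ
      have h1 := hle (τ.toEmbedding.trans ι) p hp
      simp only [Function.Embedding.trans_apply, Equiv.coe_toEmbedding] at h1
      linarith)
  set ι' : Fin q ↪ Fin d := τ.toEmbedding.trans ι with hι'
  have hι'a : ∀ i, ι' i = ι (τ i) := fun i => rfl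
  have hmτ : ∀ i : Fin q, p.1 (τ i : Fin q) = p.1 i := fun i => congrFun hτm i
  -- the sorted sequence
  have hz : ∀ m : ℕ → ℝ, ∀ y : Fin d → ℝ, dt q m (sq ι' y) = ∑ i : Fin q, m i * y (ι' i) := by
    intro m y
    rw [dt_fin]
    exact Finset.sum_congr rfl fun i _ => by rw [sq_fin]
  have hzl : ∀ (y : Fin d → ℝ), ∑ i : Fin q, p.1 i * y (ι' i) = ∑ i : Fin q, p.1 i * y (ι i) := by
    intro y
    rw [← Equiv.sum_comp τ (fun i => p.1 i * y (ι i))]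
    refine Finset.sum_congr rfl fun i _ => ?_
    rw [hι'a, hmτ]
  have h1 := hΛ (sq ι' x) (by
    intro i hi
    have : sq ι' x i = x (ι' ⟨i, hi⟩) := by simp [sq, hi]
    rw [this]; exact hxT _) (by
    intro i k hik hk
    have e1 : sq ι' x i = x (ι' ⟨i, by omega⟩) := by simp [sq, show i < q by omega]
    have e2 : sq ι' x k = x (ι' ⟨k, hk⟩) := by simp [sq, hk]
    rw [e1, e2]
    exact hτy (show (⟨i, by omega⟩ : Fin q) ≤ ⟨k, hk⟩ from hik)) (by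
    intro p' hp'
    rw [hz]
    exact hle ι' p' hp') p hp (by
    rw [hz, hzl]; exact heq) (sq ι' w) (h𝒯 w hw ι') (by
    have : dt q (sq ι' w) p.1 = ∑ i : Fin q, p.1 i * w (ι' i) := by
      rw [← hz]
      unfold dt
      exact Finset.sum_congr rfl fun i _ => mul_comm _ _
    rw [this, hzl]; exact hpos)
  refine h1.trans (le_of_eq ?_)
  rw [Finset.sum_range]
  rw [← Equiv.sum_comp τ (fun i => w (ι i) * log (x (ι i)))]
  refine Finset.sum_congr rfl fun i _ => ?_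
  rw [sq_fin, sq_fin, hι'a]

end Vale.Agent.P072
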