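import Mathlib

open Set MeasureTheory

namespace Vale.Agent.P072

/-- A finite reaction network with species indexed by `Fin d`: a finite set of complexes and a
finite set of reactions, a reaction `(y, y')` standing for `y → y'` with `y ≠ y'`. -/
structure Network (d : ℕ) where
  cplx : Finset (Fin d → ℕ)
  rxn : Finset ((Fin d → ℕ) × (Fin d → ℕ))
  mem : ∀ r ∈ rxn, r.1 ∈ cplx ∧ r.2 ∈ cplx
  ne : ∀ r ∈ rxn, r.1 ≠ r.2

namespace Network

variable {d : ℕ} (G : Network d)

/-- For each reaction `y → y'` there is a directed path of reactions from `y'` to `y`. -/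
def WeaklyReversible : Prop :=
  ∀ r ∈ G.rxn, Relation.ReflTransGen (fun u v => (u, v) ∈ G.rxn) r.2 r.1

/-- The reaction vector `y' - y`. -/
def rvec (r : (Fin d → ℕ) × (Fin d → ℕ)) : Fin d → ℝ := fun i => (r.2 i : ℝ) - (r.1 i : ℝ)

/-- The stoichiometric subspace. -/
def stoich : Submodule ℝ (Fin d → ℝ) := Submodule.span ℝ {v | ∃ r ∈ G.rxn, v = rvec r}

/-- The mass-action vector field with rates `k`. -/
def field (k : (Fin d → ℕ) × (Fin d → ℕ) → ℝ) (x : Fin d → ℝ) : Fin d → ℝ :=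
  ∑ r ∈ G.rxn, (k r * ∏ i, x i ^ r.1 i) • rvec r

/-- The positive stoichiometric class of `c`. -/
def posClass (c : Fin d → ℝ) : Set (Fin d → ℝ) := {x | (∀ i, 0 < x i) ∧ x - c ∈ G.stoich}

/-- `x` solves the mass-action equation with constant rates `k` on the set of times `I`. -/
def IsSol (k : (Fin d → ℕ) × (Fin d → ℕ) → ℝ) (x : ℝ → Fin d → ℝ) (I : Set ℝ) : Prop :=
  ∀ t ∈ I, HasDerivWithinAt x (G.field k (x t)) I t

/-- Permanence on the positive stoichiometric class of `c`, for constant rates `k`: there is one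
compact subset `K` of the class such that from each point of the class there starts a solution on
`[0, ∞)`, which stays in the class, lies in `K` for all large times, and with which every solution
on an interval `[0, τ)` with the same starting point coincides. -/
def Permanent (k : (Fin d → ℕ) × (Fin d → ℕ) → ℝ) (c : Fin d → ℝ) : Prop :=
  ∃ K : Set (Fin d → ℝ), IsCompact K ∧ K ⊆ G.posClass c ∧
    ∀ x₀ ∈ G.posClass c, ∃ x : ℝ → Fin d → ℝ, x 0 = x₀ ∧ G.IsSol k x (Ici 0) ∧
      (∀ t ≥ 0, x t ∈ G.posClass c) ∧ (∃ T, ∀ t ≥ T, x t ∈ K) ∧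
      ∀ τ > 0, ∀ z : ℝ → Fin d → ℝ, z 0 = x₀ → G.IsSol k z (Ico 0 τ) →
        ∀ t ∈ Ico 0 τ, z t = x t

/-- `x` solves the mass-action equation with time-dependent rates `κ` on the interval `I` with left
end `0`, in the integrated form. -/
def IsVarSol (κ : ℝ → (Fin d → ℕ) × (Fin d → ℕ) → ℝ) (x : ℝ → Fin d → ℝ) (I : Set ℝ) : Prop :=
  ContinuousOn x I ∧ ∀ t ∈ I, IntervalIntegrable (fun s => G.field (κ s) (x s)) volume 0 t ∧
    x t = x 0 + ∫ s in (0:ℝ)..t, G.field (κ s) (x s)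

/-- Permanence on the positive stoichiometric class of `c`, uniform over all measurable
time-dependent rates with values in `[ε, 1/ε]`. The compact set `K` depends only on the class and
on `ε`; the entrance time `T` may depend on the starting point but not on the rates. -/
def VarPermanent (ε : ℝ) (c : Fin d → ℝ) : Prop :=
  ∃ K : Set (Fin d → ℝ), IsCompact K ∧ K ⊆ G.posClass c ∧
    ∀ x₀ ∈ G.posClass c, ∃ T : ℝ, ∀ κ : ℝ → (Fin d → ℕ) × (Fin d → ℕ) → ℝ,
      (∀ r ∈ G.rxn, Measurable fun t => κ t r) →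
      (∀ t ≥ 0, ∀ r ∈ G.rxn, ε ≤ κ t r ∧ κ t r ≤ 1 / ε) →
      ∃ x : ℝ → Fin d → ℝ, x 0 = x₀ ∧ G.IsVarSol κ x (Ici 0) ∧
        (∀ t ≥ 0, x t ∈ G.posClass c) ∧ (∀ t ≥ 0, T ≤ t → x t ∈ K) ∧
        ∀ τ > 0, ∀ z : ℝ → Fin d → ℝ, z 0 = x₀ → G.IsVarSol κ z (Ico 0 τ) →
          ∀ t ∈ Ico 0 τ, z t = x t

end Network

end Vale.Agent.P072
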