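import Vale.Agent.P072.Facets

open Real Set Filter Topology
open scoped InnerProductSpace RealInnerProductSpace

namespace Vale.Agent.P072

set_option linter.unusedSectionVars false

variable {E : Type*} [NormedAddCommGroup E] [InnerProductSpace ℝ E] {ι : Type*} [Fintype ι]

namespace Sys

variable (S : Sys E ι)

open Classical in
/-- The value of `n` on its exposed face. -/
noncomputable def hstar (n : E) : ℝ := if h : (S.F n).Nonempty then ⟪n, h.some⟫_ℝ else 0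

lemma hstar_eq {n b : E} (hb : b ∈ S.F n) : S.hstar n = ⟪n, b⟫_ℝ := by
  have h : (S.F n).Nonempty := ⟨b, hb⟩
  unfold hstar
  rw [dif_pos h]
  exact le_antisymm (hb.2 _ h.some_mem.1) (h.some_mem.2 _ hb.1)

variable [FiniteDimensional ℝ E]

/-- Structure of the active constraints at a non-vertex point of an exposed edge. -/
lemma active_on_edge (hdim : Module.finrank ℝ E ≤ 2) {V N : Finset E} (hN : IsNormals S V N)
    {n : E} (hn0 : n ≠ 0) (hns : ¬ (S.F n).Subsingleton) {b : E} (hb : b ∈ S.F n)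
    (hnov : ∀ m ∈ N, S.F m ≠ {b}) :
    (∃ k, S.ell k b = 0) ∧ ∀ k, S.ell k b = 0 → ∃ γ : ℝ, γ < 0 ∧ S.g k = γ • n := by
  rw [Set.not_subsingleton_iff] at hns
  obtain ⟨b₁, hb₁, b₂, hb₂, hne⟩ := hns
  set w := b₁ - b₂ with hw
  have hw0 : w ≠ 0 := sub_ne_zero.2 hne
  have hnw : ⟪n, w⟫_ℝ = 0 := by
    rw [hw, inner_sub_right, sub_eq_zero]
    exact le_antisymm (hb₂.2 _ hb₁.1) (hb₁.2 _ hb₂.1)
  have hnpos : 0 < ⟪n, b⟫_ℝ := by
    have := S.inner_lt_of_mem_P hn0 S.zero_mem_P hb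
    simpa using this
  -- sign of the multiple
  have hsign : ∀ k, S.ell k b = 0 → ∀ γ : ℝ, S.g k = γ • n → γ < 0 := by
    intro k hk γ hγ
    have h1 := S.hc k
    have h2 : S.c k + γ * ⟪n, b⟫_ℝ = 0 := by
      rw [← hk]; unfold ell; rw [hγ, real_inner_smul_left]
    by_contra hcon
    push Not at hcon
    have := mul_nonneg hcon hnpos.le
    linarith
  -- the midpoint
  set m := (1 / 2 : ℝ) • b₁ + (1 / 2 : ℝ) • b₂ with hm
  have hmPc : m ∈ S.Pc := S.convex_Pc hb₁.1 hb₂.1 (by norm_num) (by norm_num) (by norm_num)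
  have h12 : ⟪n, b₂⟫_ℝ = ⟪n, b₁⟫_ℝ := le_antisymm (hb₁.2 _ hb₂.1) (hb₂.2 _ hb₁.1)
  have hbb : ⟪n, b⟫_ℝ = ⟪n, b₁⟫_ℝ := le_antisymm (hb₁.2 _ hb.1) (hb.2 _ hb₁.1)
  have hnm : ⟪n, m⟫_ℝ = ⟪n, b⟫_ℝ := by
    rw [hm, inner_add_right, inner_smul_right, inner_smul_right, h12, hbb]; ring
  have hmF : m ∈ S.F n := ⟨hmPc, fun a ha => by rw [hnm]; exact hb.2 a ha⟩
  obtain ⟨j, hj⟩ := S.exists_active hmPc (S.not_mem_P_of_mem_F hn0 hmF)
  have hj12 : S.ell j b₁ = 0 ∧ S.ell j b₂ = 0 := by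
    have h1 := hb₁.1 j
    have h2 := hb₂.1 j
    have e : m = (1 - 1 / 2 : ℝ) • b₁ + (1 / 2 : ℝ) • b₂ := by rw [hm]; norm_num
    rw [e, S.ell_comb] at hj
    constructor <;> linarith
  have hjw : ⟪S.g j, w⟫_ℝ = 0 := by rw [hw, ← S.ell_sub, hj12.1, hj12.2, sub_zero]
  obtain ⟨γj, hγj⟩ := mult_of_orth hdim hn0 hw0 hnw hjw
  have hjb : S.ell j b = 0 := by
    rw [← hj12.1]; unfold ell; rw [hγj, real_inner_smul_left, real_inner_smul_left, hbb]
  refine ⟨⟨j, hjb⟩, fun k hk => ?_⟩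
  by_cases hkw : ⟪S.g k, w⟫_ℝ = 0
  · obtain ⟨γ, hγ⟩ := mult_of_orth hdim hn0 hw0 hnw hkw
    exact ⟨γ, hsign k hk γ hγ, hγ⟩
  · exfalso
    have hγjneg := hsign j hjb γj hγj
    have hne'' : - S.g j - S.g k ≠ 0 := by
      intro h
      have : ⟪- S.g j - S.g k, w⟫_ℝ = 0 := by rw [h, inner_zero_left]
      rw [inner_sub_left, inner_neg_left, hjw] at this
      apply hkw; linarith
    apply hnov _ (hN.add j k hne'')
    ext a
    constructor
    · intro ha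
      have h1 := ha.2 b hb.1
      have e : ∀ x : E, ⟪- S.g j - S.g k, x⟫_ℝ = S.c j + S.c k - S.ell j x - S.ell k x := by
        intro x; unfold ell; rw [inner_sub_left, inner_neg_left]; ring
      rw [e, e, hjb, hk] at h1
      have h2 := ha.1 j
      have h3 := ha.1 k
      have h4 : S.ell j a = 0 := by linarith
      have h5 : S.ell k a = 0 := by linarith
      have h6 : ⟪S.g j, a - b⟫_ℝ = 0 := by rw [← S.ell_sub, h4, hjb, sub_zero]
      have h7 : ⟪S.g k, a - b⟫_ℝ = 0 := by rw [← S.ell_sub, h5, hk, sub_zero]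
      rw [hγj, real_inner_smul_left] at h6
      have h8 : ⟪n, a - b⟫_ℝ = 0 := by
        rcases mul_eq_zero.1 h6 with h | h
        · exact absurd h hγjneg.ne
        · exact h
      obtain ⟨c, hc⟩ := mult_of_orth hdim hw0 hn0 (by rw [real_inner_comm]; exact hnw)
        (z := a - b) (by rw [real_inner_comm]; exact h8)
      rw [hc, inner_smul_right] at h7
      have hc0 : c = 0 := by
        rcases mul_eq_zero.1 h7 with h | h
        · exact h
        · exact absurd h hkw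
      rw [hc0, zero_smul, sub_eq_zero] at hc
      exact hc
    · intro ha
      rw [show a = b from ha]
      refine ⟨hb.1, fun x hx => ?_⟩
      have e : ∀ x : E, ⟪- S.g j - S.g k, x⟫_ℝ = S.c j + S.c k - S.ell j x - S.ell k x := by
        intro x; unfold ell; rw [inner_sub_left, inner_neg_left]; ring
      rw [e, e, hjb, hk]
      have h2 := hx j
      have h3 := hx k
      linarith

/-- Facets parallel to an edge of the polyhedron. -/
lemma facet_edge (hdim : Module.finrank ℝ E ≤ 2) {V N : Finset E} (hN : IsNormals S V N)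
    {K : Set E} (hK : IsCompact K) (hKc : K ⊆ S.Pc) (hnov : ∀ m ∈ N, ∀ b ∈ K, S.F m ≠ {b})
    {n : E} (hn0 : n ≠ 0) (hns : ¬ (S.F n).Subsingleton) (C : ℝ) :
    ∃ η > 0, ∀ a ∈ K, a ∈ S.P → S.hstar n - η ≤ ⟪n, a⟫_ℝ →
      ∀ v ∈ V, 0 < ⟪n, v⟫_ℝ → C ≤ ⟪S.Th a, v⟫_ℝ := by
  classical
  have hFne : (S.F n).Nonempty := by
    rw [Set.not_subsingleton_iff] at hns
    exact hns.nonempty
  obtain ⟨bF, hbF⟩ := hFne
  set Bad : Set E := {a | a ∈ K ∧ a ∈ S.P ∧ ∃ v ∈ V, 0 < ⟪n, v⟫_ℝ ∧ ⟪S.Th a, v⟫_ℝ < C} with hBad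
  rcases Bad.eq_empty_or_nonempty with hE | hne
  · refine ⟨1, one_pos, fun a ha haP _ v hv hnv => ?_⟩
    by_contra hcon
    push Not at hcon
    have : a ∈ Bad := ⟨ha, haP, v, hv, hnv, hcon⟩
    rw [hE] at this
    exact this
  · have hclK : closure Bad ⊆ K := by
      apply closure_minimal (fun a ha => ha.1) hK.isClosed
    have hcc : IsCompact (closure Bad) := hK.of_isClosed_subset isClosed_closure hclK
    obtain ⟨b, hb, hmax⟩ := hcc.exists_isMaxOn hne.closure (f := fun a => ⟪n, a⟫_ℝ) (by fun_prop)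
    have hbPc : b ∈ S.Pc := hKc (hclK hb)
    have hlt : ⟪n, b⟫_ℝ < S.hstar n := by
      rw [S.hstar_eq hbF]
      apply lt_of_le_of_ne (hbF.2 b hbPc)
      intro heq
      have hbF' : b ∈ S.F n := ⟨hbPc, fun a ha => heq ▸ hbF.2 a ha⟩
      obtain ⟨⟨k₀, hk₀⟩, hact⟩ := S.active_on_edge hdim hN hn0 hns hbF'
        (fun m hm => hnov m hm b (hclK hb))
      have hev : ∀ᶠ r in 𝓝[S.P] b, ∀ v ∈ V, 0 < ⟪n, v⟫_ℝ → C ≤ ⟪S.Th r, v⟫_ℝ := by
        rw [Filter.eventually_all_finset]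
        intro v _
        by_cases hnv : 0 < ⟪n, v⟫_ℝ
        · have hT := S.tendsto_inner_Th' (w := -v) hbPc (by
            intro k hk
            obtain ⟨γ, hγ, hgk⟩ := hact k hk
            rw [hgk, real_inner_smul_left, inner_neg_right]
            nlinarith) ⟨k₀, hk₀, by
            obtain ⟨γ, hγ, hgk⟩ := hact k₀ hk₀
            rw [hgk, real_inner_smul_left, inner_neg_right]
            nlinarith⟩
          filter_upwards [hT.eventually (eventually_le_atBot (-C))] with r hr _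
          rw [inner_neg_right] at hr
          linarith
        · exact Eventually.of_forall fun r h => absurd h hnv
      rw [eventually_nhdsWithin_iff] at hev
      obtain ⟨x, hx1, hx2⟩ := (mem_closure_iff_frequently.1 hb).and_eventually hev |>.exists
      obtain ⟨_, hxP, v, hv, hnv, hlt⟩ := hx1
      exact absurd (hx2 hxP v hv hnv) (not_le.2 hlt)
    refine ⟨(S.hstar n - ⟪n, b⟫_ℝ) / 2, by linarith, fun a ha haP hna v hv hnv => ?_⟩
    by_contra hcon
    push Not at hcon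
    have : a ∈ closure Bad := subset_closure ⟨ha, haP, v, hv, hnv, hcon⟩
    have := hmax this
    simp only [mem_ofPred_eq] at this
    linarith

open Classical in
/-- Heights of the facets of the absorbing polygons. -/
noncomputable def height (n : E) (u η : ℝ) : ℝ :=
  if (S.F n).Subsingleton then S.ht n (S.lev (S.F n) u) else S.hstar n - η

/-- The absorbing polygons. -/
def Q (N : Finset E) (u η : ℝ) : Set E := {a | ∀ n ∈ N, ⟪n, a⟫_ℝ ≤ S.height n u η}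

lemma isClosed_Q (N : Finset E) (u η : ℝ) : IsClosed (S.Q N u η) := by
  have : S.Q N u η = ⋂ n ∈ N, {a | ⟪n, a⟫_ℝ ≤ S.height n u η} := by
    ext a; simp [Q]
  rw [this]
  exact isClosed_biInter fun n _ => isClosed_le (by fun_prop) continuous_const

/-- A finite spanning family controls the norm. -/
lemma exists_norm_le_finset {V : Finset E} (hsp : ∀ a : E, (∀ v ∈ V, ⟪v, a⟫_ℝ = 0) → a = 0) :
    ∃ A : ℝ, 0 < A ∧ ∀ a : E, ‖a‖ ≤ A * ∑ v ∈ V, |⟪v, a⟫_ℝ| := by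
  let S' : Sys E {v // v ∈ V} :=
    { c := fun _ => 1
      g := fun v => v.1
      hc := fun _ => one_pos
      hg := fun a ha => hsp a fun v hv => ha ⟨v, hv⟩ }
  obtain ⟨A, hA, h⟩ := S'.exists_norm_le
  refine ⟨A, hA, fun a => ?_⟩
  have := h a
  rw [← Finset.sum_coe_sort V (fun v => |⟪v, a⟫_ℝ|)]
  exact this

/-- The parameter `u` is admissible. -/
def Adm (N : Finset E) (u : ℝ) : Prop :=
  1 ≤ u ∧ ∀ n ∈ N, (S.F n).Subsingleton → ∃ p ∈ S.P, S.H p < S.lev (S.F n) u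

lemma Adm.mono {N : Finset E} {u u' : ℝ} (h : S.Adm N u) (huu : u ≤ u') : S.Adm N u' := by
  refine ⟨h.1.trans huu, fun n hn hs => ?_⟩
  obtain ⟨p, hp, hpl⟩ := h.2 n hn hs
  exact ⟨p, hp, hpl.trans_le (S.lev_mono (by linarith [h.1]) huu)⟩

lemma eventually_point {n a : E} (hn0 : n ≠ 0) (hs : (S.F n).Subsingleton) (ha : a ∈ S.P) :
    ∀ᶠ u : ℝ in atTop, ∃ p ∈ S.P, S.H p < S.lev (S.F n) u ∧ ⟪n, a⟫_ℝ ≤ ⟪n, p⟫_ℝ := by
  have : ∃ p ∈ S.P, (∀ b ∈ S.F n, S.H p < S.H b) ∧ ⟪n, a⟫_ℝ ≤ ⟪n, p⟫_ℝ := by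
    rcases hs.eq_empty_or_singleton with hE | ⟨b₀, hF⟩
    · exact ⟨a, ha, by simp [hE], le_refl _⟩
    · have hb₀ : b₀ ∈ S.F n := by rw [hF]; rfl
      obtain ⟨p, hp, hpH, hpn⟩ := S.exists_P_near_vertex hn0 hb₀ (S.inner_lt_of_mem_P hn0 ha hb₀)
      refine ⟨p, hp, fun b hb => ?_, hpn⟩
      rw [hF] at hb
      rw [show b = b₀ from hb]; exact hpH
  obtain ⟨p, hp, hpF, hpn⟩ := this
  filter_upwards [S.lev_eventually hpF] with u hu
  exact ⟨p, hp, hu, hpn⟩

lemma eventually_adm {N : Finset E} (hN0 : ∀ n ∈ N, n ≠ 0) : ∀ᶠ u : ℝ in atTop, S.Adm N u := by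
  have h : ∀ᶠ u : ℝ in atTop, ∀ n ∈ N, (S.F n).Subsingleton →
      ∃ p ∈ S.P, S.H p < S.lev (S.F n) u := by
    rw [Filter.eventually_all_finset]
    intro n hn
    by_cases hs : (S.F n).Subsingleton
    · filter_upwards [S.eventually_point (hN0 n hn) hs S.zero_mem_P] with u hu _
      obtain ⟨p, hp, h1, -⟩ := hu
      exact ⟨p, hp, h1⟩
    · exact Eventually.of_forall fun u h => absurd h hs
  filter_upwards [h, eventually_ge_atTop 1] with u hu h1
  exact ⟨h1, hu⟩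

lemma Q_subset_P {V N : Finset E} (hN : IsNormals S V N) {u η : ℝ} (hu : S.Adm N u) (hη : 0 < η) :
    S.Q N u η ⊆ S.P := by
  intro a ha k
  by_cases hk : S.g k = 0
  · unfold ell; rw [hk, inner_zero_left, add_zero]; exact S.hc k
  · have hn := hN.neg k hk
    have h1 := ha _ hn
    have hn0 : - S.g k ≠ 0 := neg_ne_zero.2 hk
    have e : ∀ x : E, ⟪- S.g k, x⟫_ℝ = S.c k - S.ell k x := by
      intro x; unfold ell; rw [inner_neg_left]; ring
    unfold height at h1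
    split_ifs at h1 with hs
    · obtain ⟨r, hr, -, -, hrn⟩ := S.exists_support_ht hn0 (hu.2 _ hn hs)
        (S.lev_lt hs (by linarith [hu.1]))
      rw [← hrn, e, e] at h1
      have := hr k
      linarith
    · rw [Set.not_subsingleton_iff] at hs
      obtain ⟨b, hb⟩ := hs.nonempty
      rw [S.hstar_eq hb, e, e] at h1
      have := hb.1 k
      linarith

lemma height_le_of_mem {V N : Finset E} (hN : IsNormals S V N) {u : ℝ} (hu : S.Adm N u) {n : E}
    (hn : n ∈ N) (hs : (S.F n).Subsingleton) {b : E} (hb : b ∈ S.F n) :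
    S.ht n (S.lev (S.F n) u) < ⟪n, b⟫_ℝ := by
  obtain ⟨r, hr, -, -, hrn⟩ := S.exists_support_ht (hN.ne n hn) (hu.2 _ hn hs)
        (S.lev_lt hs (by linarith [hu.1]))
  rw [← hrn]
  exact S.inner_lt_of_mem_P (hN.ne n hn) hr hb

/-- The big compact set in the closed polyhedron. -/
lemma compact_big {V N : Finset E} (hN : IsNormals S V N) (hVs : ∀ v ∈ V, -v ∈ V)
    (hsp : ∀ a : E, (∀ v ∈ V, ⟪v, a⟫_ℝ = 0) → a = 0) (u : ℝ) :
    IsCompact {a | a ∈ S.Pc ∧ ∀ m ∈ N, (S.F m).Subsingleton →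
      ⟪m, a⟫_ℝ ≤ S.ht m (S.lev (S.F m) u)} := by
  classical
  set K := {a | a ∈ S.Pc ∧ ∀ m ∈ N, (S.F m).Subsingleton →
      ⟪m, a⟫_ℝ ≤ S.ht m (S.lev (S.F m) u)} with hK
  have hcl : IsClosed K := by
    have : K = S.Pc ∩ ⋂ m ∈ N, ⋂ (_ : (S.F m).Subsingleton),
        {a | ⟪m, a⟫_ℝ ≤ S.ht m (S.lev (S.F m) u)} := by
      ext a; simp [hK]
    rw [this]
    apply S.isClosed_Pc.inter
    exact isClosed_biInter fun m _ => isClosed_iInter fun _ =>
      isClosed_le (by fun_prop) continuous_const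
  apply Metric.isCompact_of_isClosed_isBounded hcl
  obtain ⟨A, hA, hAn⟩ := exists_norm_le_finset hsp
  rw [isBounded_iff_forall_norm_le]
  set B : E → ℝ := fun v => |S.height v u 0| with hB
  have hup : ∀ a ∈ K, ∀ v ∈ V, ⟪v, a⟫_ℝ ≤ B v := by
    intro a ha v hv
    refine le_trans ?_ (le_abs_self _)
    unfold height
    split_ifs with hs
    · exact ha.2 v (hN.sub hv) hs
    · rw [Set.not_subsingleton_iff] at hs
      obtain ⟨b, hb⟩ := hs.nonempty
      rw [S.hstar_eq hb, sub_zero]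
      exact hb.2 a ha.1
  refine ⟨A * ∑ v ∈ V, (B v + B (-v)), fun a ha => (hAn a).trans ?_⟩
  apply mul_le_mul_of_nonneg_left _ hA.le
  refine Finset.sum_le_sum fun v hv => ?_
  have h1 := hup a ha v hv
  have h2 := hup a ha (-v) (hVs v hv)
  rw [inner_neg_left] at h2
  rw [abs_le]
  have h3 : 0 ≤ B v := abs_nonneg _
  have h4 : 0 ≤ B (-v) := abs_nonneg _
  constructor <;> linarith

lemma Q_subset_big {V N : Finset E} (hN : IsNormals S V N) {u u₁ η : ℝ} (hu : S.Adm N u)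
    (huu : u ≤ u₁) (hη : 0 < η) :
    S.Q N u η ⊆ {a | a ∈ S.Pc ∧ ∀ m ∈ N, (S.F m).Subsingleton →
      ⟪m, a⟫_ℝ ≤ S.ht m (S.lev (S.F m) u₁)} := by
  intro a ha
  refine ⟨S.P_subset_Pc (S.Q_subset_P hN hu hη ha), fun m hm hs => ?_⟩
  have h1 := ha m hm
  unfold height at h1
  rw [if_pos hs] at h1
  obtain ⟨p, hp, hpl⟩ := hu.2 m hm hs
  exact h1.trans (S.ht_mono ⟨p, S.P_subset_Pc hp, hpl.le⟩ (S.lev_mono (by linarith [hu.1]) huu))

lemma isCompact_Q {V N : Finset E} (hN : IsNormals S V N) (hVs : ∀ v ∈ V, -v ∈ V)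
    (hsp : ∀ a : E, (∀ v ∈ V, ⟪v, a⟫_ℝ = 0) → a = 0) {u η : ℝ} (hu : S.Adm N u) (hη : 0 < η) :
    IsCompact (S.Q N u η) :=
  (S.compact_big hN hVs hsp u).of_isClosed_subset (S.isClosed_Q N u η)
    (S.Q_subset_big hN hu le_rfl hη)

/-- Every interior point belongs to all sufficiently large polygons. -/
lemma mem_Q_of_large {V N : Finset E} (hN : IsNormals S V N) {a : E} (ha : a ∈ S.P) :
    ∃ η₁ > 0, ∀ᶠ u : ℝ in atTop, ∀ η ≤ η₁, a ∈ S.Q N u η := by
  classical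
  have h1 : ∀ᶠ u : ℝ in atTop, ∀ n ∈ N, (S.F n).Subsingleton →
      ⟪n, a⟫_ℝ ≤ S.ht n (S.lev (S.F n) u) := by
    rw [Filter.eventually_all_finset]
    intro n hn
    by_cases hs : (S.F n).Subsingleton
    · filter_upwards [S.eventually_point (hN.ne n hn) hs ha] with u hu _
      obtain ⟨p, hp, h1, h2⟩ := hu
      exact h2.trans (S.le_ht (S.P_subset_Pc hp) h1.le)
    · exact Eventually.of_forall fun u h => absurd h hs
  have h2 : ∀ n ∈ N, ∃ δ > 0, ¬ (S.F n).Subsingleton → ⟪n, a⟫_ℝ ≤ S.hstar n - δ := by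
    intro n hn
    by_cases hs : (S.F n).Subsingleton
    · exact ⟨1, one_pos, fun h => absurd hs h⟩
    · have hs' := hs
      rw [Set.not_subsingleton_iff] at hs'
      obtain ⟨b, hb⟩ := hs'.nonempty
      have := S.inner_lt_of_mem_P (hN.ne n hn) ha hb
      exact ⟨⟪n, b⟫_ℝ - ⟪n, a⟫_ℝ, by linarith, fun _ => by rw [S.hstar_eq hb]; linarith⟩
  choose! δ hδ0 hδ using h2
  have h3 : ∃ η₁ > 0, ∀ n ∈ N, η₁ ≤ δ n := by
    rcases N.eq_empty_or_nonempty with hE | hne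
    · exact ⟨1, one_pos, by simp [hE]⟩
    · obtain ⟨m, hm, hmin⟩ := N.exists_min_image δ hne
      exact ⟨δ m, hδ0 m hm, hmin⟩
  obtain ⟨η₁, hη₁, hη₁δ⟩ := h3
  refine ⟨η₁, hη₁, ?_⟩
  filter_upwards [h1] with u hu η hη n hn
  unfold height
  split_ifs with hs
  · exact hu n hn hs
  · have := hδ n hn hs
    have := hη₁δ n hn
    linarith

/-- The main geometric theorem: on every facet of the polygons, `Th` pairs well with all vectors
of `V` pointing outwards. -/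
theorem facets (hdim : Module.finrank ℝ E ≤ 2) {V N : Finset E} (hN : IsNormals S V N)
    (hVs : ∀ v ∈ V, -v ∈ V) (hsp : ∀ a : E, (∀ v ∈ V, ⟪v, a⟫_ℝ = 0) → a = 0) {C : ℝ}
    (hC : 0 < C) :
    ∃ U₀ : ℝ, (∀ u ≥ U₀, S.Adm N u) ∧ ∀ u₁ ≥ U₀, ∃ η₁ > 0, ∀ u, U₀ ≤ u → u ≤ u₁ →
      ∀ η, 0 < η → η ≤ η₁ → ∀ n ∈ N, ∀ a ∈ S.Q N u η, ⟪n, a⟫_ℝ = S.height n u η →
        ∀ v ∈ V, 0 < ⟪n, v⟫_ℝ → C ≤ ⟪S.Th a, v⟫_ℝ := by
  classical
  obtain ⟨U₀, hU₀⟩ := eventually_atTop.1 ((S.facet_main hN hC).and (S.eventually_adm hN.ne))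
  refine ⟨U₀, fun u hu => (hU₀ u hu).2, fun u₁ hu₁ => ?_⟩
  set K := {a | a ∈ S.Pc ∧ ∀ m ∈ N, (S.F m).Subsingleton →
      ⟪m, a⟫_ℝ ≤ S.ht m (S.lev (S.F m) u₁)} with hKdef
  have hK : IsCompact K := S.compact_big hN hVs hsp u₁
  have hadm₁ : S.Adm N u₁ := (hU₀ u₁ hu₁).2
  have hnov : ∀ m ∈ N, ∀ b ∈ K, S.F m ≠ {b} := by
    intro m hm b hb hF
    have hs : (S.F m).Subsingleton := by rw [hF]; exact Set.subsingleton_singleton
    have hbF : b ∈ S.F m := by rw [hF]; rfl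
    exact absurd (S.height_le_of_mem hN hadm₁ hm hs hbF) (not_lt.2 (hb.2 m hm hs))
  have hη : ∀ n ∈ N, ∃ η > 0, ¬ (S.F n).Subsingleton → ∀ a ∈ K, a ∈ S.P →
      S.hstar n - η ≤ ⟪n, a⟫_ℝ → ∀ v ∈ V, 0 < ⟪n, v⟫_ℝ → C ≤ ⟪S.Th a, v⟫_ℝ := by
    intro n hn
    by_cases hs : (S.F n).Subsingleton
    · exact ⟨1, one_pos, fun h => absurd hs h⟩
    · obtain ⟨η, hη, h⟩ := S.facet_edge hdim hN hK (fun a ha => ha.1) hnov (hN.ne n hn) hs C
      exact ⟨η, hη, fun _ => h⟩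
  choose! δ hδ0 hδ using hη
  have h3 : ∃ η₁ > 0, ∀ n ∈ N, η₁ ≤ δ n := by
    rcases N.eq_empty_or_nonempty with hE | hne
    · exact ⟨1, one_pos, by simp [hE]⟩
    · obtain ⟨m, hm, hmin⟩ := N.exists_min_image δ hne
      exact ⟨δ m, hδ0 m hm, hmin⟩
  obtain ⟨η₁, hη₁, hη₁δ⟩ := h3
  refine ⟨η₁, hη₁, fun u hu huu η hη0 hη n hn a ha hna v hv hnv => ?_⟩
  have hadm := (hU₀ u hu).2
  have haP := S.Q_subset_P hN hadm hη0 ha
  by_cases hs : (S.F n).Subsingleton
  · have h1 : ⟪n, a⟫_ℝ = S.ht n (S.lev (S.F n) u) := by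
      rw [hna]; unfold height; rw [if_pos hs]
    refine (hU₀ u hu).1 n hn hs a haP (fun m hm hms => ?_) h1 v hv hnv
    have := ha m hm
    unfold height at this
    rwa [if_pos hms] at this
  · have h1 : ⟪n, a⟫_ℝ = S.hstar n - η := by
      rw [hna]; unfold height; rw [if_neg hs]
    refine hδ n hn hs a (S.Q_subset_big hN hadm huu hη0 ha) haP ?_ v hv hnv
    rw [h1]
    have := hη₁δ n hn
    linarith

/-- Regularity of the heights in the parameter `u`. -/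
lemma height_lip {V N : Finset E} (hN : IsNormals S V N) {U₀ u₁ : ℝ} (hadm : S.Adm N U₀)
    (η : ℝ) : ∃ L : ℝ, 0 ≤ L ∧ ∀ n ∈ N, ∀ u u', U₀ ≤ u → u ≤ u' → u' ≤ u₁ →
      S.height n u η ≤ S.height n u' η ∧ S.height n u' η ≤ S.height n u η + L * (u' - u) := by
  classical
  have h : ∀ n ∈ N, ∃ L : ℝ, 0 ≤ L ∧ ∀ u u', U₀ ≤ u → u ≤ u' → u' ≤ u₁ →
      S.height n u η ≤ S.height n u' η ∧ S.height n u' η ≤ S.height n u η + L * (u' - u) := by
    intro n hn
    by_cases hs : (S.F n).Subsingleton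
    · obtain ⟨p, hp, hpl⟩ := hadm.2 n hn hs
      by_cases h01 : U₀ ≤ u₁
      swap
      · exact ⟨0, le_rfl, fun u u' h1 h2 h3 => absurd (h1.trans (h2.trans h3)) h01⟩
      set L := (S.ht n (S.lev (S.F n) u₁) - ⟪n, p⟫_ℝ) / (S.lev (S.F n) U₀ - S.H p) with hL
      have hU1 := hadm.1
      have hL0 : 0 ≤ L := by
        apply div_nonneg _ (by linarith)
        have := S.le_ht (n := n) (S.P_subset_Pc hp)
          (hpl.le.trans (S.lev_mono (by linarith) h01))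
        linarith
      refine ⟨L, hL0, fun u u' h1 h2 h3 => ?_⟩
      unfold height
      rw [if_pos hs, if_pos hs]
      have hm1 := S.lev_mono (A := S.F n) (by linarith) h1
      have hm2 := S.lev_mono (A := S.F n) (by linarith : 0 < u) h2
      have hm3 := S.lev_mono (A := S.F n) (by linarith : 0 < u') h3
      constructor
      · exact S.ht_mono ⟨p, S.P_subset_Pc hp, by linarith⟩ hm2
      · have h4 := S.ht_lip (n := n) (S.P_subset_Pc hp) hpl hm1 hm2 hm3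
        have h5 := S.lev_lip (A := S.F n) (by linarith : 1 ≤ u) h2
        have h6 : (S.lev (S.F n) u' - S.lev (S.F n) u) * L ≤ (u' - u) * L :=
          mul_le_mul_of_nonneg_right h5 hL0
        rw [← hL] at h4
        linarith
    · refine ⟨0, le_rfl, fun u u' _ _ _ => ?_⟩
      unfold height
      rw [if_neg hs, if_neg hs]
      constructor <;> linarith
  choose! L hL0 hL using h
  refine ⟨∑ n ∈ N, L n, Finset.sum_nonneg hL0, fun n hn u u' h1 h2 h3 => ?_⟩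
  obtain ⟨h4, h5⟩ := hL n hn u u' h1 h2 h3
  refine ⟨h4, h5.trans ?_⟩
  have : L n ≤ ∑ n ∈ N, L n := Finset.single_le_sum hL0 hn
  have := mul_le_mul_of_nonneg_right this (sub_nonneg.2 h2)
  linarith

lemma height_eta (n : E) (u : ℝ) {η η' : ℝ} (h : η ≤ η') :
    S.height n u η' ≤ S.height n u η ∧ S.height n u η ≤ S.height n u η' + (η' - η) := by
  unfold height
  split_ifs
  · constructor <;> linarith
  · constructor <;> linarith

end Sys

end Vale.Agent.P072
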