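import Mathlib

open Real Set Filter Topology
open scoped InnerProductSpace RealInnerProductSpace

namespace Vale.Agent.P072

/-- The function `t log t - t`. -/
noncomputable def phi (t : ℝ) : ℝ := t * Real.log t - t

/-- Bregman divergence of `phi`. -/
noncomputable def breg (x y : ℝ) : ℝ := x * Real.log x - x * Real.log y - x + y

lemma continuous_phi : Continuous phi :=
  Real.continuous_mul_log.sub continuous_id

lemma phi_eq (x y : ℝ) : phi x = phi y + Real.log y * (x - y) + breg x y := by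
  unfold phi breg; ring

lemma breg_lower {x y : ℝ} (hx : 0 < x) (hy : 0 < y) :
    x * (|Real.log y - Real.log x| - 1) ≤ breg x y := by
  set u := Real.log y - Real.log x with hu
  have hyx : y = x * Real.exp u := by
    rw [hu, Real.exp_sub, Real.exp_log hy, Real.exp_log hx]; field_simp
  have h1 : breg x y = x * (Real.exp u - 1 - u) := by
    have : breg x y = x * (- u - 1) + y := by unfold breg; rw [hu]; ring
    rw [this]
    calc x * (-u - 1) + y = x * (-u - 1) + x * Real.exp u := by rw [← hyx]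
      _ = _ := by ring
  rw [h1]
  apply mul_le_mul_of_nonneg_left _ hx.le
  rcases le_total 0 u with h | h
  · rw [abs_of_nonneg h]
    have := Real.quadratic_le_exp_of_nonneg h
    nlinarith [sq_nonneg (u - 1)]
  · rw [abs_of_nonpos h]
    have := Real.exp_pos u
    linarith

lemma breg_nonneg {x y : ℝ} (hx : 0 ≤ x) (hy : 0 < y) : 0 ≤ breg x y := by
  rcases hx.eq_or_lt with h | h
  · rw [← h]; unfold breg; simp; exact hy.le
  · set u := Real.log y - Real.log x with hu
    have hyx : y = x * Real.exp u := by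
      rw [hu, Real.exp_sub, Real.exp_log hy, Real.exp_log h]; field_simp
    have h1 : breg x y = x * (Real.exp u - 1 - u) := by
      have : breg x y = x * (- u - 1) + y := by unfold breg; rw [hu]; ring
      rw [this]
      calc x * (-u - 1) + y = x * (-u - 1) + x * Real.exp u := by rw [← hyx]
        _ = _ := by ring
    rw [h1]
    apply mul_nonneg h.le
    have := Real.add_one_le_exp u
    linarith

lemma phi_lower (R : ℝ) {t : ℝ} (ht : 0 ≤ t) : R * t - Real.exp R ≤ phi t := by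
  have := breg_nonneg ht (Real.exp_pos R)
  unfold breg at this
  rw [Real.log_exp] at this
  unfold phi
  nlinarith

/-- Convexity of `phi` on the nonnegative axis. -/
lemma convexOn_phi : ConvexOn ℝ (Set.Ici 0) phi := by
  have h1 := Real.convexOn_mul_log
  have h2 : ConcaveOn ℝ (Set.Ici (0:ℝ)) (fun x : ℝ => x) := concaveOn_id (convex_Ici 0)
  exact h1.sub h2

/-- A bounded-below affine system on a Euclidean space: `ell k a = c k + ⟪g k, a⟫`. -/
structure Sys (E : Type*) [NormedAddCommGroup E] [InnerProductSpace ℝ E] (ι : Type*) where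
  c : ι → ℝ
  g : ι → E
  hc : ∀ k, 0 < c k
  hg : ∀ a : E, (∀ k, ⟪g k, a⟫_ℝ = 0) → a = 0

variable {E : Type*} [NormedAddCommGroup E] [InnerProductSpace ℝ E] {ι : Type*} [Fintype ι]

namespace Sys

set_option linter.unusedSectionVars false

variable (S : Sys E ι)

def ell (k : ι) (a : E) : ℝ := S.c k + ⟪S.g k, a⟫_ℝ

def P : Set E := {a | ∀ k, 0 < S.ell k a}

def Pc : Set E := {a | ∀ k, 0 ≤ S.ell k a}

noncomputable def H (a : E) : ℝ := ∑ k, phi (S.ell k a)

noncomputable def Th (a : E) : E := ∑ k, Real.log (S.ell k a) • S.g k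

lemma ell_zero (k : ι) : S.ell k 0 = S.c k := by simp [ell]

lemma zero_mem_P : (0 : E) ∈ S.P := fun k => by rw [ell_zero]; exact S.hc k

lemma P_subset_Pc : S.P ⊆ S.Pc := fun _ ha k => (ha k).le

lemma continuous_ell (k : ι) : Continuous (S.ell k) := by
  unfold ell; fun_prop

lemma isOpen_P : IsOpen S.P := by
  have : S.P = ⋂ k, {a | 0 < S.ell k a} := by ext a; simp [P]
  rw [this]
  exact isOpen_iInter_of_finite fun k => isOpen_lt continuous_const (S.continuous_ell k)

lemma isClosed_Pc : IsClosed S.Pc := by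
  have : S.Pc = ⋂ k, {a | 0 ≤ S.ell k a} := by ext a; simp [Pc]
  rw [this]
  exact isClosed_iInter fun k => isClosed_le continuous_const (S.continuous_ell k)

lemma continuous_H : Continuous S.H := by
  unfold H
  exact continuous_finsetSum _ fun k _ => continuous_phi.comp (S.continuous_ell k)

lemma ell_sub (k : ι) (a b : E) : S.ell k a - S.ell k b = ⟪S.g k, a - b⟫_ℝ := by
  simp [ell, inner_sub_right]

lemma ell_comb (k : ι) (a b : E) (s : ℝ) :
    S.ell k ((1 - s) • a + s • b) = (1 - s) * S.ell k a + s * S.ell k b := by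
  simp [ell, inner_add_right, inner_smul_right]; ring

lemma inner_Th (r w : E) : ⟪S.Th r, w⟫_ℝ = ∑ k, Real.log (S.ell k r) * ⟪S.g k, w⟫_ℝ := by
  unfold Th
  rw [sum_inner]
  refine Finset.sum_congr rfl fun k _ => ?_
  rw [real_inner_smul_left]

lemma H_eq (a r : E) :
    S.H a = S.H r + ⟪S.Th r, a - r⟫_ℝ + ∑ k, breg (S.ell k a) (S.ell k r) := by
  rw [inner_Th]
  unfold H
  rw [← Finset.sum_add_distrib, ← Finset.sum_add_distrib]
  refine Finset.sum_congr rfl fun k _ => ?_
  rw [← S.ell_sub]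
  exact phi_eq _ _

lemma H_ge {a r : E} (ha : a ∈ S.Pc) (hr : r ∈ S.P) :
    S.H r + ⟪S.Th r, a - r⟫_ℝ ≤ S.H a := by
  rw [S.H_eq a r]
  have : 0 ≤ ∑ k, breg (S.ell k a) (S.ell k r) :=
    Finset.sum_nonneg fun k _ => breg_nonneg (ha k) (hr k)
  linarith

lemma breg_le_sum {a r : E} (ha : a ∈ S.Pc) (hr : r ∈ S.P) (k : ι) :
    breg (S.ell k a) (S.ell k r) ≤ S.H a - S.H r - ⟪S.Th r, a - r⟫_ℝ := by
  rw [S.H_eq a r]
  have := Finset.single_le_sum (f := fun k => breg (S.ell k a) (S.ell k r))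
    (fun k _ => breg_nonneg (ha k) (hr k)) (Finset.mem_univ k)
  linarith

lemma convex_Pc : Convex ℝ S.Pc := by
  intro a ha b hb s t hs ht hst k
  have : S.ell k (s • a + t • b) = s * S.ell k a + t * S.ell k b := by
    have h : s = 1 - t := by linarith
    rw [h, S.ell_comb]
  rw [this]
  exact add_nonneg (mul_nonneg hs (ha k)) (mul_nonneg ht (hb k))

lemma comb_mem_P {a b : E} (ha : a ∈ S.Pc) (hb : b ∈ S.P) {s : ℝ} (hs : 0 < s) (hs1 : s ≤ 1) :
    (1 - s) • a + s • b ∈ S.P := by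
  intro k
  rw [S.ell_comb]
  have h1 := mul_nonneg (sub_nonneg.2 hs1) (ha k)
  have h2 := mul_pos hs (hb k)
  linarith

lemma convex_P : Convex ℝ S.P := by
  intro a ha b hb s t hs ht hst
  rcases ht.eq_or_lt with h | h
  · have : s = 1 := by linarith
    subst this; rw [← h]; simpa using ha
  · have h' : s = 1 - t := by linarith
    rw [h']
    exact S.comb_mem_P (S.P_subset_Pc ha) hb h (by linarith)

lemma H_comb_le {a b : E} (ha : a ∈ S.Pc) (hb : b ∈ S.Pc) {s : ℝ} (hs : 0 ≤ s) (hs1 : s ≤ 1) :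
    S.H ((1 - s) • a + s • b) ≤ (1 - s) * S.H a + s * S.H b := by
  unfold H
  rw [Finset.mul_sum, Finset.mul_sum, ← Finset.sum_add_distrib]
  refine Finset.sum_le_sum fun k _ => ?_
  rw [S.ell_comb]
  have := convexOn_phi.2 (ha k) (hb k) (sub_nonneg.2 hs1) hs (by ring)
  simpa using this

/-- Near the boundary the entropy decreases infinitely fast towards the interior. -/
lemma H_comb_le_log {a b : E} (ha : a ∈ S.Pc) (hb : b ∈ S.P) {k₀ : ι} (hk : S.ell k₀ a = 0)
    {s : ℝ} (hs : 0 < s) (hs1 : s ≤ 1) :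
    S.H ((1 - s) • a + s • b) ≤ (1 - s) * S.H a + s * S.H b + s * S.ell k₀ b * Real.log s := by
  classical
  unfold H
  rw [Finset.mul_sum, Finset.mul_sum, ← Finset.sum_add_distrib,
    ← Finset.add_sum_erase _ _ (Finset.mem_univ k₀),
    ← Finset.add_sum_erase (a := k₀) _ (fun k => (1 - s) * phi (S.ell k a) + s * phi (S.ell k b))
      (Finset.mem_univ k₀)]
  have h1 : ∑ k ∈ Finset.univ.erase k₀, phi (S.ell k ((1 - s) • a + s • b)) ≤
      ∑ k ∈ Finset.univ.erase k₀, ((1 - s) * phi (S.ell k a) + s * phi (S.ell k b)) := by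
    refine Finset.sum_le_sum fun k _ => ?_
    rw [S.ell_comb]
    have := convexOn_phi.2 (ha k) (hb k).le (sub_nonneg.2 hs1) hs.le (by ring)
    simpa using this
  have h2 : phi (S.ell k₀ ((1 - s) • a + s • b)) =
      (1 - s) * phi (S.ell k₀ a) + s * phi (S.ell k₀ b) + s * S.ell k₀ b * Real.log s := by
    rw [S.ell_comb, hk]
    have hb0 := hb k₀
    simp only [mul_zero, zero_add]
    unfold phi
    rw [Real.log_mul hs.ne' hb0.ne']
    simp
    ring
  linarith

section FD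

variable [FiniteDimensional ℝ E]

lemma exists_norm_le : ∃ A : ℝ, 0 < A ∧ ∀ a : E, ‖a‖ ≤ A * ∑ k, |⟪S.g k, a⟫_ℝ| := by
  let L : E →ₗ[ℝ] (ι → ℝ) := LinearMap.pi fun k => (innerSL ℝ (S.g k)).toLinearMap
  have hL : LinearMap.ker L = ⊥ := by
    rw [LinearMap.ker_eq_bot']
    intro a ha
    apply S.hg
    intro k
    have := congrFun ha k
    simpa [L] using this
  obtain ⟨K, hK, hA⟩ := LinearMap.exists_antilipschitzWith L hL
  refine ⟨K, by exact_mod_cast hK, fun a => ?_⟩
  have h1 := hA.le_mul_dist a 0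
  rw [dist_zero_right, map_zero, dist_zero_right] at h1
  refine h1.trans ?_
  apply mul_le_mul_of_nonneg_left _ K.2
  rw [pi_norm_le_iff_of_nonneg (Finset.sum_nonneg fun k _ => abs_nonneg _)]
  intro k
  have : ‖L a k‖ = |⟪S.g k, a⟫_ℝ| := by simp [L]
  rw [this]
  exact Finset.single_le_sum (f := fun k => |⟪S.g k, a⟫_ℝ|) (fun k _ => abs_nonneg _)
    (Finset.mem_univ k)

/-- Superlinear growth of the entropy. -/
lemma coercive (R : ℝ) : ∃ C : ℝ, ∀ a ∈ S.Pc, R * ‖a‖ ≤ S.H a + C := by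
  obtain ⟨A, hA, hAn⟩ := S.exists_norm_le
  set R' : ℝ := |R| * A with hR'
  have hR'0 : 0 ≤ R' := by positivity
  refine ⟨∑ k, (Real.exp R' + R' * S.c k), fun a ha => ?_⟩
  have h1 : ∑ k, |⟪S.g k, a⟫_ℝ| ≤ ∑ k, (S.ell k a + S.c k) := by
    refine Finset.sum_le_sum fun k _ => ?_
    have e1 : ⟪S.g k, a⟫_ℝ = S.ell k a - S.c k := by simp [ell]
    rw [e1, abs_le]
    have := ha k
    have := S.hc k
    constructor <;> linarith
  have h2 : R * ‖a‖ ≤ R' * ∑ k, (S.ell k a + S.c k) := by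
    calc R * ‖a‖ ≤ |R| * ‖a‖ := mul_le_mul_of_nonneg_right (le_abs_self R) (norm_nonneg a)
      _ ≤ |R| * (A * ∑ k, |⟪S.g k, a⟫_ℝ|) := mul_le_mul_of_nonneg_left (hAn a) (abs_nonneg R)
      _ = R' * ∑ k, |⟪S.g k, a⟫_ℝ| := by rw [hR']; ring
      _ ≤ _ := mul_le_mul_of_nonneg_left h1 hR'0
  refine h2.trans ?_
  unfold H
  rw [Finset.mul_sum, ← Finset.sum_add_distrib]
  refine Finset.sum_le_sum fun k _ => ?_
  have := phi_lower R' (ha k)
  linarith

lemma isCompact_sublevel (M : ℝ) : IsCompact {a | a ∈ S.Pc ∧ S.H a ≤ M} := by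
  obtain ⟨C, hC⟩ := S.coercive 1
  have hcl : IsClosed {a | a ∈ S.Pc ∧ S.H a ≤ M} :=
    S.isClosed_Pc.inter (isClosed_le S.continuous_H continuous_const)
  apply Metric.isCompact_of_isClosed_isBounded hcl
  rw [isBounded_iff_forall_norm_le]
  refine ⟨M + C, fun a ha => ?_⟩
  have := hC a ha.1
  have := ha.2
  linarith

lemma isCompact_sublevel_inner (θ : E) (M : ℝ) :
    IsCompact {a | a ∈ S.Pc ∧ S.H a - ⟪θ, a⟫_ℝ ≤ M} := by
  obtain ⟨C, hC⟩ := S.coercive (1 + ‖θ‖)
  have hcl : IsClosed {a | a ∈ S.Pc ∧ S.H a - ⟪θ, a⟫_ℝ ≤ M} := by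
    apply S.isClosed_Pc.inter
    have h := S.continuous_H
    have h' : Continuous fun a : E => S.H a - ⟪θ, a⟫_ℝ := by fun_prop
    exact isClosed_le h' continuous_const
  apply Metric.isCompact_of_isClosed_isBounded hcl
  rw [isBounded_iff_forall_norm_le]
  refine ⟨M + C, fun a ha => ?_⟩
  have h1 := hC a ha.1
  have h2 := ha.2
  have h3 := real_inner_le_norm θ a
  nlinarith [norm_nonneg a]

lemma hasDerivAt_H_line {r : E} (hr : r ∈ S.P) (w : E) :
    HasDerivAt (fun s : ℝ => S.H (r + s • w)) (⟪S.Th r, w⟫_ℝ) 0 := by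
  rw [inner_Th]
  unfold H
  apply HasDerivAt.fun_sum
  intro k _
  have h1 : HasDerivAt (fun s : ℝ => S.ell k (r + s • w)) (⟪S.g k, w⟫_ℝ) 0 := by
    have : (fun s : ℝ => S.ell k (r + s • w)) = fun s : ℝ => S.ell k r + s * ⟪S.g k, w⟫_ℝ := by
      funext s; simp [ell, inner_add_right, inner_smul_right]; ring
    rw [this]
    have := ((hasDerivAt_id (0:ℝ)).mul_const (⟪S.g k, w⟫_ℝ)).const_add (S.ell k r)
    simpa using this
  have h2 : HasDerivAt phi (Real.log (S.ell k r)) (S.ell k r) := by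
    have h := (Real.hasDerivAt_mul_log (hr k).ne').sub (hasDerivAt_id (S.ell k r))
    have e : Real.log (S.ell k r) + 1 - 1 = Real.log (S.ell k r) := by ring
    rw [e] at h
    exact h
  have h3 : S.ell k r = S.ell k (r + (0:ℝ) • w) := by simp
  have h4 : HasDerivAt phi (Real.log (S.ell k r)) ((fun s : ℝ => S.ell k (r + s • w)) 0) := by
    simpa using h2
  exact h4.comp (0:ℝ) h1

/-- Constrained minimisation: existence of the centre of a coset with prescribed tilt. -/
lemma exists_center (U : Submodule ℝ E) {a₀ : E} (ha₀ : a₀ ∈ S.P) (θ : E) :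
    ∃ r ∈ S.P, r - a₀ ∈ U ∧ (∀ u ∈ U, ⟪S.Th r, u⟫_ℝ = ⟪θ, u⟫_ℝ) := by
  set f : E → ℝ := fun a => S.H a - ⟪θ, a⟫_ℝ with hf
  have hfc : Continuous f := by have := S.continuous_H; fun_prop
  set A : Set E := {a | a ∈ S.Pc ∧ S.H a - ⟪θ, a⟫_ℝ ≤ f a₀} ∩ {a | a - a₀ ∈ U} with hA
  have hAcomp : IsCompact A := by
    apply (S.isCompact_sublevel_inner θ (f a₀)).inter_right
    have : {a : E | a - a₀ ∈ U} = (fun a => a - a₀) ⁻¹' (U : Set E) := rfl
    rw [this]
    exact (Submodule.closed_of_finiteDimensional U).preimage (by fun_prop)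
  have hAne : A.Nonempty := ⟨a₀, ⟨S.P_subset_Pc ha₀, le_refl _⟩, by simp⟩
  obtain ⟨r, hrA, hmin⟩ := hAcomp.exists_isMinOn hAne hfc.continuousOn
  have hmin' : ∀ a ∈ S.Pc, a - a₀ ∈ U → f r ≤ f a := by
    intro a ha hau
    by_cases h : f a ≤ f a₀
    · exact hmin ⟨⟨ha, h⟩, hau⟩
    · exact (hrA.1.2).trans (not_le.1 h).le
  have hrU : r - a₀ ∈ U := hrA.2
  have hrP : r ∈ S.P := by
    by_contra hcon
    have : ∃ k, S.ell k r = 0 := by
      by_contra hne
      push Not at hne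
      exact hcon fun k => lt_of_le_of_ne (hrA.1.1 k) (Ne.symm (hne k))
    obtain ⟨k₀, hk₀⟩ := this
    have hpos := ha₀ k₀
    -- choose small s
    have hlim : Tendsto (fun s : ℝ => (f a₀ - f r) + S.ell k₀ a₀ * Real.log s) (𝓝[>] 0) atBot := by
      apply Tendsto.add_atBot tendsto_const_nhds
      exact Tendsto.const_mul_atBot hpos Real.tendsto_log_nhdsGT_zero
    have hev := (hlim.eventually (eventually_lt_atBot (0:ℝ))).and
      (Ioo_mem_nhdsGT (zero_lt_one : (0:ℝ) < 1))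
    obtain ⟨s, hs1, hs2⟩ := hev.exists
    have hsx : (1 - s) • r + s • a₀ - a₀ ∈ U := by
      have : (1 - s) • r + s • a₀ - a₀ = (1 - s) • (r - a₀) := by
        rw [smul_sub, sub_smul, sub_smul, one_smul]; simp; abel
      rw [this]; exact U.smul_mem _ hrU
    have h1 := hmin' _ (S.P_subset_Pc (S.comb_mem_P hrA.1.1 ha₀ hs2.1 hs2.2.le)) hsx
    have h2 := S.H_comb_le_log hrA.1.1 ha₀ hk₀ hs2.1 hs2.2.le
    have h3 : f ((1 - s) • r + s • a₀) ≤
        f r + s * ((f a₀ - f r) + S.ell k₀ a₀ * Real.log s) := by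
      simp only [hf, inner_add_right, inner_smul_right]
      nlinarith
    have h4 : s * ((f a₀ - f r) + S.ell k₀ a₀ * Real.log s) < 0 :=
      mul_neg_of_pos_of_neg hs2.1 hs1
    linarith
  refine ⟨r, hrP, hrU, fun u hu => ?_⟩
  have hd : HasDerivAt (fun s : ℝ => f (r + s • u)) (⟪S.Th r, u⟫_ℝ - ⟪θ, u⟫_ℝ) 0 := by
    have h1 := S.hasDerivAt_H_line hrP u
    have h2 : HasDerivAt (fun s : ℝ => ⟪θ, r + s • u⟫_ℝ) (⟪θ, u⟫_ℝ) 0 := by
      have : (fun s : ℝ => ⟪θ, r + s • u⟫_ℝ) = fun s : ℝ => ⟪θ, r⟫_ℝ + s * ⟪θ, u⟫_ℝ := by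
        funext s; simp [inner_add_right, inner_smul_right]
      rw [this]
      have := ((hasDerivAt_id (0:ℝ)).mul_const (⟪θ, u⟫_ℝ)).const_add (⟪θ, r⟫_ℝ)
      simpa using this
    exact h1.sub h2
  have hloc : IsLocalMin (fun s : ℝ => f (r + s • u)) 0 := by
    have hcont : ContinuousAt (fun s : ℝ => r + s • u) 0 := by fun_prop
    have hnb : ∀ᶠ s : ℝ in 𝓝 0, r + s • u ∈ S.P := by
      apply hcont.eventually_mem
      simpa using S.isOpen_P.mem_nhds hrP
    filter_upwards [hnb] with s hs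
    have : r + s • u - a₀ ∈ U := by
      have : r + s • u - a₀ = (r - a₀) + s • u := by abel
      rw [this]; exact U.add_mem hrU (U.smul_mem _ hu)
    have := hmin' _ (S.P_subset_Pc hs) this
    simpa using this
  have := hloc.hasDerivAt_eq_zero hd
  linarith

end FD

end Sys

end Vale.Agent.P072
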