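import Vale.Agent.P072.Coord

open Real Set Filter Topology
open scoped InnerProductSpace RealInnerProductSpace

namespace Vale.Agent.P072

set_option linter.unusedSectionVars false

variable {d : ℕ} {G : Network d} {E : Type*} [NormedAddCommGroup E] [InnerProductSpace ℝ E]
  [FiniteDimensional ℝ E]

namespace Network

lemma rvec_swap (u w : Fin d → ℕ) : rvec (w, u) = - rvec (u, w) := by
  ext i; simp [rvec]

lemma rvec_add (u v w : Fin d → ℕ) : rvec (u, w) = rvec (u, v) + rvec (v, w) := by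
  ext i; simp [rvec]

lemma rvec_mem {r : (Fin d → ℕ) × (Fin d → ℕ)} (hr : r ∈ G.rxn) : rvec r ∈ G.stoich :=
  Submodule.subset_span ⟨r, hr, rfl⟩

end Network

open Network

namespace Coord

variable (Φ : Coord G E)

open Classical in
/-- Nonzero differences of complexes in the stoichiometric subspace, in coordinates. -/
noncomputable def V : Finset E :=
  ((G.cplx ×ˢ G.cplx).filter (fun p => rvec p ∈ G.stoich ∧ Φ.D (rvec p) ≠ 0)).image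
    (fun p => Φ.D (rvec p))

lemma mem_V {v : E} : v ∈ Φ.V ↔ ∃ u ∈ G.cplx, ∃ w ∈ G.cplx, rvec (u, w) ∈ G.stoich ∧
    Φ.D (rvec (u, w)) ≠ 0 ∧ Φ.D (rvec (u, w)) = v := by
  classical
  unfold V
  simp only [Finset.mem_image, Finset.mem_filter, Finset.mem_product, Prod.exists]
  constructor
  · rintro ⟨u, w, ⟨⟨h1, h2⟩, h3, h4⟩, h5⟩
    exact ⟨u, h1, w, h2, h3, h4, h5⟩
  · rintro ⟨u, h1, w, h2, h3, h4, h5⟩
    exact ⟨u, w, ⟨⟨h1, h2⟩, h3, h4⟩, h5⟩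

lemma V_ne {v : E} (hv : v ∈ Φ.V) : v ≠ 0 := by
  obtain ⟨u, _, w, _, _, h4, h5⟩ := Φ.mem_V.1 hv
  rw [← h5]; exact h4

lemma V_symm {v : E} (hv : v ∈ Φ.V) : -v ∈ Φ.V := by
  obtain ⟨u, h1, w, h2, h3, h4, h5⟩ := Φ.mem_V.1 hv
  rw [Φ.mem_V]
  refine ⟨w, h2, u, h1, ?_, ?_, ?_⟩
  · rw [rvec_swap u w]; exact G.stoich.neg_mem h3
  · rw [rvec_swap u w, map_neg]; exact neg_ne_zero.2 h4
  · rw [rvec_swap u w, map_neg, h5]

lemma V_span {a : E} (ha : ∀ v ∈ Φ.V, ⟪v, a⟫_ℝ = 0) : a = 0 := by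
  have h1 : ∀ r ∈ G.rxn, ⟪Φ.D (rvec r), a⟫_ℝ = 0 := by
    intro r hr
    by_cases h0 : Φ.D (rvec r) = 0
    · rw [h0, inner_zero_left]
    · exact ha _ (Φ.mem_V.2 ⟨r.1, (G.mem r hr).1, r.2, (G.mem r hr).2, rvec_mem hr, h0, rfl⟩)
  have h2 : ∀ w ∈ G.stoich, ⟪Φ.D w, a⟫_ℝ = 0 := by
    intro w hw
    refine Submodule.span_induction ?_ ?_ ?_ ?_ hw
    · rintro v ⟨r, hr, rfl⟩; exact h1 r hr
    · simp
    · intro x y _ _ hx hy; rw [map_add, inner_add_left, hx, hy, add_zero]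
    · intro t x _ hx; rw [map_smul, real_inner_smul_left, hx, mul_zero]
  have h3 := h2 _ (Φ.Lmem a)
  rw [Φ.DL] at h3
  exact inner_self_eq_zero.1 h3

/-- A reaction ascending along `n` is matched by a descending one with higher source. -/
lemma descend (hwr : G.WeaklyReversible) {n : E} {r : (Fin d → ℕ) × (Fin d → ℕ)} (hr : r ∈ G.rxn)
    (hpos : 0 < ⟪n, Φ.D (rvec r)⟫_ℝ) :
    ∃ q ∈ G.rxn, ⟪n, Φ.D (rvec q)⟫_ℝ < 0 ∧ rvec (r.1, q.1) ∈ G.stoich ∧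
      0 < ⟪n, Φ.D (rvec (r.1, q.1))⟫_ℝ := by
  have key : ∀ w, Relation.ReflTransGen (fun u v => (u, v) ∈ G.rxn) w r.1 →
      rvec (r.1, w) ∈ G.stoich → 0 < ⟪n, Φ.D (rvec (r.1, w))⟫_ℝ →
      ∃ q ∈ G.rxn, ⟪n, Φ.D (rvec q)⟫_ℝ < 0 ∧ rvec (r.1, q.1) ∈ G.stoich ∧
        0 < ⟪n, Φ.D (rvec (r.1, q.1))⟫_ℝ := by
    intro w hw
    refine Relation.ReflTransGen.head_induction_on hw ?_ ?_
    · intro _ h0
      have : rvec (r.1, r.1) = (0 : Fin d → ℝ) := by ext i; simp [rvec]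
      rw [this, map_zero, inner_zero_right] at h0
      exact absurd h0 (lt_irrefl _)
    · intro w w' hww' _ ih hS h0
      have hmem : rvec (w, w') ∈ G.stoich := rvec_mem hww'
      have hadd : rvec (r.1, w') = rvec (r.1, w) + rvec (w, w') := rvec_add _ _ _
      by_cases h1 : 0 < ⟪n, Φ.D (rvec (r.1, w'))⟫_ℝ
      · exact ih (by rw [hadd]; exact G.stoich.add_mem hS hmem) h1
      · refine ⟨(w, w'), hww', ?_, hS, h0⟩
        rw [hadd, map_add, inner_add_right] at h1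
        linarith
  exact key r.2 (hwr r hr) (rvec_mem hr) hpos

end Coord

/-- The mass-action field in coordinates. -/
noncomputable def Coord.X (Φ : Coord G E) (c : Fin d → ℝ)
    (κ : (Fin d → ℕ) × (Fin d → ℕ) → ℝ) (a : E) : E :=
  ∑ r ∈ G.rxn, (κ r * ∏ i, (c + Φ.L a) i ^ r.1 i) • Φ.D (rvec r)

namespace Coord

variable (Φ : Coord G E)

lemma L_X (c : Fin d → ℝ) (κ : (Fin d → ℕ) × (Fin d → ℕ) → ℝ) (a : E) :
    Φ.L (Φ.X c κ a) = G.field κ (c + Φ.L a) := by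
  unfold Coord.X Network.field
  rw [map_sum]
  refine Finset.sum_congr rfl fun r hr => ?_
  rw [map_smul, Φ.LD _ (rvec_mem hr)]

/-- The inward condition. -/
theorem inward (hwr : G.WeaklyReversible) (c : Fin d → ℝ) (hc : ∀ i, 0 < c i) {ε : ℝ}
    (hε : 0 < ε) (N : Finset E) (hN : ∀ n ∈ N, n ≠ 0) :
    ∃ C : ℝ, 0 < C ∧ ∀ n ∈ N, ∀ a ∈ (Φ.sys c hc).P,
      (∀ v ∈ Φ.V, 0 < ⟪n, v⟫_ℝ → C ≤ ⟪(Φ.sys c hc).Th a, v⟫_ℝ) →
      ∀ κ : (Fin d → ℕ) × (Fin d → ℕ) → ℝ, (∀ r ∈ G.rxn, ε ≤ κ r ∧ κ r ≤ 1 / ε) →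
        ⟪n, Φ.X c κ a⟫_ℝ < 0 := by
  classical
  -- constants
  set Zm : ℝ := ∑ n ∈ N, ∑ r ∈ G.rxn, |⟪n, Φ.D (rvec r)⟫_ℝ| with hZm
  have hZm0 : 0 ≤ Zm := Finset.sum_nonneg fun n _ => Finset.sum_nonneg fun r _ => abs_nonneg _
  have hZ : ∀ n ∈ N, ∀ r ∈ G.rxn, ⟪n, Φ.D (rvec r)⟫_ℝ ≤ Zm := by
    intro n hn r hr
    refine (le_abs_self _).trans ?_
    have h1 : |⟪n, Φ.D (rvec r)⟫_ℝ| ≤ ∑ r ∈ G.rxn, |⟪n, Φ.D (rvec r)⟫_ℝ| :=
      Finset.single_le_sum (f := fun r => |⟪n, Φ.D (rvec r)⟫_ℝ|) (fun _ _ => abs_nonneg _) hr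
    have h2 : ∑ r ∈ G.rxn, |⟪n, Φ.D (rvec r)⟫_ℝ| ≤ Zm :=
      Finset.single_le_sum (f := fun n => ∑ r ∈ G.rxn, |⟪n, Φ.D (rvec r)⟫_ℝ|)
        (fun _ _ => Finset.sum_nonneg fun _ _ => abs_nonneg _) hn
    exact h1.trans h2
  have hz : ∃ z : ℝ, 0 < z ∧ ∀ n ∈ N, ∀ r ∈ G.rxn, ⟪n, Φ.D (rvec r)⟫_ℝ < 0 →
      ⟪n, Φ.D (rvec r)⟫_ℝ ≤ -z := by
    have : ∀ᶠ z in 𝓝[>] (0:ℝ), ∀ n ∈ N, ∀ r ∈ G.rxn, ⟪n, Φ.D (rvec r)⟫_ℝ < 0 →
        ⟪n, Φ.D (rvec r)⟫_ℝ ≤ -z := by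
      rw [Filter.eventually_all_finset]
      intro n _
      rw [Filter.eventually_all_finset]
      intro r _
      by_cases h : ⟪n, Φ.D (rvec r)⟫_ℝ < 0
      · filter_upwards [Ioo_mem_nhdsGT (neg_pos.2 h)] with z hz _
        linarith [hz.2]
      · exact Eventually.of_forall fun z h' => absurd h' h
    obtain ⟨z, h1, h2⟩ := (this.and self_mem_nhdsWithin).exists
    exact ⟨z, h2, h1⟩
  obtain ⟨z, hz0, hz⟩ := hz
  have hCex : ∃ C : ℝ, 0 < C ∧ (G.rxn.card : ℝ) * (1 / ε * Zm * Real.exp (-C)) < ε * z := by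
    have h1 : Tendsto (fun C : ℝ => (G.rxn.card : ℝ) * (1 / ε * Zm * Real.exp (-C))) atTop
        (𝓝 ((G.rxn.card : ℝ) * (1 / ε * Zm * 0))) :=
      (Real.tendsto_exp_neg_atTop_nhds_zero.const_mul _).const_mul _
    have h2 : (G.rxn.card : ℝ) * (1 / ε * Zm * 0) < ε * z := by
      rw [mul_zero, mul_zero]; positivity
    obtain ⟨C, h3, h4⟩ := ((h1.eventually_lt_const h2).and (eventually_gt_atTop 0)).exists
    exact ⟨C, h4, h3⟩
  obtain ⟨C, hC0, hC⟩ := hCex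
  refine ⟨C, hC0, fun n hn a ha hcond κ hκ => ?_⟩
  have hpos : ∀ i, 0 < (c + Φ.L a) i := ((Φ.mem_P_iff c hc a).1 ha).1
  set p : (Fin d → ℕ) → ℝ := fun y => ∏ i, (c + Φ.L a) i ^ y i with hp
  have hp0 : ∀ y, 0 < p y := fun y => Finset.prod_pos fun i _ => pow_pos (hpos i) _
  -- descending reactions
  set De := G.rxn.filter (fun r => ⟪n, Φ.D (rvec r)⟫_ℝ < 0) with hDe
  set Sg : ℝ := ∑ r ∈ De, p r.1 with hSg
  have hasc : ∀ r ∈ G.rxn, 0 < ⟪n, Φ.D (rvec r)⟫_ℝ → p r.1 ≤ Real.exp (-C) * Sg := by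
    intro r hr h0
    obtain ⟨q, hq, hq1, hq2, hq3⟩ := Φ.descend hwr hr h0
    have hv : Φ.D (rvec (r.1, q.1)) ∈ Φ.V := by
      refine Φ.mem_V.2 ⟨r.1, (G.mem r hr).1, q.1, (G.mem q hq).1, hq2, ?_, rfl⟩
      intro h
      rw [h, inner_zero_right] at hq3
      exact absurd hq3 (lt_irrefl _)
    have h1 := hcond _ hv hq3
    rw [← Φ.log_mono c hc r.1 q.1 hq2 ha] at h1
    have h2 : Real.log (p r.1) ≤ Real.log (p q.1) - C := by
      simp only [hp]; linarith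
    have h3 : p r.1 ≤ Real.exp (-C) * p q.1 := by
      have h4 := Real.exp_le_exp.2 h2
      rw [Real.exp_log (hp0 _), Real.exp_sub, Real.exp_log (hp0 _)] at h4
      rw [Real.exp_neg]
      calc p r.1 ≤ p q.1 / Real.exp C := h4
        _ = _ := by rw [div_eq_inv_mul]
    refine h3.trans (mul_le_mul_of_nonneg_left ?_ (Real.exp_pos _).le)
    exact Finset.single_le_sum (f := fun r : (Fin d → ℕ) × (Fin d → ℕ) => p r.1)
      (fun r _ => (hp0 _).le) (Finset.mem_filter.2 ⟨hq, hq1⟩)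
  -- a descending reaction exists
  have hne : De.Nonempty := by
    by_contra hcon
    rw [Finset.not_nonempty_iff_eq_empty] at hcon
    have hno : ∀ r ∈ G.rxn, ¬ ⟪n, Φ.D (rvec r)⟫_ℝ < 0 := by
      intro r hr h
      have : r ∈ De := Finset.mem_filter.2 ⟨hr, h⟩
      rw [hcon] at this
      exact absurd this (Finset.notMem_empty _)
    have hz0' : ∀ r ∈ G.rxn, ⟪n, Φ.D (rvec r)⟫_ℝ = 0 := by
      intro r hr
      refine le_antisymm ?_ (not_lt.1 (hno r hr))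
      by_contra h
      obtain ⟨q, hq, hq1, -, -⟩ := Φ.descend hwr hr (not_le.1 h)
      exact hno q hq hq1
    apply hN n hn
    have h2 : ∀ w ∈ G.stoich, ⟪n, Φ.D w⟫_ℝ = 0 := by
      intro w hw
      refine Submodule.span_induction ?_ ?_ ?_ ?_ hw
      · rintro v ⟨r, hr, rfl⟩; exact hz0' r hr
      · simp
      · intro x y _ _ hx hy; rw [map_add, inner_add_right, hx, hy, add_zero]
      · intro t x _ hx; rw [map_smul, real_inner_smul_right, hx, mul_zero]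
    have h3 := h2 _ (Φ.Lmem n)
    rw [Φ.DL] at h3
    exact inner_self_eq_zero.1 h3
  have hSg0 : 0 < Sg := Finset.sum_pos (fun r _ => hp0 _) hne
  -- termwise bound
  have hterm : ∀ r ∈ G.rxn, κ r * p r.1 * ⟪n, Φ.D (rvec r)⟫_ℝ ≤
      (1 / ε * Zm * Real.exp (-C)) * Sg + if ⟪n, Φ.D (rvec r)⟫_ℝ < 0 then - (ε * z) * p r.1 else 0 := by
    intro r hr
    have hκ1 := (hκ r hr).1
    have hκ2 := (hκ r hr).2
    have hA : 0 ≤ (1 / ε * Zm * Real.exp (-C)) * Sg := by positivity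
    split_ifs with h
    · have h1 := hz n hn r hr h
      have h2 : κ r * p r.1 * ⟪n, Φ.D (rvec r)⟫_ℝ ≤ κ r * p r.1 * (-z) :=
        mul_le_mul_of_nonneg_left h1 (mul_nonneg (hε.le.trans hκ1) (hp0 _).le)
      have h3 : κ r * p r.1 * (-z) ≤ ε * p r.1 * (-z) := by
        have : ε * p r.1 ≤ κ r * p r.1 := mul_le_mul_of_nonneg_right hκ1 (hp0 _).le
        nlinarith
      calc κ r * p r.1 * ⟪n, Φ.D (rvec r)⟫_ℝ ≤ ε * p r.1 * (-z) := h2.trans h3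
        _ = -(ε * z) * p r.1 := by ring
        _ ≤ _ := by linarith
    · rw [add_zero]
      rcases (not_lt.1 h).eq_or_lt with h0 | h0
      · rw [← h0, mul_zero]; exact hA
      · have h1 := hasc r hr h0
        have h2 := hZ n hn r hr
        calc κ r * p r.1 * ⟪n, Φ.D (rvec r)⟫_ℝ
            ≤ (1 / ε) * (Real.exp (-C) * Sg) * Zm := by
              apply mul_le_mul _ h2 h0.le (by positivity)
              exact mul_le_mul hκ2 h1 (hp0 _).le (by positivity)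
          _ = _ := by ring
  have hsum : ⟪n, Φ.X c κ a⟫_ℝ = ∑ r ∈ G.rxn, κ r * p r.1 * ⟪n, Φ.D (rvec r)⟫_ℝ := by
    unfold Coord.X
    rw [inner_sum]
    refine Finset.sum_congr rfl fun r _ => ?_
    rw [real_inner_smul_right]
  rw [hsum]
  calc ∑ r ∈ G.rxn, κ r * p r.1 * ⟪n, Φ.D (rvec r)⟫_ℝ
      ≤ ∑ r ∈ G.rxn, ((1 / ε * Zm * Real.exp (-C)) * Sg +
        if ⟪n, Φ.D (rvec r)⟫_ℝ < 0 then - (ε * z) * p r.1 else 0) := Finset.sum_le_sum hterm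
    _ = (G.rxn.card : ℝ) * (1 / ε * Zm * Real.exp (-C)) * Sg - (ε * z) * Sg := by
        rw [Finset.sum_add_distrib, Finset.sum_const, nsmul_eq_mul, ← Finset.sum_filter,
          ← Finset.mul_sum]
        ring
    _ < 0 := by
        have := mul_lt_mul_of_pos_right hC hSg0
        linarith

end Coord

end Vale.Agent.P072
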