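import Vale.Agent.P072.Defs
import Vale.Agent.P072.Flow

open Set Filter Topology MeasureTheory intervalIntegral
open scoped NNReal

namespace Vale.Agent.P072

section Lip

variable {W : Type*} [NormedAddCommGroup W] [NormedSpace ℝ W] {ρ : Type*}

lemma lip_sum (R : Finset ρ) (m : ρ → W → ℝ) (Kr : ρ → ℝ≥0)
    (hm : ∀ r ∈ R, LipschitzWith (Kr r) (m r)) (v : ρ → W) (A : ℝ≥0) (κ : ρ → ℝ)
    (hκ : ∀ r ∈ R, |κ r| ≤ A) :
    LipschitzWith (∑ r ∈ R, A * Kr r * ‖v r‖₊) (fun x => ∑ r ∈ R, (κ r * m r x) • v r) := by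
  apply LipschitzWith.of_dist_le_mul
  intro x y
  rw [dist_eq_norm, ← Finset.sum_sub_distrib]
  push_cast
  rw [Finset.sum_mul]
  refine (norm_sum_le _ _).trans (Finset.sum_le_sum fun r hr => ?_)
  rw [← sub_smul, ← mul_sub, norm_smul, norm_mul, Real.norm_eq_abs, Real.norm_eq_abs]
  have h1 := (hm r hr).dist_le_mul x y
  rw [Real.dist_eq] at h1
  have h2 := hκ r hr
  have : |κ r| * |m r x - m r y| ≤ A * (Kr r * dist x y) :=
    mul_le_mul h2 h1 (abs_nonneg _) A.2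
  calc |κ r| * |m r x - m r y| * ‖v r‖ ≤ A * (Kr r * dist x y) * ‖v r‖ :=
        mul_le_mul_of_nonneg_right this (norm_nonneg _)
    _ = _ := by ring

lemma int_sum (R : Finset ρ) (m : ρ → W → ℝ) (hm : ∀ r ∈ R, Continuous (m r)) (v : ρ → W)
    (A : ℝ) (κ : ℝ → ρ → ℝ) (hκ : ∀ t, ∀ r ∈ R, |κ t r| ≤ A)
    (hmeas : ∀ r ∈ R, Measurable fun t => κ t r) {α : ℝ → W} {a b : ℝ}
    (hα : ContinuousOn α (uIcc a b)) :
    IntervalIntegrable (fun s => ∑ r ∈ R, (κ s r * m r (α s)) • v r) volume a b := by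
  have : (fun s => ∑ r ∈ R, (κ s r * m r (α s)) • v r) =
      ∑ r ∈ R, fun s => (κ s r * m r (α s)) • v r := by
    ext s; simp
  rw [this]
  apply IntervalIntegrable.sum
  intro r hr
  have h1 : IntervalIntegrable (fun s => κ s r) volume a b := by
    refine (intervalIntegrable_const (c := A)).mono_fun' (hmeas r hr).aestronglyMeasurable ?_
    exact Eventually.of_forall fun s => by simpa [Real.norm_eq_abs] using hκ s r hr
  have h2 : IntervalIntegrable (fun s => κ s r * m r (α s)) volume a b :=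
    h1.mul_continuousOn ((hm r hr).comp_continuousOn hα)
  exact h2.smul_continuousOn continuousOn_const

/-- Monomials extend from balls to globally Lipschitz functions. -/
lemma exists_ext {d : ℕ} (R' : ℝ) : ∃ m : (Fin d → ℕ) × (Fin d → ℕ) → (Fin d → ℝ) → ℝ,
    ∃ K : (Fin d → ℕ) × (Fin d → ℕ) → ℝ≥0, (∀ r, LipschitzWith (K r) (m r)) ∧
      ∀ r, ∀ x ∈ Metric.closedBall (0 : Fin d → ℝ) R', m r x = ∏ i, x i ^ r.1 i := by
  have h : ∀ r : (Fin d → ℕ) × (Fin d → ℕ), ∃ (K : ℝ≥0) (m : (Fin d → ℝ) → ℝ), LipschitzWith K m ∧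
      ∀ x ∈ Metric.closedBall (0 : Fin d → ℝ) R', m x = ∏ i, x i ^ r.1 i := by
    intro r
    have h1 : ContDiff ℝ 1 fun x : Fin d → ℝ => ∏ i, x i ^ r.1 i := by
      apply contDiff_prod
      intro i _
      exact (contDiff_apply ℝ ℝ i).pow _
    have h2 := h1.locallyLipschitz
    obtain ⟨K, hK⟩ := (h2.locallyLipschitzOn).exists_lipschitzOnWith_of_compact
      (isCompact_closedBall (0 : Fin d → ℝ) R')
    obtain ⟨g, hg, hg'⟩ := hK.extend_real
    exact ⟨K, g, hg, fun x hx => (hg' hx).symm⟩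
  choose K m hm using h
  exact ⟨m, K, fun r => (hm r).1, fun r => (hm r).2⟩

end Lip

end Vale.Agent.P072
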