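import Vale.Agent.P072.Defs
import Vale.Agent.P072.Lip
import Vale.Agent.P072.Barrier
import Vale.Agent.P072.Inward

open Real Set Filter Topology MeasureTheory intervalIntegral
open scoped InnerProductSpace RealInnerProductSpace NNReal

namespace Vale.Agent.P072

set_option linter.unusedSectionVars false

variable {d : ℕ} {G : Network d}

open Network

namespace Full

lemma field_congr {k k' : (Fin d → ℕ) × (Fin d → ℕ) → ℝ} (h : ∀ r ∈ G.rxn, k r = k' r)
    (x : Fin d → ℝ) : G.field k x = G.field k' x := by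
  unfold Network.field
  exact Finset.sum_congr rfl fun r hr => by rw [h r hr]

lemma continuous_monomial (y : Fin d → ℕ) : Continuous fun x : Fin d → ℝ => ∏ i, x i ^ y i := by
  fun_prop

lemma integrable_field {A : ℝ} {κ : ℝ → (Fin d → ℕ) × (Fin d → ℕ) → ℝ}
    (hκ : ∀ t, ∀ r ∈ G.rxn, |κ t r| ≤ A) (hmeas : ∀ r ∈ G.rxn, Measurable fun t => κ t r)
    {y : ℝ → Fin d → ℝ} {a b : ℝ} (hy : ContinuousOn y (uIcc a b)) :
    IntervalIntegrable (fun s => G.field (κ s) (y s)) volume a b := by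
  have h := int_sum (W := Fin d → ℝ) (ρ := (Fin d → ℕ) × (Fin d → ℕ)) G.rxn
    (fun r x => ∏ i, x i ^ r.1 i) (fun r _ => continuous_monomial r.1) (fun r => rvec r) A κ
    hκ hmeas hy
  exact h

/-- Uniqueness of solutions of the equation with measurable bounded rates. -/
lemma varSol_unique {A : ℝ} {κ κ' : ℝ → (Fin d → ℕ) × (Fin d → ℕ) → ℝ}
    (hκ : ∀ t, ∀ r ∈ G.rxn, |κ' t r| ≤ A) (hmeas : ∀ r ∈ G.rxn, Measurable fun t => κ' t r)
    (hκκ : ∀ t ≥ 0, ∀ r ∈ G.rxn, κ t r = κ' t r)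
    {y z : ℝ → Fin d → ℝ} {t : ℝ} (ht : 0 ≤ t) (hyz : y 0 = z 0)
    (hy : ContinuousOn y (Icc 0 t)) (hz : ContinuousOn z (Icc 0 t))
    (hy' : ∀ s ∈ Icc 0 t, y s = y 0 + ∫ q in (0:ℝ)..s, G.field (κ q) (y q))
    (hz' : ∀ s ∈ Icc 0 t, z s = z 0 + ∫ q in (0:ℝ)..s, G.field (κ q) (z q)) :
    y t = z t := by
  obtain ⟨R₁, hR₁⟩ := ((isCompact_Icc.image_of_continuousOn hy).isBounded).subset_closedBall 0
  obtain ⟨R₂, hR₂⟩ := ((isCompact_Icc.image_of_continuousOn hz).isBounded).subset_closedBall 0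
  obtain ⟨m, Kr, hm, hm'⟩ := exists_ext (d := d) (max R₁ R₂)
  set f : ℝ → (Fin d → ℝ) → (Fin d → ℝ) := fun s x => ∑ r ∈ G.rxn, (κ' s r * m r x) • rvec r
    with hf
  have hA : ∀ t, ∀ r ∈ G.rxn, |κ' t r| ≤ (Real.toNNReal A : ℝ) := fun t r hr =>
    (hκ t r hr).trans (Real.le_coe_toNNReal A)
  have hLip : ∀ s, LipschitzWith (∑ r ∈ G.rxn, Real.toNNReal A * Kr r * ‖rvec r‖₊) (f s) :=
    fun s => lip_sum G.rxn m Kr (fun r _ => hm r) rvec (Real.toNNReal A) (κ' s) (hA s)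
  have hInt : ∀ α : ℝ → (Fin d → ℝ), Continuous α → ∀ a b,
      IntervalIntegrable (fun s => f s (α s)) volume a b := fun α hα a b =>
    int_sum G.rxn m (fun r _ => (hm r).continuous) rvec A κ' hκ hmeas hα.continuousOn
  have conv : ∀ (w : ℝ → Fin d → ℝ) (Rw : ℝ), Rw ≤ max R₁ R₂ →
      w '' (Icc 0 t) ⊆ Metric.closedBall 0 Rw → ContinuousOn w (Icc 0 t) →
      (∀ s ∈ Icc 0 t, w s = w 0 + ∫ q in (0:ℝ)..s, G.field (κ q) (w q)) → IsIntSol f w t := by
    intro w Rw hRw hw hwc hw'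
    refine ⟨hwc, fun s hs => ?_⟩
    rw [hw' s hs]
    congr 1
    apply intervalIntegral.integral_congr
    intro q hq
    rw [uIcc_of_le hs.1] at hq
    have hq' : q ∈ Icc 0 t := ⟨hq.1, hq.2.trans hs.2⟩
    have hmem : w q ∈ Metric.closedBall (0 : Fin d → ℝ) (max R₁ R₂) :=
      Metric.closedBall_subset_closedBall hRw (hw (mem_image_of_mem w hq'))
    simp only [hf]
    unfold Network.field
    refine Finset.sum_congr rfl fun r hr => ?_
    rw [hm' r _ hmem, hκκ q hq.1 r hr]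
  exact intSol_unique hLip hInt (conv y R₁ (le_max_left _ _) hR₁ hy hy')
    (conv z R₂ (le_max_right _ _) hR₂ hz hz') hyz t ⟨ht, le_rfl⟩

/-- The compact box of rates. -/
def rateBox (G : Network d) (ε : ℝ) : Set ((Fin d → ℕ) × (Fin d → ℕ) → ℝ) :=
  {κ | ∀ r, (r ∈ G.rxn → ε ≤ κ r ∧ κ r ≤ 1 / ε) ∧ (r ∉ G.rxn → κ r = 0)}

lemma isCompact_rateBox (G : Network d) (ε : ℝ) : IsCompact (rateBox G ε) := by
  classical
  have : rateBox G ε = Set.pi univ (fun r => if r ∈ G.rxn then Icc ε (1 / ε) else {0}) := by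
    ext κ
    simp only [rateBox, mem_ofPred_eq, Set.mem_pi, mem_univ, true_implies]
    refine forall_congr' fun r => ?_
    by_cases h : r ∈ G.rxn <;> simp [h]
  rw [this]
  apply isCompact_univ_pi
  intro r
  split_ifs
  · exact isCompact_Icc
  · exact isCompact_singleton

lemma continuous_X {E : Type*} [NormedAddCommGroup E] [InnerProductSpace ℝ E]
    [FiniteDimensional ℝ E] (Φ : Coord G E) (c : Fin d → ℝ) :
    Continuous (fun p : ((Fin d → ℕ) × (Fin d → ℕ) → ℝ) × E => Φ.X c p.1 p.2) := by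
  have hLc : Continuous Φ.L := LinearMap.continuous_of_finiteDimensional Φ.L
  have hcLc : Continuous fun a : E => c + Φ.L a := continuous_const.add hLc
  unfold Coord.X
  refine continuous_finsetSum _ fun r _ => ?_
  have h1 : Continuous fun p : ((Fin d → ℕ) × (Fin d → ℕ) → ℝ) × E => p.1 r :=
    (continuous_apply r).comp continuous_fst
  have h2 : Continuous fun p : ((Fin d → ℕ) × (Fin d → ℕ) → ℝ) × E =>
      ∏ i, (c + Φ.L p.2) i ^ r.1 i :=
    (continuous_monomial r.1).comp (hcLc.comp continuous_snd)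
  exact (h1.mul h2).smul continuous_const

/-- The absorption property in coordinates. -/
def Absorbs {E : Type*} [NormedAddCommGroup E] [InnerProductSpace ℝ E]
    [FiniteDimensional ℝ E] (Φ : Coord G E) (c : Fin d → ℝ) (ε : ℝ) : Prop :=
  ∃ K : Set E, IsCompact K ∧ (∀ a ∈ K, c + Φ.L a ∈ G.posClass c) ∧
    ∀ a₀ : E, c + Φ.L a₀ ∈ G.posClass c → ∃ K₁ : Set E, IsCompact K₁ ∧
      (∀ a ∈ K₁, c + Φ.L a ∈ G.posClass c) ∧
      ∃ T : ℝ, 0 ≤ T ∧ ∀ (X' : ((Fin d → ℕ) × (Fin d → ℕ) → ℝ) → E → E),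
      Continuous (fun p : ((Fin d → ℕ) × (Fin d → ℕ) → ℝ) × E => X' p.1 p.2) →
      (∀ κ ∈ rateBox G ε, ∀ a ∈ K₁, X' κ a = Φ.X c κ a) →
      ∀ (x : ℝ → E) (t₁ : ℝ), IsTraj X' (rateBox G ε) x 0 t₁ → x 0 = a₀ →
        (∀ t ∈ Icc 0 t₁, x t ∈ K₁) ∧ (∀ t ∈ Icc 0 t₁, T ≤ t → x t ∈ K)

/-- Permanence, uniformly over measurable rates, from absorption. -/
theorem varPermanent_of_absorbs {E : Type*} [NormedAddCommGroup E] [InnerProductSpace ℝ E]
    [FiniteDimensional ℝ E] (Φ : Coord G E) (c : Fin d → ℝ)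
    {ε : ℝ} (hε : 0 < ε) (habs : Absorbs Φ c ε) : G.VarPermanent ε c := by
  classical
  have hBmem : ∀ κ ∈ rateBox G ε, ∀ r ∈ G.rxn, ε ≤ κ r ∧ κ r ≤ 1 / ε := fun κ hκ r hr =>
    (hκ r).1 hr
  have hLc : Continuous Φ.L := LinearMap.continuous_of_finiteDimensional Φ.L
  have hcLc : Continuous fun a : E => c + Φ.L a := continuous_const.add hLc
  obtain ⟨K, hKc, hKP, hK⟩ := habs
  refine ⟨(fun a => c + Φ.L a) '' K, hKc.image hcLc, ?_, fun x₀ hx₀ => ?_⟩
  · rintro _ ⟨a, ha, rfl⟩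
    exact hKP a ha
  -- starting point in coordinates
  set a₀ : E := Φ.D (x₀ - c) with ha₀
  have hLa₀ : c + Φ.L a₀ = x₀ := by
    rw [ha₀, Φ.LD _ hx₀.2]; abel
  obtain ⟨K₁, hK₁c, hK₁P, T, hT0, hK₁⟩ := hK a₀ (by rw [hLa₀]; exact hx₀)
  refine ⟨T, fun κ hmeas hκ => ?_⟩
  -- modified rates
  set κ' : ℝ → (Fin d → ℕ) × (Fin d → ℕ) → ℝ := fun t r => if r ∈ G.rxn then κ (max 0 t) r else 0
    with hκ'
  have hκ'B : ∀ t, κ' t ∈ rateBox G ε := by
    intro t r
    simp only [hκ']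
    refine ⟨fun hr => ?_, fun hr => ?_⟩
    · rw [if_pos hr]; exact hκ _ (le_max_left _ _) r hr
    · rw [if_neg hr]
  have hκκ : ∀ t ≥ 0, ∀ r ∈ G.rxn, κ t r = κ' t r := by
    intro t ht r hr
    simp only [hκ', if_pos hr, max_eq_right ht]
  have hκ'b : ∀ t, ∀ r ∈ G.rxn, |κ' t r| ≤ 1 / ε := by
    intro t r hr
    have := hBmem _ (hκ'B t) r hr
    rw [abs_of_nonneg (hε.le.trans this.1)]
    exact this.2
  have hκ'm : ∀ r ∈ G.rxn, Measurable fun t => κ' t r := by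
    intro r hr
    simp only [hκ', if_pos hr]
    exact (hmeas r hr).comp (measurable_const.max measurable_id)
  -- extended field
  obtain ⟨R', hR'⟩ := ((hK₁c.image hcLc).isBounded).subset_closedBall 0
  obtain ⟨m, Kr, hm, hm'⟩ := exists_ext (d := d) R'
  set L' : E →L[ℝ] (Fin d → ℝ) := LinearMap.toContinuousLinearMap Φ.L with hL'
  have hcL : LipschitzWith ‖L'‖₊ (fun a : E => c + Φ.L a) := by
    have h1 : LipschitzWith ‖L'‖₊ L' := L'.lipschitz
    apply LipschitzWith.of_dist_le_mul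
    intro a b
    have h2 := h1.dist_le_mul a b
    rw [dist_add_left]
    exact h2
  set X' : ((Fin d → ℕ) × (Fin d → ℕ) → ℝ) → E → E := fun k a =>
    ∑ r ∈ G.rxn, (k r * m r (c + Φ.L a)) • Φ.D (rvec r) with hX'
  have hX'c : Continuous (fun p : ((Fin d → ℕ) × (Fin d → ℕ) → ℝ) × E => X' p.1 p.2) := by
    simp only [hX']
    refine continuous_finsetSum _ fun r _ => ?_
    have h1 : Continuous fun p : ((Fin d → ℕ) × (Fin d → ℕ) → ℝ) × E => p.1 r :=
      (continuous_apply r).comp continuous_fst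
    have h2 : Continuous fun p : ((Fin d → ℕ) × (Fin d → ℕ) → ℝ) × E => m r (c + Φ.L p.2) :=
      (hm r).continuous.comp (hcLc.comp continuous_snd)
    exact (h1.mul h2).smul continuous_const
  have hXX : ∀ k ∈ rateBox G ε, ∀ a ∈ K₁, X' k a = Φ.X c k a := by
    intro k _ a ha
    simp only [hX']
    unfold Coord.X
    refine Finset.sum_congr rfl fun r _ => ?_
    rw [hm' r _ (hR' (mem_image_of_mem _ ha))]
  set f : ℝ → E → E := fun s a => X' (κ' s) a with hf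
  have hA : ∀ t, ∀ r ∈ G.rxn, |κ' t r| ≤ (Real.toNNReal (1 / ε) : ℝ) := fun t r hr =>
    (hκ'b t r hr).trans (Real.le_coe_toNNReal _)
  have hLip : ∀ s, LipschitzWith (∑ r ∈ G.rxn, Real.toNNReal (1 / ε) * (Kr r * ‖L'‖₊) *
      ‖Φ.D (rvec r)‖₊) (f s) :=
    fun s => lip_sum G.rxn (fun r a => m r (c + Φ.L a)) (fun r => Kr r * ‖L'‖₊)
      (fun r _ => (hm r).comp hcL) (fun r => Φ.D (rvec r)) (Real.toNNReal (1 / ε)) (κ' s) (hA s)
  have hInt' : ∀ (α : ℝ → E) (a b : ℝ), ContinuousOn α (uIcc a b) →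
      IntervalIntegrable (fun s => f s (α s)) volume a b := fun α a b hα =>
    int_sum G.rxn (fun r a => m r (c + Φ.L a)) (fun r _ => (hm r).continuous.comp hcLc)
      (fun r => Φ.D (rvec r)) (1 / ε) κ' hκ'b hκ'm hα
  obtain ⟨x, hx0, hx⟩ := exists_global hLip (fun α hα a b => hInt' α a b hα.continuousOn) a₀
  have htraj : ∀ t₁, IsTraj X' (rateBox G ε) x 0 t₁ := by
    intro t₁
    refine ⟨(hx t₁).1, fun s => f s (x s), fun s _ => ⟨κ' s, hκ'B s, rfl⟩,
      fun t ht t' ht' htt => ?_⟩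
    have hsub : ∀ a b, a ∈ Icc 0 t₁ → b ∈ Icc 0 t₁ → uIcc a b ⊆ Icc 0 t₁ := fun a b ha hb =>
      uIcc_subset_Icc ha hb
    have h0 : (0:ℝ) ∈ Icc 0 t₁ := ⟨le_rfl, ht.1.trans ht.2⟩
    have hi1 : IntervalIntegrable (fun s => f s (x s)) volume 0 t :=
      hInt' x 0 t ((hx t₁).1.mono (hsub 0 t h0 ht))
    have hi2 : IntervalIntegrable (fun s => f s (x s)) volume t t' :=
      hInt' x t t' ((hx t₁).1.mono (hsub t t' ht ht'))
    refine ⟨hi2, ?_⟩
    rw [(hx t₁).2 t' ht', (hx t₁).2 t ht, add_assoc,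
      intervalIntegral.integral_add_adjacent_intervals hi1 hi2]
  have hxK₁ : ∀ t ≥ 0, x t ∈ K₁ := fun t ht =>
    (hK₁ X' hX'c hXX x t (htraj t) hx0).1 t ⟨ht, le_rfl⟩
  have hxK : ∀ t ≥ 0, T ≤ t → x t ∈ K := fun t ht htT =>
    (hK₁ X' hX'c hXX x t (htraj t) hx0).2 t ⟨ht, le_rfl⟩ htT
  have hxc : ContinuousOn x (Ici 0) := by
    intro t ht
    have h1 := (hx (t + 1)).1 t ⟨ht, by linarith⟩
    apply h1.mono_of_mem_nhdsWithin
    have h2 : Icc 0 (t + 1) = Ici 0 ∩ Iic (t + 1) := Ici_inter_Iic.symm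
    rw [h2]
    exact inter_mem_nhdsWithin _ (Iic_mem_nhds (by linarith))
  set y : ℝ → Fin d → ℝ := fun t => c + Φ.L (x t) with hy
  have hy0 : y 0 = x₀ := by simp only [hy, hx0, hLa₀]
  have hyc : ContinuousOn y (Ici 0) := hcLc.comp_continuousOn hxc
  have hfy : ∀ s ≥ 0, Φ.L (f s (x s)) = G.field (κ s) (y s) := by
    intro s hs
    simp only [hf]
    rw [hXX _ (hκ'B s) _ (hxK₁ s hs), Φ.L_X]
    exact field_congr (fun r hr => (hκκ s hs r hr).symm) _
  have hyint : ∀ t ≥ 0, IntervalIntegrable (fun s => G.field (κ s) (y s)) volume 0 t := by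
    intro t ht
    have hcy : ContinuousOn y (uIcc 0 t) := by
      rw [uIcc_of_le ht]; exact hyc.mono Icc_subset_Ici_self
    have h1 := integrable_field (G := G) hκ'b hκ'm hcy
    refine h1.congr ?_
    intro s hs
    rw [uIoc_of_le ht] at hs
    exact (field_congr (fun r hr => (hκκ s hs.1.le r hr).symm) _)
  have hyeq : ∀ t ≥ 0, y t = y 0 + ∫ s in (0:ℝ)..t, G.field (κ s) (y s) := by
    intro t ht
    have h1 := (hx t).2 t ⟨ht, le_rfl⟩
    have hi : IntervalIntegrable (fun s => f s (x s)) volume 0 t :=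
      hInt' x 0 t (by rw [uIcc_of_le ht]; exact (hx t).1)
    have h2 : ∫ s in (0:ℝ)..t, G.field (κ s) (y s) = Φ.L (∫ s in (0:ℝ)..t, f s (x s)) := by
      have h3 := L'.intervalIntegral_comp_comm hi
      have h4 : L' (∫ s in (0:ℝ)..t, f s (x s)) = Φ.L (∫ s in (0:ℝ)..t, f s (x s)) := rfl
      rw [← h4, ← h3]
      apply intervalIntegral.integral_congr
      intro s hs
      rw [uIcc_of_le ht] at hs
      exact (hfy s hs.1).symm
    rw [h2]
    simp only [hy]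
    rw [h1, map_add, add_assoc]
  refine ⟨y, hy0, ⟨hyc, fun t ht => ⟨hyint t ht, hyeq t ht⟩⟩, fun t ht => ?_, fun t ht htT => ?_,
    fun τ hτ z hz0 hz t ht => ?_⟩
  · exact hK₁P _ (hxK₁ t ht)
  · exact mem_image_of_mem _ (hxK t ht htT)
  · have hsub : Icc 0 t ⊆ Ico 0 τ := fun s hs => ⟨hs.1, hs.2.trans_lt ht.2⟩
    exact (varSol_unique (G := G) (A := 1 / ε) (κ := κ) (κ' := κ') hκ'b hκ'm hκκ ht.1
      (hy0.trans hz0.symm) (hyc.mono Icc_subset_Ici_self) (hz.1.mono hsub)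
      (fun s hs => hyeq s hs.1) (fun s hs => (hz.2 s (hsub hs)).2)).symm

/-- Permanence for constant rates. -/
theorem permanent_of_varPermanent (c : Fin d → ℝ) (hvar : ∀ ε > 0, G.VarPermanent ε c)
    (k : (Fin d → ℕ) × (Fin d → ℕ) → ℝ) (hk : ∀ r ∈ G.rxn, 0 < k r) : G.Permanent k c := by
  classical
  have hε : ∃ ε : ℝ, 0 < ε ∧ ∀ r ∈ G.rxn, ε ≤ k r ∧ k r ≤ 1 / ε := by
    have : ∀ᶠ ε in 𝓝[>] (0:ℝ), ∀ r ∈ G.rxn, ε ≤ k r ∧ k r ≤ 1 / ε := by
      rw [Filter.eventually_all_finset]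
      intro r hr
      have h1 := hk r hr
      filter_upwards [Ioo_mem_nhdsGT h1, Ioo_mem_nhdsGT (one_div_pos.2 h1)] with ε h2 h3
      refine ⟨h2.2.le, ?_⟩
      rw [le_div_iff₀ h3.1]
      have h4 := h3.2.le
      rw [le_div_iff₀ h1] at h4
      linarith
    obtain ⟨ε, h1, h2⟩ := (this.and self_mem_nhdsWithin).exists
    exact ⟨ε, h2, h1⟩
  obtain ⟨ε, hε, hkε⟩ := hε
  obtain ⟨K, hKc, hKP, hK⟩ := hvar ε hε
  refine ⟨K, hKc, hKP, fun x₀ hx₀ => ?_⟩
  obtain ⟨T, hT⟩ := hK x₀ hx₀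
  obtain ⟨x, hx0, hx, hxP, hxK, huniq⟩ := hT (fun _ => k) (fun r _ => measurable_const)
    (fun t _ => hkε)
  have hfc : Continuous fun y : Fin d → ℝ => G.field k y := by
    unfold Network.field
    refine continuous_finsetSum _ fun r _ => ?_
    exact (continuous_const.mul (continuous_monomial r.1)).smul continuous_const
  refine ⟨x, hx0, ?_, hxP, ⟨max T 0, fun t ht => hxK t ((le_max_right _ _).trans ht)
    ((le_max_left _ _).trans ht)⟩, fun τ hτ z hz0 hz => huniq τ hτ z hz0 ?_⟩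
  · -- integral equation implies the differential equation
    intro t ht
    set g : ℝ → Fin d → ℝ := fun s => G.field k (x (max 0 s)) with hg
    have hgc : Continuous g := by
      apply hfc.comp
      exact hx.1.comp_continuous (by fun_prop) (fun s => mem_Ici.2 (le_max_left 0 s))
    have h1 : HasDerivAt (fun u => x 0 + ∫ s in (0:ℝ)..u, g s) (g t) t :=
      (intervalIntegral.integral_hasDerivAt_right (hgc.intervalIntegrable _ _)
        (hgc.stronglyMeasurableAtFilter _ _) hgc.continuousAt).const_add _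
    have h2 : ∀ u ∈ Ici (0:ℝ), x u = x 0 + ∫ s in (0:ℝ)..u, g s := by
      intro u hu
      rw [(hx.2 u hu).2]
      congr 1
      apply intervalIntegral.integral_congr
      intro s hs
      rw [uIcc_of_le hu] at hs
      simp only [hg, max_eq_right hs.1]
    have h3 : g t = G.field k (x t) := by simp only [hg, max_eq_right (mem_Ici.1 ht)]
    rw [← h3]
    exact h1.hasDerivWithinAt.congr h2 (h2 t ht)
  · -- differential equation implies the integral equation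
    have hzc : ContinuousOn z (Ico 0 τ) := fun t ht => (hz t ht).continuousWithinAt
    refine ⟨hzc, fun t ht => ?_⟩
    have hsub : Icc 0 t ⊆ Ico 0 τ := fun s hs => ⟨hs.1, hs.2.trans_lt ht.2⟩
    have hint : IntervalIntegrable (fun s => G.field k (z s)) volume 0 t := by
      apply ContinuousOn.intervalIntegrable
      rw [uIcc_of_le ht.1]
      exact hfc.comp_continuousOn (hzc.mono hsub)
    refine ⟨hint, ?_⟩
    have h1 := intervalIntegral.integral_eq_sub_of_hasDeriv_right_of_le ht.1 (hzc.mono hsub)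
      (f' := fun s => G.field k (z s)) (fun s hs => by
        have h2 := hz s ⟨hs.1.le, hs.2.trans ht.2⟩
        apply h2.mono_of_mem_nhdsWithin
        have : Ioo s τ ∈ 𝓝[>] s := Ioo_mem_nhdsGT (hs.2.trans ht.2)
        exact mem_of_superset this fun q hq => ⟨hs.1.le.trans hq.1.le, hq.2⟩) hint
    rw [h1]; abel

end Full

end Vale.Agent.P072
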