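import Vale.Agent.P072.FromAbsorb
import Vale.Agent.P072.BarrierJ
import Vale.Agent.P072.Bodies

open Real Set Filter Topology MeasureTheory intervalIntegral
open scoped InnerProductSpace RealInnerProductSpace NNReal

namespace Vale.Agent.P072

set_option linter.unusedSectionVars false

variable {d : ℕ} {G : Network d}

open Network

namespace Full

variable {E : Type*} [NormedAddCommGroup E] [InnerProductSpace ℝ E] [FiniteDimensional ℝ E]
  (Φ : Coord G E)

/-- The vector in coordinates representing a linear functional of the state. -/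
noncomputable def vec (ω : Fin d → ℝ) : E :=
  (InnerProductSpace.toDual ℝ E).symm
    (LinearMap.toContinuousLinearMap
      ((∑ k, ω k • (LinearMap.proj k : (Fin d → ℝ) →ₗ[ℝ] ℝ)) ∘ₗ Φ.L))

lemma inner_vec (ω : Fin d → ℝ) (a : E) : ⟪vec Φ ω, a⟫_ℝ = ∑ k, ω k * Φ.L a k := by
  simp [vec]

lemma inner_Th_rvec (c : Fin d → ℝ) (hc : ∀ i, 0 < c i) (ρ : Fin d → ℝ) (hρ : ρ ∈ G.stoich)
    (a : E) : ⟪(Φ.sys c hc).Th a, Φ.D ρ⟫_ℝ = ∑ k, ρ k * Real.log ((c + Φ.L a) k) := by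
  rw [Sys.inner_Th]
  refine Finset.sum_congr rfl fun k _ => ?_
  rw [Coord.inner_g, Φ.LD _ hρ, Coord.ell_eq]
  simp only [Pi.add_apply]
  ring

theorem absorbs (hwr : G.WeaklyReversible) (c : Fin d → ℝ) (hc : ∀ i, 0 < c i) {ε : ℝ}
    (hε : 0 < ε) : Absorbs Φ c ε := by
  classical
  obtain ⟨J, hJ, ω, h, Λ₀, T, hmono, hlip, hbdd, hexh, hfacet⟩ :=
    exists_bodies d ((G.cplx ×ˢ G.cplx).image fun p => rvec p)
  have hLc : Continuous Φ.L := LinearMap.continuous_of_finiteDimensional Φ.L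
  have hDc : Continuous Φ.D := LinearMap.continuous_of_finiteDimensional Φ.D
  have hcLc : Continuous fun a : E => c + Φ.L a := continuous_const.add hLc
  set ν : J → E := fun j => vec Φ (ω j) with hν
  -- heights in coordinates
  set H : J → ℝ → ℝ := fun j Λ => h j Λ - ∑ k, ω j k * c k with hH
  have hequiv : ∀ j Λ a, ⟪ν j, a⟫_ℝ ≤ H j Λ ↔ ∑ k, ω j k * (c + Φ.L a) k ≤ h j Λ := by
    intro j Λ a
    simp only [hν, hH, inner_vec, Pi.add_apply, mul_add, Finset.sum_add_distrib]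
    constructor <;> intro h <;> linarith
  have hequiv' : ∀ j Λ a, ⟪ν j, a⟫_ℝ = H j Λ ↔ ∑ k, ω j k * (c + Φ.L a) k = h j Λ := by
    intro j Λ a
    simp only [hν, hH, inner_vec, Pi.add_apply, mul_add, Finset.sum_add_distrib]
    constructor <;> intro h <;> linarith
  -- the inward constant
  have : Fintype J := Fintype.ofFinite J
  obtain ⟨C, hC0, hin⟩ := Φ.inward hwr c hc hε
    ((Finset.univ.image ν).filter fun n => n ≠ 0) (fun n hn => (Finset.mem_filter.1 hn).2)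
  -- the base parameter
  have hev : ∀ᶠ Λ in atTop, ∀ j, ∑ k, ω j k * c k < h j Λ := by
    rw [Filter.eventually_all]
    exact fun j => hexh c hc j
  obtain ⟨Λ₁, hΛ₁⟩ := eventually_atTop.1 ((hfacet C).and (hev.and (eventually_ge_atTop Λ₀)))
  have hge : ∀ Λ ≥ Λ₁, Λ₀ ≤ Λ := fun Λ hΛ => (hΛ₁ Λ hΛ).2.2
  -- the polytopes
  set Q : ℝ → Set E := fun Λ => {a | ∀ j, ⟪ν j, a⟫_ℝ ≤ H j Λ} with hQ
  have hQb : ∀ Λ ≥ Λ₁, ∀ a ∈ Q Λ, ∀ k, exp (-T * Λ) ≤ (c + Φ.L a) k ∧ (c + Φ.L a) k ≤ exp Λ := by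
    intro Λ hΛ a ha
    exact hbdd Λ (c + Φ.L a) (hge Λ hΛ) (fun j => (hequiv j Λ a).1 (ha j))
  have hQP : ∀ Λ ≥ Λ₁, ∀ a ∈ Q Λ, c + Φ.L a ∈ G.posClass c := by
    intro Λ hΛ a ha
    refine ⟨fun i => (Real.exp_pos _).trans_le (hQb Λ hΛ a ha i).1, ?_⟩
    rw [add_sub_cancel_left]; exact Φ.Lmem a
  have hQc : ∀ Λ ≥ Λ₁, IsCompact (Q Λ) := by
    intro Λ hΛ
    have hcl : IsClosed (Q Λ) := by
      have : Q Λ = ⋂ j, {a | ⟪ν j, a⟫_ℝ ≤ H j Λ} := by ext a; simp [hQ]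
      rw [this]
      exact isClosed_iInter fun j => isClosed_le (by fun_prop) continuous_const
    have hbox : IsCompact ((fun x : Fin d → ℝ => Φ.D (x - c)) ''
        (Set.pi univ fun _ => Icc (exp (-T * Λ)) (exp Λ))) := by
      apply IsCompact.image
      · exact isCompact_univ_pi fun _ => isCompact_Icc
      · exact hDc.comp (continuous_id.sub continuous_const)
    refine hbox.of_isClosed_subset hcl fun a ha => ?_
    refine ⟨c + Φ.L a, fun k _ => hQb Λ hΛ a ha k, ?_⟩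
    simp only
    rw [add_sub_cancel_left, Φ.DL]
  refine ⟨Q Λ₁, hQc Λ₁ le_rfl, hQP Λ₁ le_rfl, fun a₀ ha₀ => ?_⟩
  -- a polytope containing the starting point
  have hev2 : ∀ᶠ Λ in atTop, ∀ j, ∑ k, ω j k * (c + Φ.L a₀) k < h j Λ := by
    rw [Filter.eventually_all]
    exact fun j => hexh _ ha₀.1 j
  obtain ⟨Λ₂, hΛ₂, hΛ₂ge⟩ := (hev2.and (eventually_ge_atTop Λ₁)).exists
  have ha₀Q : a₀ ∈ Q Λ₂ := fun j => (hequiv j Λ₂ a₀).2 (hΛ₂ j).le
  choose L hL0 hL using fun j => hlip j Λ₂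
  obtain ⟨Lm, hLm⟩ : ∃ Lm : ℝ, 0 ≤ Lm ∧ ∀ j, L j ≤ Lm :=
    ⟨∑ j, L j, Finset.sum_nonneg fun j _ => hL0 j, fun j =>
      Finset.single_le_sum (fun j _ => hL0 j) (Finset.mem_univ j)⟩
  obtain ⟨T', hT', hst⟩ := stageJ (continuous_X Φ c) (isCompact_rateBox G ε) ν
    (fun j s => H j (Λ₂ - s)) (ℓ := Λ₂ - Λ₁) (L := Lm) (by linarith) hLm.1
    (by
      intro j s s' hs hss hs'
      have h1 : Λ₀ ≤ Λ₂ - s' := hge _ (by linarith)
      refine ⟨?_, ?_⟩
      · simp only [hH]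
        have := hmono j (Λ₂ - s') (Λ₂ - s) h1 (by linarith)
        linarith
      · simp only [hH]
        have h2 := hL j (Λ₂ - s') (Λ₂ - s) h1 (by linarith) (by linarith)
        have h3 : L j * (Λ₂ - s - (Λ₂ - s')) ≤ Lm * (s' - s) := by
          have h4 : Λ₂ - s - (Λ₂ - s') = s' - s := by ring
          rw [h4]
          exact mul_le_mul_of_nonneg_right (hLm.2 j) (by linarith)
        linarith)
    (by simpa [hQ] using hQc Λ₂ hΛ₂ge)
    (by
      intro s hs hsl a ha j hj κ hκ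
      have hΛge : Λ₁ ≤ Λ₂ - s := by linarith
      have hfac := (hΛ₁ (Λ₂ - s) hΛge).1 (c + Φ.L a) (fun m => (hequiv m _ a).1 (ha m)) j
        ((hequiv' j _ a).1 hj)
      have hne : ν j ≠ 0 := by
        intro h0
        rw [h0, inner_zero_left] at hj
        have h1 := (hΛ₁ (Λ₂ - s) hΛge).2.1 j
        simp only [hH] at hj
        linarith
      refine hin (ν j) (Finset.mem_filter.2 ⟨Finset.mem_image_of_mem _ (Finset.mem_univ j), hne⟩) a
        ((Φ.mem_P_iff c hc a).2 (hQP _ hΛge a ha)) ?_ κ (fun r hr => (hκ r).1 hr)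
      intro v hv hpos
      obtain ⟨u, hu, w, hw, hS, -, rfl⟩ := Φ.mem_V.1 hv
      rw [inner_Th_rvec Φ c hc _ hS a]
      apply hfac (rvec (u, w))
      · exact Finset.mem_image.2 ⟨(u, w), Finset.mem_product.2 ⟨hu, hw⟩, rfl⟩
      · have e : ⟪ν j, Φ.D (rvec (u, w))⟫_ℝ = ∑ k, ω j k * rvec (u, w) k := by
          simp only [hν, inner_vec]
          rw [Φ.LD _ hS]
        rw [← e]; exact hpos)
  refine ⟨Q Λ₂, hQc Λ₂ hΛ₂ge, hQP Λ₂ hΛ₂ge, T', hT', fun X' hX' hXX x t₁ hx hx0 => ?_⟩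
  obtain ⟨h1, h2⟩ := hst X' hX' (fun κ hκ a ha => hXX κ hκ a (fun j => by simpa using ha j))
    x 0 t₁ hx (by
      intro j
      rw [hx0, sub_zero]
      exact ha₀Q j)
  refine ⟨fun t ht j => by simpa using h1 t ht j, fun t ht htT j => ?_⟩
  have := h2 t ht (by linarith) j
  simpa using this

end Full

/-- Permanence of all weakly reversible systems, uniformly over measurable rates. -/
theorem varPermanent_full (hwr : G.WeaklyReversible) (c : Fin d → ℝ) (hc : ∀ i, 0 < c i) {ε : ℝ}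
    (hε : 0 < ε) : G.VarPermanent ε c := by
  obtain ⟨Φ⟩ := exists_coord G
  exact Full.varPermanent_of_absorbs Φ c hε (Full.absorbs Φ hwr c hc hε)

/-- Permanence of all weakly reversible systems with constant rates. -/
theorem permanent_full (hwr : G.WeaklyReversible) (c : Fin d → ℝ) (hc : ∀ i, 0 < c i)
    (k : (Fin d → ℕ) × (Fin d → ℕ) → ℝ) (hk : ∀ r ∈ G.rxn, 0 < k r) : G.Permanent k c :=
  Full.permanent_of_varPermanent c (fun _ hε => varPermanent_full hwr c hc hε) k hk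

end Vale.Agent.P072
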