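import Vale.Agent.P072.Entropy

open Real Set Filter Topology
open scoped InnerProductSpace RealInnerProductSpace

namespace Vale.Agent.P072

namespace Sys

set_option linter.unusedSectionVars false

variable {E : Type*} [NormedAddCommGroup E] [InnerProductSpace ℝ E] {ι : Type*} [Fintype ι]
variable (S : Sys E ι)

/-- The exposed face of the closed polyhedron in direction `n`. -/
def F (n : E) : Set E := {b | b ∈ S.Pc ∧ ∀ a ∈ S.Pc, ⟪n, a⟫_ℝ ≤ ⟪n, b⟫_ℝ}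

lemma exists_P_gt {n b : E} (hb : b ∈ S.Pc) (hbF : b ∉ S.F n) :
    ∃ p ∈ S.P, ⟪n, b⟫_ℝ < ⟪n, p⟫_ℝ := by
  have : ∃ a ∈ S.Pc, ⟪n, b⟫_ℝ < ⟪n, a⟫_ℝ := by
    by_contra h
    push Not at h
    exact hbF ⟨hb, h⟩
  obtain ⟨a, ha, hab⟩ := this
  have hlim : Tendsto (fun s : ℝ => ⟪n, (1 - s) • a + s • (0:E)⟫_ℝ) (𝓝[>] 0) (𝓝 (⟪n, a⟫_ℝ)) := by
    have hc : Continuous fun s : ℝ => ⟪n, (1 - s) • a + s • (0:E)⟫_ℝ := by fun_prop
    have := hc.tendsto 0
    simp only [sub_zero, one_smul, smul_zero, add_zero] at this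
    simpa using this.mono_left nhdsWithin_le_nhds
  have hev := (hlim.eventually (lt_mem_nhds hab)).and
      (Ioo_mem_nhdsGT (zero_lt_one : (0:ℝ) < 1))
  obtain ⟨s, hs1, hs2⟩ := hev.exists
  exact ⟨_, S.comb_mem_P ha S.zero_mem_P hs2.1 hs2.2.le, hs1⟩

lemma not_mem_P_of_mem_F {n b : E} (hn : n ≠ 0) (hb : b ∈ S.F n) : b ∉ S.P := by
  intro hbP
  have hcont : ContinuousAt (fun s : ℝ => b + s • n) 0 := by fun_prop
  have hnb : ∀ᶠ s : ℝ in 𝓝[>] 0, b + s • n ∈ S.P := by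
    apply (hcont.mono_left nhdsWithin_le_nhds).eventually_mem
    simpa using S.isOpen_P.mem_nhds hbP
  obtain ⟨s, hs1, hs2⟩ := (hnb.and self_mem_nhdsWithin).exists
  have h1 := hb.2 _ (S.P_subset_Pc hs1)
  rw [inner_add_right, inner_smul_right, real_inner_self_eq_norm_sq] at h1
  have h2 : 0 < ‖n‖ := norm_pos_iff.2 hn
  have h3 : (0:ℝ) < s := hs2
  have : 0 < s * ‖n‖ ^ 2 := by positivity
  linarith

lemma inner_lt_of_mem_P {n a b : E} (hn : n ≠ 0) (ha : a ∈ S.P) (hb : b ∈ S.F n) :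
    ⟪n, a⟫_ℝ < ⟪n, b⟫_ℝ := by
  have h1 : a ∉ S.F n := fun h => S.not_mem_P_of_mem_F hn h ha
  obtain ⟨p, hp, hlt⟩ := S.exists_P_gt (S.P_subset_Pc ha) h1
  exact lt_of_lt_of_le hlt (hb.2 p (S.P_subset_Pc hp))

lemma exists_active {b : E} (hb : b ∈ S.Pc) (hbP : b ∉ S.P) : ∃ k, S.ell k b = 0 := by
  by_contra hne
  push Not at hne
  exact hbP fun k => lt_of_le_of_ne (hb k) (Ne.symm (hne k))

/-- A point of the polyhedron close to the value of the unique maximiser is close to it. -/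
lemma near_vertex [FiniteDimensional ℝ E] {n b₀ : E} (hF : S.F n = {b₀}) {U : Set E}
    (hU : U ∈ 𝓝 b₀) : ∃ β < ⟪n, b₀⟫_ℝ, ∀ a ∈ S.Pc, β ≤ ⟪n, a⟫_ℝ → a ∈ U := by
  obtain ⟨ρ, hρ, hball⟩ := Metric.mem_nhds_iff.1 hU
  have hb₀ : b₀ ∈ S.F n := by rw [hF]; rfl
  set A : Set E := Metric.sphere b₀ (ρ / 2) ∩ S.Pc with hA
  have hAc : IsCompact A := (isCompact_sphere b₀ (ρ / 2)).inter_right S.isClosed_Pc
  -- reduction
  suffices h : ∃ β < ⟪n, b₀⟫_ℝ, ∀ a ∈ A, ⟪n, a⟫_ℝ < β by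
    obtain ⟨β, hβ, hβA⟩ := h
    refine ⟨β, hβ, fun a ha hna => ?_⟩
    by_contra haU
    have hdist : ρ ≤ ‖a - b₀‖ := by
      by_contra hlt
      push Not at hlt
      exact haU (hball (by rw [Metric.mem_ball, dist_eq_norm]; exact hlt))
    have hpos : 0 < ‖a - b₀‖ := lt_of_lt_of_le hρ hdist
    set s : ℝ := (ρ / 2) / ‖a - b₀‖ with hs
    have hs0 : 0 < s := by positivity
    have hs1 : s ≤ 1 := by rw [hs, div_le_one hpos]; linarith
    have hx : (1 - s) • b₀ + s • a ∈ A := by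
      constructor
      · rw [mem_sphere_iff_norm]
        have : (1 - s) • b₀ + s • a - b₀ = s • (a - b₀) := by
          rw [smul_sub, sub_smul, one_smul]; abel
        rw [this, norm_smul, Real.norm_of_nonneg hs0.le, hs]
        field_simp
      · exact S.convex_Pc hb₀.1 ha (sub_nonneg.2 hs1) hs0.le (by ring)
    have h1 := hβA _ hx
    rw [inner_add_right, inner_smul_right, inner_smul_right] at h1
    have h2 := hb₀.2 a ha
    nlinarith
  rcases A.eq_empty_or_nonempty with hE | hne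
  · exact ⟨⟪n, b₀⟫_ℝ - 1, by linarith, by simp [hE]⟩
  · obtain ⟨m, hm, hmax⟩ := hAc.exists_isMaxOn hne
      (f := fun a => ⟪n, a⟫_ℝ) (by fun_prop)
    have hlt : ⟪n, m⟫_ℝ < ⟪n, b₀⟫_ℝ := by
      apply lt_of_le_of_ne (hb₀.2 m hm.2)
      intro heq
      have : m ∈ S.F n := ⟨hm.2, fun a ha => heq ▸ hb₀.2 a ha⟩
      rw [hF] at this
      have hmb : m = b₀ := this
      have := hm.1
      rw [hmb, mem_sphere_iff_norm, sub_self, norm_zero] at this
      linarith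
    refine ⟨(⟪n, m⟫_ℝ + ⟪n, b₀⟫_ℝ) / 2, by linarith, fun a ha => ?_⟩
    have := hmax ha
    simp only [mem_ofPred_eq] at this
    linarith

/-- As `r` in the open polyhedron tends to a boundary point `b₀`, the pairing of `Th r` with a
direction `w` not decreasing any active constraint, and increasing one, tends to minus infinity. -/
lemma tendsto_inner_Th' {b₀ w : E} (hb₀ : b₀ ∈ S.Pc)
    (hw : ∀ k, S.ell k b₀ = 0 → 0 ≤ ⟪S.g k, w⟫_ℝ)
    (hk : ∃ k, S.ell k b₀ = 0 ∧ 0 < ⟪S.g k, w⟫_ℝ) :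
    Tendsto (fun r => ⟪S.Th r, w⟫_ℝ) (𝓝[S.P] b₀) atBot := by
  classical
  obtain ⟨k₀, hk₀, hk₀'⟩ := hk
  have hell : ∀ k, Tendsto (fun r => S.ell k r) (𝓝[S.P] b₀) (𝓝 (S.ell k b₀)) := fun k =>
    ((S.continuous_ell k).tendsto b₀).mono_left nhdsWithin_le_nhds
  have hPev : ∀ᶠ r in 𝓝[S.P] b₀, r ∈ S.P := self_mem_nhdsWithin
  have hbd : ∀ k, ∃ C : ℝ, ∀ᶠ r in 𝓝[S.P] b₀,
      Real.log (S.ell k r) * ⟪S.g k, w⟫_ℝ ≤ C := by
    intro k
    rcases (hb₀ k).eq_or_lt with h | h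
    · refine ⟨0, ?_⟩
      have h1 : ∀ᶠ r in 𝓝[S.P] b₀, S.ell k r < 1 := by
        have hx : S.ell k b₀ < 1 := by rw [← h]; exact one_pos
        exact (hell k).eventually_lt_const hx
      filter_upwards [h1, hPev] with r hr hrP
      have h2 : Real.log (S.ell k r) ≤ 0 := Real.log_nonpos (hrP k).le hr.le
      exact mul_nonpos_of_nonpos_of_nonneg h2 (hw k h.symm)
    · refine ⟨Real.log (S.ell k b₀) * ⟪S.g k, w⟫_ℝ + 1, ?_⟩
      have h1 : Tendsto (fun r => Real.log (S.ell k r) * ⟪S.g k, w⟫_ℝ) (𝓝[S.P] b₀)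
          (𝓝 (Real.log (S.ell k b₀) * ⟪S.g k, w⟫_ℝ)) :=
        ((hell k).log h.ne').mul_const _
      filter_upwards [h1.eventually (gt_mem_nhds (lt_add_one _))] with r hr
      exact hr.le
  choose C hC using hbd
  have hmain : Tendsto (fun r => Real.log (S.ell k₀ r) * ⟪S.g k₀, w⟫_ℝ)
      (𝓝[S.P] b₀) atBot := by
    apply Tendsto.atBot_mul_const hk₀'
    apply Real.tendsto_log_nhdsGT_zero.comp
    rw [tendsto_nhdsWithin_iff]
    refine ⟨by simpa [hk₀] using hell k₀, ?_⟩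
    filter_upwards [hPev] with r hr using hr k₀
  have hsum : Tendsto (fun r => Real.log (S.ell k₀ r) * ⟪S.g k₀, w⟫_ℝ +
      ∑ k ∈ Finset.univ.erase k₀, C k) (𝓝[S.P] b₀) atBot :=
    tendsto_atBot_add_const_right _ _ hmain
  apply tendsto_atBot_mono' _ _ hsum
  filter_upwards [eventually_all.2 hC] with r hr
  rw [S.inner_Th, ← Finset.add_sum_erase _ _ (Finset.mem_univ k₀)]
  gcongr with k hk
  exact hr k

lemma tendsto_inner_Th {b₀ b : E} (hb₀ : b₀ ∈ S.Pc) (hb : b ∈ S.Pc)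
    (hk : ∃ k, S.ell k b₀ = 0 ∧ 0 < S.ell k b) :
    Tendsto (fun r => ⟪S.Th r, b - b₀⟫_ℝ) (𝓝[S.P] b₀) atBot := by
  apply S.tendsto_inner_Th' hb₀
  · intro k h0
    rw [← S.ell_sub, h0, sub_zero]; exact hb k
  · obtain ⟨k, h0, h1⟩ := hk
    exact ⟨k, h0, by rw [← S.ell_sub, h0, sub_zero]; exact h1⟩

lemma vertex_active {n b₀ w : E} (hF : S.F n = {b₀}) (hw : w ≠ 0) :
    ∃ k, S.ell k b₀ = 0 ∧ ⟪S.g k, w⟫_ℝ ≠ 0 := by
  by_contra hcon
  push Not at hcon
  have hb₀ : b₀ ∈ S.F n := by rw [hF]; rfl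
  have hev : ∀ᶠ s : ℝ in 𝓝[>] 0, b₀ + s • w ∈ S.Pc ∧ b₀ - s • w ∈ S.Pc := by
    have h1 : ∀ k, ∀ᶠ s : ℝ in 𝓝[>] 0, 0 ≤ S.ell k (b₀ + s • w) ∧ 0 ≤ S.ell k (b₀ - s • w) := by
      intro k
      rcases (hb₀.1 k).eq_or_lt with h | h
      · have hz := hcon k h.symm
        refine Eventually.of_forall fun s => ?_
        have e1 : S.ell k (b₀ + s • w) = S.ell k b₀ := by
          simp [ell, inner_add_right, inner_smul_right, hz]
        have e2 : S.ell k (b₀ - s • w) = S.ell k b₀ := by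
          simp [ell, inner_sub_right, inner_smul_right, hz]
        rw [e1, e2]; exact ⟨hb₀.1 k, hb₀.1 k⟩
      · have c1 : Tendsto (fun s : ℝ => S.ell k (b₀ + s • w)) (𝓝[>] 0) (𝓝 (S.ell k b₀)) := by
          have : Continuous fun s : ℝ => S.ell k (b₀ + s • w) :=
            (S.continuous_ell k).comp (by fun_prop)
          have := this.tendsto 0
          simp only [zero_smul, add_zero] at this
          exact this.mono_left nhdsWithin_le_nhds
        have c2 : Tendsto (fun s : ℝ => S.ell k (b₀ - s • w)) (𝓝[>] 0) (𝓝 (S.ell k b₀)) := by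
          have : Continuous fun s : ℝ => S.ell k (b₀ - s • w) :=
            (S.continuous_ell k).comp (by fun_prop)
          have := this.tendsto 0
          simp only [zero_smul, sub_zero] at this
          exact this.mono_left nhdsWithin_le_nhds
        filter_upwards [c1.eventually (lt_mem_nhds h), c2.eventually (lt_mem_nhds h)]
          with s h1 h2 using ⟨h1.le, h2.le⟩
    filter_upwards [eventually_all.2 h1] with s hs
    exact ⟨fun k => (hs k).1, fun k => (hs k).2⟩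
  obtain ⟨s, ⟨hs1, hs2⟩, hs3⟩ := (hev.and self_mem_nhdsWithin).exists
  have hs : (0:ℝ) < s := hs3
  have h1 := hb₀.2 _ hs1
  have h2 := hb₀.2 _ hs2
  rw [inner_add_right, inner_smul_right] at h1
  rw [inner_sub_right, inner_smul_right] at h2
  have h3 : s * ⟪n, w⟫_ℝ = 0 := by linarith
  have h4 : b₀ + s • w ∈ S.F n := by
    refine ⟨hs1, fun a ha => ?_⟩
    rw [inner_add_right, inner_smul_right, h3, add_zero]
    exact hb₀.2 a ha
  rw [hF] at h4
  have h5 : b₀ + s • w = b₀ := h4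
  have h6 : s • w = 0 := by simpa using h5
  rcases smul_eq_zero.1 h6 with h | h
  · exact hs.ne' h
  · exact hw h

/-- Near a vertex exposed by `n`, `Th` does not point in directions exposing something else. -/
lemma ray_avoids_vertex [FiniteDimensional ℝ E] {n n' b₀ : E} (hn : n ≠ 0)
    (hF : S.F n = {b₀}) (hF' : S.F n' ≠ {b₀}) :
    ∃ U ∈ 𝓝 b₀, ∀ r ∈ U, r ∈ S.P → ∀ μ : ℝ, 0 ≤ μ → S.Th r ≠ μ • n' := by
  have hb₀ : b₀ ∈ S.F n := by rw [hF]; rfl
  by_cases hmem : b₀ ∈ S.F n'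
  · -- there is another maximiser
    have : ∃ b ∈ S.F n', b ≠ b₀ := by
      by_contra h
      push Not at h
      apply hF'
      ext x
      exact ⟨fun hx => h x hx, fun hx => by rw [show x = b₀ from hx]; exact hmem⟩
    obtain ⟨b, hb, hne⟩ := this
    obtain ⟨k, hk0, hkw⟩ := S.vertex_active hF (sub_ne_zero.2 hne)
    have hkpos : 0 < S.ell k b := by
      apply lt_of_le_of_ne (hb.1 k)
      intro h
      apply hkw
      rw [← S.ell_sub, ← h, hk0, sub_zero]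
    have hT := S.tendsto_inner_Th hb₀.1 hb.1 ⟨k, hk0, hkpos⟩
    have hev := hT.eventually (eventually_lt_atBot (0:ℝ))
    rw [eventually_nhdsWithin_iff] at hev
    refine ⟨_, hev, fun r hr hrP μ hμ heq => ?_⟩
    have h1 := hr hrP
    rw [heq, real_inner_smul_left, inner_sub_right] at h1
    have h2 : ⟪n', b⟫_ℝ = ⟪n', b₀⟫_ℝ := le_antisymm (hmem.2 b hb.1) (hb.2 b₀ hb₀.1)
    rw [h2, sub_self, mul_zero] at h1
    exact lt_irrefl _ h1
  · have : ∃ b ∈ S.Pc, ⟪n', b₀⟫_ℝ < ⟪n', b⟫_ℝ := by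
      by_contra h
      push Not at h
      exact hmem ⟨hb₀.1, h⟩
    obtain ⟨b, hb, hlt⟩ := this
    obtain ⟨C₀, hC₀⟩ := S.coercive 0
    set ω : ℝ := ⟪n', b⟫_ℝ - ⟪n', b₀⟫_ℝ with hω
    have hωpos : 0 < ω := sub_pos.2 hlt
    set M : ℝ := (S.H b + C₀) / (ω / 2) with hM
    obtain ⟨k, hk0⟩ := S.exists_active hb₀.1 (S.not_mem_P_of_mem_F hn hb₀)
    have hT := S.tendsto_inner_Th hb₀.1 (S.P_subset_Pc S.zero_mem_P)
      ⟨k, hk0, S.zero_mem_P k⟩
    have hev := hT.eventually (eventually_lt_atBot (-(M * |⟪n', b₀⟫_ℝ|)))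
    rw [eventually_nhdsWithin_iff] at hev
    have hev2 : ∀ᶠ r in 𝓝 b₀, ω / 2 < ⟪n', b⟫_ℝ - ⟪n', r⟫_ℝ := by
      have hc : Continuous fun r : E => ⟪n', b⟫_ℝ - ⟪n', r⟫_ℝ := by fun_prop
      have := hc.tendsto b₀
      apply this.eventually (lt_mem_nhds _)
      rw [← hω]; linarith
    refine ⟨_, hev.and hev2, fun r hr hrP μ hμ heq => ?_⟩
    have h1 := hr.1 hrP
    have h2 := hr.2
    rw [heq, real_inner_smul_left, inner_sub_right, inner_zero_right, zero_sub] at h1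
    have h3 := S.H_ge hb hrP
    rw [heq, real_inner_smul_left, inner_sub_right] at h3
    have h4 := hC₀ r (S.P_subset_Pc hrP)
    have h5 : μ * (ω / 2) ≤ S.H b + C₀ := by
      have : μ * (ω / 2) ≤ μ * (⟪n', b⟫_ℝ - ⟪n', r⟫_ℝ) := mul_le_mul_of_nonneg_left h2.le hμ
      linarith
    have h6 : μ ≤ M := by rw [hM, le_div_iff₀ (by positivity)]; exact h5
    have h7 : μ * |⟪n', b₀⟫_ℝ| ≤ M * |⟪n', b₀⟫_ℝ| :=
      mul_le_mul_of_nonneg_right h6 (abs_nonneg _)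
    have h8 : μ * ⟪n', b₀⟫_ℝ ≤ μ * |⟪n', b₀⟫_ℝ| :=
      mul_le_mul_of_nonneg_left (le_abs_self _) hμ
    linarith

/-- Displacement inside a strip is controlled by every coordinate involved. -/
lemma strip_displacement {a v : E} {t C : ℝ} (ha : a ∈ S.P) (hr : a - t • v ∈ S.P) (ht : 0 ≤ t)
    (h0 : ⟪S.Th (a - t • v), v⟫_ℝ = 0) (hC : ⟪S.Th a, v⟫_ℝ ≤ C) {k : ι}
    (hk : ⟪S.g k, v⟫_ℝ ≠ 0) :
    t * |⟪S.g k, v⟫_ℝ| ≤ Real.exp (C / |⟪S.g k, v⟫_ℝ|) * S.ell k a ∧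
    t * |⟪S.g k, v⟫_ℝ| ≤ Real.exp (C / |⟪S.g k, v⟫_ℝ|) * S.ell k (a - t • v) := by
  set r := a - t • v with hrdef
  have hdiff : ∀ j, S.ell j a - S.ell j r = t * ⟪S.g j, v⟫_ℝ := by
    intro j
    rw [S.ell_sub, hrdef]
    simp [inner_smul_right]
  have hterm : ∀ j, 0 ≤ (Real.log (S.ell j a) - Real.log (S.ell j r)) * ⟪S.g j, v⟫_ℝ := by
    intro j
    rcases le_total 0 (⟪S.g j, v⟫_ℝ) with h | h
    · have h1 : S.ell j r ≤ S.ell j a := by
        have := hdiff j; nlinarith [mul_nonneg ht h]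
      exact mul_nonneg (sub_nonneg.2 (Real.log_le_log (hr j) h1)) h
    · have h1 : S.ell j a ≤ S.ell j r := by
        have := hdiff j; nlinarith [mul_nonpos_of_nonneg_of_nonpos ht h]
      exact mul_nonneg_of_nonpos_of_nonpos (sub_nonpos.2 (Real.log_le_log (ha j) h1)) h
  have hsum : ∑ j, (Real.log (S.ell j a) - Real.log (S.ell j r)) * ⟪S.g j, v⟫_ℝ ≤ C := by
    have e : ∑ j, (Real.log (S.ell j a) - Real.log (S.ell j r)) * ⟪S.g j, v⟫_ℝ =
        ⟪S.Th a, v⟫_ℝ - ⟪S.Th r, v⟫_ℝ := by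
      rw [S.inner_Th, S.inner_Th, ← Finset.sum_sub_distrib]
      refine Finset.sum_congr rfl fun j _ => by ring
    rw [e, h0]; linarith
  have hsingle : (Real.log (S.ell k a) - Real.log (S.ell k r)) * ⟪S.g k, v⟫_ℝ ≤ C :=
    (Finset.single_le_sum (f := fun j =>
      (Real.log (S.ell j a) - Real.log (S.ell j r)) * ⟪S.g j, v⟫_ℝ)
      (fun j _ => hterm j) (Finset.mem_univ k)).trans hsum
  have hgpos : 0 < |⟪S.g k, v⟫_ℝ| := abs_pos.2 hk
  have habs : |Real.log (S.ell k a) - Real.log (S.ell k r)| ≤ C / |⟪S.g k, v⟫_ℝ| := by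
    rw [le_div_iff₀ hgpos, ← abs_mul, abs_of_nonneg (hterm k)]
    exact hsingle
  have hlog := abs_le.1 habs
  have hak := ha k
  have hrk := hr k
  have h1 : S.ell k a ≤ Real.exp (C / |⟪S.g k, v⟫_ℝ|) * S.ell k r := by
    rw [← Real.log_le_log_iff hak (by positivity), Real.log_mul (Real.exp_pos _).ne' hrk.ne',
      Real.log_exp]
    linarith
  have h2 : S.ell k r ≤ Real.exp (C / |⟪S.g k, v⟫_ℝ|) * S.ell k a := by
    rw [← Real.log_le_log_iff hrk (by positivity), Real.log_mul (Real.exp_pos _).ne' hak.ne',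
      Real.log_exp]
    linarith
  have h3 : t * |⟪S.g k, v⟫_ℝ| = |S.ell k a - S.ell k r| := by
    rw [hdiff k, abs_mul, abs_of_nonneg ht]
  have hCnn : 0 ≤ C / |⟪S.g k, v⟫_ℝ| := (abs_nonneg _).trans habs
  have hexp1 : 1 ≤ Real.exp (C / |⟪S.g k, v⟫_ℝ|) := Real.one_le_exp hCnn
  rw [h3]
  constructor
  · rw [abs_le]; constructor
    · nlinarith
    · nlinarith
  · rw [abs_le]; constructor
    · nlinarith
    · nlinarith

end Sys

end Vale.Agent.P072
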