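import Vale.Agent.P072.Core

open Set Filter Topology Real

namespace Vale.Agent.P072

set_option linter.unusedSectionVars false

/-- Bundled properties of a family of facets of order `q`. -/
structure FP (d q : ℕ) (V₀ : Finset (Fin d → ℝ)) (s lo T : ℝ)
    (F : Finset ((ℕ → ℝ) × (ℝ → ℝ))) : Prop where
  zero : ∀ p ∈ F, p.1 0 = s
  anti : ∀ p ∈ F, ∀ i k, i ≤ k → p.1 k ≤ p.1 i
  const : ((fun _ => s, fun _ => (0:ℝ)) : (ℕ → ℝ) × (ℝ → ℝ)) ∈ F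
  tame : ∀ p ∈ F, Tame (s - 4 * lo) p.2
  core : ∀ᶠ Λ in atTop, ∀ x : Fin d → ℝ, (∀ k, exp (-T * Λ) ≤ x k) →
      (∀ ι : Fin q ↪ Fin d, ∀ p ∈ F, ∑ i : Fin q, p.1 i * x (ι i) - p.2 Λ ≤ s * exp (s * Λ)) →
      ∀ ι : Fin q ↪ Fin d, ∀ p ∈ F, ∑ i : Fin q, p.1 i * x (ι i) - p.2 Λ = s * exp (s * Λ) →
      ∀ w ∈ V₀, 0 < ∑ i : Fin q, p.1 i * w (ι i) →
        lo * Λ ≤ ∑ i : Fin q, w (ι i) * log (x (ι i))

theorem exists_FP (d : ℕ) {q : ℕ} (hq : 1 ≤ q) (V₀ : Finset (Fin d → ℝ)) {s : ℝ}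
    (hs : s = 1 ∨ s = -1) : ∃ lo : ℝ, 0 < lo ∧ ∀ T : ℝ, ∃ F, FP d q V₀ s lo T F := by
  obtain ⟨𝒯, h𝒯⟩ := exists_base_tower d q V₀
  obtain ⟨lo, hlo, h⟩ := exists_topFam 𝒯 hq hs
  refine ⟨lo, hlo, fun T => ?_⟩
  obtain ⟨F, h1, h2, h3, h4, h5⟩ := h T
  exact ⟨F, h1, h2, h3, h4, core V₀ 𝒯 h𝒯 h2 h5⟩

/-- Height of a facet. -/
noncomputable def hgt (s κ : ℝ) (D : ℝ → ℝ) (Λ : ℝ) : ℝ := s * exp (s * (κ * Λ)) + D (κ * Λ)

section

variable {s lo κ : ℝ} (hs : s = 1 ∨ s = -1) (hlo : 0 < lo) (hκ : 0 < κ) {D : ℝ → ℝ}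
  (hD : Tame (s - 4 * lo) D)

include hs hlo hκ hD

lemma hgt_deriv : ∃ g' : ℝ → ℝ, Continuous g' ∧ (∀ Λ, HasDerivAt (hgt s κ D) (g' Λ) Λ) ∧
    ∀ᶠ Λ in atTop, 0 ≤ g' Λ := by
  obtain ⟨D', hD'c, hD'd, R, hR, hRb⟩ := hD.der
  have hss : s * s = 1 := by rcases hs with h | h <;> rw [h] <;> norm_num
  refine ⟨fun Λ => κ * (exp (s * (κ * Λ)) + D' (κ * Λ)), by fun_prop, fun Λ => ?_, ?_⟩
  · have h1 : HasDerivAt (fun Λ : ℝ => κ * Λ) κ Λ := by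
      simpa using (hasDerivAt_id Λ).const_mul κ
    have h2 : HasDerivAt (fun Λ : ℝ => s * (κ * Λ)) (s * κ) Λ := h1.const_mul s
    have h3 := (h2.exp.const_mul s).add ((hD'd (κ * Λ)).comp Λ h1)
    refine h3.congr_deriv ?_
    have : s * (exp (s * (κ * Λ)) * (s * κ)) = (s * s) * (exp (s * (κ * Λ)) * κ) := by ring
    rw [this, hss]; ring
  · have h1 : ∀ᶠ Λ in atTop, R * exp ((s - 4 * lo) * (κ * Λ)) ≤ 1 * exp (s * (κ * Λ)) := by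
      have h2 : Tendsto (fun Λ : ℝ => κ * Λ) atTop atTop := tendsto_id.const_mul_atTop hκ
      exact h2.eventually (eventually_exp_le (by linarith) one_pos)
    filter_upwards [h1, eventually_ge_atTop 0] with Λ h3 hΛ
    apply mul_nonneg hκ.le
    have h4 := hRb (κ * Λ) (mul_nonneg hκ.le hΛ)
    have h5 := (abs_le.1 h4).1
    linarith

lemma hgt_mono : ∀ᶠ Λ₀ in atTop, ∀ Λ Λ', Λ₀ ≤ Λ → Λ ≤ Λ' → hgt s κ D Λ ≤ hgt s κ D Λ' := by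
  obtain ⟨g', hc, hd, hev⟩ := hgt_deriv hs hlo hκ hD
  obtain ⟨Λ₁, hΛ₁⟩ := eventually_atTop.1 hev
  filter_upwards [eventually_ge_atTop Λ₁] with Λ₀ hΛ₀ Λ Λ' h1 h2
  have hm : MonotoneOn (hgt s κ D) (Ici Λ₀) := by
    apply monotoneOn_of_deriv_nonneg (convex_Ici _)
    · exact fun x _ => (hd x).continuousAt.continuousWithinAt
    · exact fun x _ => (hd x).differentiableAt.differentiableWithinAt
    · intro x hx
      rw [(hd x).deriv]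
      rw [interior_Ici] at hx
      exact hΛ₁ x (hΛ₀.trans hx.le)
  exact hm h1 (h1.trans h2) h2

lemma hgt_lip (Λ₀ Λ₁ : ℝ) : ∃ L : ℝ, 0 ≤ L ∧ ∀ Λ Λ', Λ₀ ≤ Λ → Λ ≤ Λ' → Λ' ≤ Λ₁ →
    hgt s κ D Λ' ≤ hgt s κ D Λ + L * (Λ' - Λ) := by
  obtain ⟨g', hc, hd, -⟩ := hgt_deriv hs hlo hκ hD
  obtain ⟨L, hL⟩ := isCompact_Icc.exists_bound_of_continuousOn (s := Icc Λ₀ Λ₁) hc.continuousOn
  refine ⟨max L 0, le_max_right _ _, fun Λ Λ' h1 h2 h3 => ?_⟩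
  have h4 := (convex_Icc Λ₀ Λ₁).image_sub_le_mul_sub_of_deriv_le (f := hgt s κ D) (C := max L 0)
    (fun x _ => (hd x).continuousAt.continuousWithinAt)
    (fun x _ => (hd x).differentiableAt.differentiableWithinAt) (fun x hx => by
      rw [(hd x).deriv]
      exact (le_abs_self _).trans ((hL x (interior_subset hx)).trans (le_max_left _ _)))
    Λ ⟨h1, h2.trans h3⟩ Λ' ⟨h1.trans h2, h3⟩ h2
  linarith

lemma hgt_lower : ∀ᶠ Λ in atTop, s * exp (s * (κ * Λ)) - 1 / 2 * exp (s * (κ * Λ)) ≤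
    hgt s κ D Λ := by
  obtain ⟨R, hR, hb⟩ := hD.bd
  have h1 : ∀ᶠ Λ in atTop, R * exp ((s - 4 * lo) * (κ * Λ)) ≤ 1 / 2 * exp (s * (κ * Λ)) := by
    have h2 : Tendsto (fun Λ : ℝ => κ * Λ) atTop atTop := tendsto_id.const_mul_atTop hκ
    exact h2.eventually (eventually_exp_le (by linarith) (by norm_num))
  filter_upwards [h1, eventually_ge_atTop 0] with Λ h3 hΛ
  have h4 := hb (κ * Λ) (mul_nonneg hκ.le hΛ)
  unfold hgt
  linarith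

lemma hgt_exh {y : ℝ} (hy : s = -1 → y < 0) : ∀ᶠ Λ in atTop, y < hgt s κ D Λ := by
  have h0 := hgt_lower hs hlo hκ hD
  have hκt : Tendsto (fun Λ : ℝ => κ * Λ) atTop atTop := tendsto_id.const_mul_atTop hκ
  rcases hs with h | h
  · subst h
    have h1 : Tendsto (fun Λ : ℝ => exp (1 * (κ * Λ))) atTop atTop := by
      simp only [one_mul]; exact Real.tendsto_exp_atTop.comp hκt
    filter_upwards [h0, h1.eventually_gt_atTop (2 * y), h1.eventually_gt_atTop 0] with Λ h2 h3 h4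
    linarith
  · subst h
    have h1 : Tendsto (fun Λ : ℝ => exp (-1 * (κ * Λ))) atTop (𝓝 0) := by
      have : (fun Λ : ℝ => exp (-1 * (κ * Λ))) = fun Λ => exp (-(κ * Λ)) := by
        ext Λ; congr 1; ring
      rw [this]
      exact Real.tendsto_exp_neg_atTop_nhds_zero.comp hκt
    have hy0 := hy rfl
    filter_upwards [h0, h1.eventually_lt_const (show (0:ℝ) < -y / 2 by linarith)] with Λ h2 h3
    linarith

end

end Vale.Agent.P072
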