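import Vale.Agent.P072.Support

open Real Set Filter Topology
open scoped InnerProductSpace RealInnerProductSpace

namespace Vale.Agent.P072

namespace Sys

set_option linter.unusedSectionVars false

variable {E : Type*} [NormedAddCommGroup E] [InnerProductSpace ℝ E] {ι : Type*} [Fintype ι]
variable (S : Sys E ι)

open Classical in
/-- Entropy level attached to a face and a parameter `u`. -/
noncomputable def lev (A : Set E) (u : ℝ) : ℝ :=
  if h : A.Nonempty then S.H h.some - 1 / u else u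

lemma lev_lt {A : Set E} (hA : A.Subsingleton) {u : ℝ} (hu : 0 < u) :
    ∀ b ∈ A, S.lev A u < S.H b := by
  intro b hb
  have hne : A.Nonempty := ⟨b, hb⟩
  unfold lev
  rw [dif_pos hne, hA hne.some_mem hb]
  have : 0 < 1 / u := by positivity
  linarith

lemma lev_eventually {A : Set E} {x : ℝ} (hx : ∀ b ∈ A, x < S.H b) :
    ∀ᶠ u : ℝ in atTop, x < S.lev A u := by
  by_cases h : A.Nonempty
  · have h1 := hx _ h.some_mem
    have hlim : Tendsto (fun u : ℝ => S.H h.some - 1 / u) atTop (𝓝 (S.H h.some)) := by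
      have : Tendsto (fun u : ℝ => 1 / u) atTop (𝓝 0) := by
        simpa using tendsto_inv_atTop_zero
      simpa using tendsto_const_nhds.sub this
    filter_upwards [hlim.eventually_const_lt h1] with u hu
    unfold lev
    rw [dif_pos h]; exact hu
  · filter_upwards [eventually_gt_atTop x] with u hu
    unfold lev
    rw [dif_neg h]; exact hu

lemma lev_mono {A : Set E} {u u' : ℝ} (hu : 0 < u) (huu : u ≤ u') : S.lev A u ≤ S.lev A u' := by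
  by_cases h : A.Nonempty
  · unfold lev
    rw [dif_pos h, dif_pos h]
    have := one_div_le_one_div_of_le hu huu
    linarith
  · unfold lev
    rw [dif_neg h, dif_neg h]; exact huu

lemma lev_lip {A : Set E} {u u' : ℝ} (hu : 1 ≤ u) (huu : u ≤ u') :
    S.lev A u' - S.lev A u ≤ u' - u := by
  by_cases h : A.Nonempty
  · unfold lev
    rw [dif_pos h, dif_pos h]
    have hu' : 1 ≤ u' := hu.trans huu
    have e : 1 / u - 1 / u' = (u' - u) / (u * u') := by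
      field_simp
    have h1 : (u' - u) / (u * u') ≤ u' - u := by
      apply div_le_self (by linarith)
      nlinarith
    linarith
  · unfold lev
    rw [dif_neg h, dif_neg h]

/-- Support height of an entropy sublevel set. -/
noncomputable def ht (n : E) (s : ℝ) : ℝ := sSup ((fun a => ⟪n, a⟫_ℝ) '' {a | a ∈ S.Pc ∧ S.H a ≤ s})

variable [FiniteDimensional ℝ E]

lemma ht_bdd (n : E) (s : ℝ) : BddAbove ((fun a => ⟪n, a⟫_ℝ) '' {a | a ∈ S.Pc ∧ S.H a ≤ s}) :=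
  ((S.isCompact_sublevel s).image (by fun_prop)).bddAbove

lemma le_ht {n : E} {s : ℝ} {a : E} (ha : a ∈ S.Pc) (has : S.H a ≤ s) : ⟪n, a⟫_ℝ ≤ S.ht n s :=
  le_csSup (S.ht_bdd n s) ⟨a, ⟨ha, has⟩, rfl⟩

lemma exists_ht {n : E} {s : ℝ} (hne : ∃ p ∈ S.Pc, S.H p ≤ s) :
    ∃ r ∈ S.Pc, S.H r ≤ s ∧ ⟪n, r⟫_ℝ = S.ht n s := by
  obtain ⟨p, hp, hps⟩ := hne
  have hc : IsCompact ((fun a => ⟪n, a⟫_ℝ) '' {a | a ∈ S.Pc ∧ S.H a ≤ s}) :=
    (S.isCompact_sublevel s).image (by fun_prop)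
  have hne' : ((fun a => ⟪n, a⟫_ℝ) '' {a | a ∈ S.Pc ∧ S.H a ≤ s}).Nonempty :=
    ⟨_, p, ⟨hp, hps⟩, rfl⟩
  obtain ⟨r, ⟨hr, hrs⟩, hre⟩ := hc.sSup_mem hne'
  exact ⟨r, hr, hrs, hre⟩

lemma exists_support_ht {n : E} {s : ℝ} (hn : n ≠ 0)
    (hne : ∃ p ∈ S.P, S.H p < s) (hs : ∀ b ∈ S.F n, s < S.H b) :
    ∃ r ∈ S.P, S.H r = s ∧ (∃ lam : ℝ, 0 < lam ∧ S.Th r = lam • n) ∧ ⟪n, r⟫_ℝ = S.ht n s := by
  obtain ⟨r, hr, hrs, hlam, hmax⟩ := S.exists_support hn hne hs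
  refine ⟨r, hr, hrs, hlam, le_antisymm (S.le_ht (S.P_subset_Pc hr) hrs.le) ?_⟩
  have hne' : ((fun a => ⟪n, a⟫_ℝ) '' {a | a ∈ S.Pc ∧ S.H a ≤ s}).Nonempty :=
    ⟨_, r, ⟨S.P_subset_Pc hr, hrs.le⟩, rfl⟩
  apply csSup_le hne'
  rintro _ ⟨a, ⟨ha, has⟩, rfl⟩
  exact hmax a ha has

lemma ht_mono {n : E} {s s' : ℝ} (hne : ∃ p ∈ S.Pc, S.H p ≤ s) (hss : s ≤ s') :
    S.ht n s ≤ S.ht n s' := by
  obtain ⟨r, hr, hrs, hre⟩ := S.exists_ht (n := n) hne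
  rw [← hre]
  exact S.le_ht hr (hrs.trans hss)

lemma ht_lip {n p₀ : E} {s₀ s s' s₁ : ℝ} (hp₀ : p₀ ∈ S.Pc) (h0 : S.H p₀ < s₀) (h1 : s₀ ≤ s)
    (h2 : s ≤ s') (h3 : s' ≤ s₁) :
    S.ht n s' - S.ht n s ≤ (s' - s) * ((S.ht n s₁ - ⟪n, p₀⟫_ℝ) / (s₀ - S.H p₀)) := by
  obtain ⟨r, hr, hrs, hre⟩ := S.exists_ht (n := n) (s := s') ⟨p₀, hp₀, by linarith⟩
  have hpos : 0 < s' - S.H p₀ := by linarith
  set t := (s' - s) / (s' - S.H p₀) with ht'
  have ht0 : 0 ≤ t := div_nonneg (by linarith) hpos.le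
  have ht1 : t ≤ 1 := by rw [ht', div_le_one hpos]; linarith
  have hx : (1 - t) • r + t • p₀ ∈ S.Pc := S.convex_Pc hr hp₀ (sub_nonneg.2 ht1) ht0 (by ring)
  have hxH : S.H ((1 - t) • r + t • p₀) ≤ s := by
    have h := S.H_comb_le hr hp₀ ht0 ht1
    have e : (1 - t) * s' + t * S.H p₀ = s := by
      rw [ht']; field_simp; ring
    have : (1 - t) * S.H r ≤ (1 - t) * s' := mul_le_mul_of_nonneg_left hrs (sub_nonneg.2 ht1)
    linarith
  have h4 := S.le_ht (n := n) hx hxH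
  rw [inner_add_right, inner_smul_right, inner_smul_right, hre] at h4
  have h5 : S.ht n s' - S.ht n s ≤ t * (S.ht n s' - ⟪n, p₀⟫_ℝ) := by linarith
  have h6 : S.ht n s' ≤ S.ht n s₁ := S.ht_mono ⟨p₀, hp₀, by linarith⟩ h3
  have h7 : ⟪n, p₀⟫_ℝ ≤ S.ht n s₁ := S.le_ht hp₀ (by linarith)
  have h8 : t * (S.ht n s' - ⟪n, p₀⟫_ℝ) ≤ t * (S.ht n s₁ - ⟪n, p₀⟫_ℝ) :=
    mul_le_mul_of_nonneg_left (by linarith) ht0
  refine (h5.trans h8).trans ?_
  have h9 : t ≤ (s' - s) / (s₀ - S.H p₀) := by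
    rw [ht']
    apply div_le_div_of_nonneg_left (by linarith) (by linarith) (by linarith)
  calc t * (S.ht n s₁ - ⟪n, p₀⟫_ℝ) ≤ (s' - s) / (s₀ - S.H p₀) * (S.ht n s₁ - ⟪n, p₀⟫_ℝ) :=
        mul_le_mul_of_nonneg_right h9 (by linarith)
    _ = _ := by ring

end Sys

end Vale.Agent.P072
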