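import Vale.Agent.P072.Full

/-!
# P072: constant rates, uniformly over compact ranges of rate constants
-/

open Set MeasureTheory Filter Topology

namespace Vale.Agent.P072

variable {d : ℕ} {G : Network d}

namespace Full

/-- Solutions with constant rates, uniform absorbing set and entrance time. -/
theorem uniform_const (c : Fin d → ℝ) {ε : ℝ} (hvar : G.VarPermanent ε c) :
    ∃ K : Set (Fin d → ℝ), IsCompact K ∧ K ⊆ G.posClass c ∧
      ∀ x₀ ∈ G.posClass c, ∃ T : ℝ, ∀ k : (Fin d → ℕ) × (Fin d → ℕ) → ℝ,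
        (∀ r ∈ G.rxn, ε ≤ k r ∧ k r ≤ 1 / ε) →
        ∃ x : ℝ → Fin d → ℝ, x 0 = x₀ ∧ G.IsSol k x (Ici 0) ∧ (∀ t ≥ 0, x t ∈ G.posClass c) ∧
          (∀ t ≥ 0, T ≤ t → x t ∈ K) ∧
          ∀ τ > 0, ∀ z : ℝ → Fin d → ℝ, z 0 = x₀ → G.IsSol k z (Ico 0 τ) →
            ∀ t ∈ Ico 0 τ, z t = x t := by
  classical
  obtain ⟨K, hKc, hKP, hK⟩ := hvar
  refine ⟨K, hKc, hKP, fun x₀ hx₀ => ?_⟩
  obtain ⟨T, hT⟩ := hK x₀ hx₀
  refine ⟨T, fun k hkε => ?_⟩
  obtain ⟨x, hx0, hx, hxP, hxK, huniq⟩ := hT (fun _ => k) (fun r _ => measurable_const)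
    (fun t _ => hkε)
  have hfc : Continuous fun y : Fin d → ℝ => G.field k y := by
    unfold Network.field
    refine continuous_finsetSum _ fun r _ => ?_
    exact (continuous_const.mul (continuous_monomial r.1)).smul continuous_const
  refine ⟨x, hx0, ?_, hxP, hxK, fun τ hτ z hz0 hz => huniq τ hτ z hz0 ?_⟩
  · intro t ht
    set g : ℝ → Fin d → ℝ := fun s => G.field k (x (max 0 s)) with hg
    have hgc : Continuous g := by
      apply hfc.comp
      exact hx.1.comp_continuous (by fun_prop) (fun s => mem_Ici.2 (le_max_left 0 s))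
    have h1 : HasDerivAt (fun u => x 0 + ∫ s in (0:ℝ)..u, g s) (g t) t :=
      (intervalIntegral.integral_hasDerivAt_right (hgc.intervalIntegrable _ _)
        (hgc.stronglyMeasurableAtFilter _ _) hgc.continuousAt).const_add _
    have h2 : ∀ u ∈ Ici (0:ℝ), x u = x 0 + ∫ s in (0:ℝ)..u, g s := by
      intro u hu
      rw [(hx.2 u hu).2]
      congr 1
      apply intervalIntegral.integral_congr
      intro s hs
      rw [uIcc_of_le hu] at hs
      simp only [hg, max_eq_right hs.1]
    have h3 : g t = G.field k (x t) := by simp only [hg, max_eq_right (mem_Ici.1 ht)]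
    rw [← h3]
    exact h1.hasDerivWithinAt.congr h2 (h2 t ht)
  · have hzc : ContinuousOn z (Ico 0 τ) := fun t ht => (hz t ht).continuousWithinAt
    refine ⟨hzc, fun t ht => ?_⟩
    have hsub : Icc 0 t ⊆ Ico 0 τ := fun s hs => ⟨hs.1, hs.2.trans_lt ht.2⟩
    have hint : IntervalIntegrable (fun s => G.field k (z s)) volume 0 t := by
      apply ContinuousOn.intervalIntegrable
      rw [uIcc_of_le ht.1]
      exact hfc.comp_continuousOn (hzc.mono hsub)
    refine ⟨hint, ?_⟩
    have h1 := intervalIntegral.integral_eq_sub_of_hasDeriv_right_of_le ht.1 (hzc.mono hsub)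
      (f' := fun s => G.field k (z s)) (fun s hs => by
        have h2 := hz s ⟨hs.1.le, hs.2.trans ht.2⟩
        apply h2.mono_of_mem_nhdsWithin
        have : Ioo s τ ∈ 𝓝[>] s := Ioo_mem_nhdsGT (hs.2.trans ht.2)
        exact mem_of_superset this fun q hq => ⟨hs.1.le.trans hq.1.le, hq.2⟩) hint
    rw [h1]; abel

end Full

end Vale.Agent.P072
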