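import Vale.Agent.P072.Combine

open Set Filter Topology Real

namespace Vale.Agent.P072

lemma dt_succ_update {q : ℕ} (j : ℕ) (u a : ℕ → ℝ) (b : ℝ) (_ : j < q) :
    dt (j + 1) u (Function.update a j b) = dt j u a + u j * b := by
  have h : dt j u (Function.update a j b) = dt j u a := dt_congr fun i hi =>
    Function.update_of_ne (by omega) _ _
  rw [← h]
  unfold dt
  rw [Finset.sum_range_succ, Function.update_self]

lemma dt_comb (j : ℕ) (u u' a : ℕ → ℝ) (x y : ℝ) :
    dt j (x • u - y • u') a = x * dt j u a - y * dt j u' a := by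
  unfold dt
  rw [Finset.mul_sum, Finset.mul_sum, ← Finset.sum_sub_distrib]
  refine Finset.sum_congr rfl fun i _ => ?_
  simp only [Pi.sub_apply, Pi.smul_apply, smul_eq_mul]
  ring

/-- The main recursion. -/
theorem select {q : ℕ} (𝒯 : Tower q) : ∀ r : ℕ, ∃ M : ℝ, 2 ≤ M ∧ ∀ j, j + r = q → 1 ≤ j →
    ∀ (a : ℕ → ℝ) (lo hi T : ℝ), 0 < lo → M * lo ≤ hi → Good 𝒯 j a hi →
      ∃ F, Fam j a lo F ∧ Sel q j a lo (𝒯.V q) T F := by
  classical
  obtain ⟨c, A, hc0, hc1, hA1, hcA⟩ := 𝒯.exists_consts
  have hA0 : 0 < A := by linarith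
  intro r
  induction r with
  | zero =>
    refine ⟨q * A + 2, by have := mul_nonneg (Nat.cast_nonneg (α := ℝ) q) hA0.le; linarith,
      fun j hj _ a lo hi T hlo hM hG => ?_⟩
    have : j = q := by omega
    subst this
    exact select_base 𝒯 (fun j hj u hu i => (hcA j hj u hu i).2) hlo hM hG
  | succ r ih =>
    obtain ⟨M, hM2, hM⟩ := ih
    have hM0 : 0 < M := by linarith
    refine ⟨8 * M ^ 2 * A ^ 2 / c ^ 2, ?_, fun j hj hj1 a lo hi T hlo hMlo hG => ?_⟩
    · rw [le_div_iff₀ (by positivity)]
      have h1 : c ^ 2 ≤ 1 := by nlinarith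
      have h2 : 1 ≤ A ^ 2 := by nlinarith
      have h3 : 4 ≤ M ^ 2 := by nlinarith
      have h4 : 4 * 1 ≤ M ^ 2 * A ^ 2 := mul_le_mul h3 h2 (by norm_num) (by positivity)
      nlinarith
    have hjq : j < q := by omega
    rw [div_mul_eq_mul_div, div_le_iff₀ (by positivity)] at hMlo
    set W : ℝ := 4 * M * lo / c with hW
    have hWc : c * W = 4 * M * lo := by rw [hW]; field_simp
    have hW0 : 0 < W := by positivity
    have hW8 : 8 * lo ≤ W := by
      rw [hW, le_div_iff₀ hc0]
      have : lo * c ≤ lo * 1 := mul_le_mul_of_nonneg_left hc1 hlo.le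
      nlinarith
    -- `hi` controls everything
    have hhi0 : 0 < hi := by
      by_contra h
      have : 0 < 8 * M ^ 2 * A ^ 2 * lo := by positivity
      have h2 : hi * c ^ 2 ≤ 0 := mul_nonpos_of_nonpos_of_nonneg (not_lt.1 h) (by positivity)
      linarith
    have hhi : 2 * M * W * A ^ 2 ≤ c * hi := by
      have h1 : c * (2 * M * W * A ^ 2) ≤ c * (c * hi) := by
        calc c * (2 * M * W * A ^ 2) = 2 * M * A ^ 2 * (c * W) := by ring
          _ = 8 * M ^ 2 * A ^ 2 * lo := by rw [hWc]; ring
          _ ≤ hi * c ^ 2 := hMlo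
          _ = c * (c * hi) := by ring
      exact le_of_mul_le_mul_left h1 hc0
    -- the critical values
    set Cr : Finset ℝ := ((𝒯.V (j + 1)).filter (fun u => u j ≠ 0)).image
      (fun u => -dt j u a / u j) with hCr
    have hmemCr : ∀ x, x ∈ Cr ↔ ∃ u ∈ 𝒯.V (j + 1), u j ≠ 0 ∧ -dt j u a / u j = x := by
      intro x
      simp only [hCr, Finset.mem_image, Finset.mem_filter]
      constructor
      · rintro ⟨u, ⟨h1, h2⟩, h3⟩; exact ⟨u, h1, h2, h3⟩
      · rintro ⟨u, h1, h2, h3⟩; exact ⟨u, ⟨h1, h2⟩, h3⟩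
    have htop : a (j - 1) ∈ Cr := by
      rw [hmemCr]
      obtain ⟨j', rfl⟩ : ∃ j', j = j' + 1 := ⟨j - 1, by omega⟩
      refine ⟨tieVec j', 𝒯.tie j' (by omega), ?_, ?_⟩
      · simp [tieVec]
      · have h1 : tieVec j' (j' + 1) = 1 := by simp [tieVec]
        have h2 : dt (j' + 1) (tieVec j') a = - a j' := by
          unfold dt
          rw [Finset.sum_eq_single j']
          · simp [tieVec]
          · intro i hi hne
            have := Finset.mem_range.1 hi
            have e : tieVec j' i = 0 := by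
              unfold tieVec
              rw [if_neg (by omega), if_neg hne]
            rw [e, zero_mul]
          · intro h; exact absurd (Finset.mem_range.2 (Nat.lt_succ_self _)) h
        rw [h1, h2]; simp
    -- separation
    have hsepg : ∀ x ∈ Cr, ∀ y ∈ Cr, x ≠ y → hi / A ^ 2 ≤ |x - y| := by
      intro x hx y hy hxy
      obtain ⟨u, hu, hu0, rfl⟩ := (hmemCr x).1 hx
      obtain ⟨u', hu', hu0', rfl⟩ := (hmemCr y).1 hy
      have hv := 𝒯.elim j hjq u hu u' hu'
      have e : -dt j u a / u j - -dt j u' a / u' j =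
          -(dt j (u' j • u - u j • u') a) / (u j * u' j) := by
        rw [dt_comb]; field_simp; ring
      have hne : dt j (u' j • u - u j • u') a ≠ 0 := by
        intro h0
        apply hxy
        have : -dt j u a / u j - -dt j u' a / u' j = 0 := by rw [e, h0]; simp
        linarith
      have h1 := hG _ hv hne
      rw [e, abs_div, abs_neg, abs_mul]
      have h2 : |u j| * |u' j| ≤ A ^ 2 := by
        rw [sq]
        exact mul_le_mul ((hcA _ (by omega) u hu j).2) ((hcA _ (by omega) u' hu' j).2)
          (abs_nonneg _) hA0.le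
      have h3 : 0 < |u j| * |u' j| := mul_pos (abs_pos.2 hu0) (abs_pos.2 hu0')
      exact div_le_div₀ (abs_nonneg _) h1 h3 h2
    have hsep : ∀ x ∈ Cr, ∀ y ∈ Cr, x ≠ y → 2 * W ≤ |x - y| := by
      intro x hx y hy hxy
      refine le_trans ?_ (hsepg x hx y hy hxy)
      rw [le_div_iff₀ (by positivity)]
      have h1 : c * hi ≤ 1 * hi := mul_le_mul_of_nonneg_right hc1 hhi0.le
      have h2 : 0 ≤ W * A ^ 2 := by positivity
      nlinarith
    obtain ⟨b, s, hb0, hs0, hbs, hsb, hdec, hcase⟩ :=
      exists_chain Cr htop hlo (by linarith) hsep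
    obtain ⟨L, hL1, hLT⟩ := chain_tendsto hlo hdec T
    -- goodness of the children
    have hdtb : ∀ u ∈ 𝒯.V (j + 1), ∀ x, dt (j + 1) u (Function.update a j x) =
        dt j u a + u j * x := fun u _ x => dt_succ_update j u a x hjq
    have hgood0 : ∀ u ∈ 𝒯.V (j + 1), u j = 0 → ∀ x,
        dt (j + 1) u (Function.update a j x) ≠ 0 → hi ≤
          |dt (j + 1) u (Function.update a j x)| := by
      intro u hu h0 x hne
      rw [hdtb u hu x, h0, zero_mul, add_zero] at hne ⊢
      exact hG u (𝒯.sub j hjq u hu h0) hne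
    have hval : ∀ u ∈ 𝒯.V (j + 1), u j ≠ 0 → ∀ x,
        |dt (j + 1) u (Function.update a j x)| = |u j| * |x - -dt j u a / u j| := by
      intro u hu h0 x
      rw [hdtb u hu x, ← abs_mul]
      congr 1
      field_simp
      ring
    have hcritGood : ∀ x ∈ Cr, Good 𝒯 (j + 1) (Function.update a j x) (c * (hi / A ^ 2)) := by
      intro x hx u hu hne
      have hA2 : 1 ≤ A ^ 2 := by nlinarith
      by_cases h0 : u j = 0
      · refine le_trans ?_ (hgood0 u hu h0 x hne)
        have h1 : hi / A ^ 2 ≤ hi := div_le_self hhi0.le hA2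
        have h2 : 0 ≤ hi / A ^ 2 := by positivity
        nlinarith
      · rw [hval u hu h0 x]
        have hxne : x ≠ -dt j u a / u j := by
          intro h
          apply hne
          rw [← abs_eq_zero, hval u hu h0 x, ← h, sub_self, abs_zero, mul_zero]
        have h1 := hsepg x hx _ ((hmemCr _).2 ⟨u, hu, h0, rfl⟩) hxne
        have h2 := (hcA _ (by omega) u hu j).1 h0
        exact mul_le_mul h2 h1 (by positivity) (abs_nonneg _)
    have hnoncritGood : ∀ x, (∀ y ∈ Cr, W / 2 ≤ |x - y|) →
        Good 𝒯 (j + 1) (Function.update a j x) (c * (W / 2)) := by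
      intro x hx u hu hne
      by_cases h0 : u j = 0
      · refine le_trans ?_ (hgood0 u hu h0 x hne)
        have h1 : c * (W / 2) ≤ W := by nlinarith
        have h2 : W ≤ hi := by
          have hA2 : 1 ≤ A ^ 2 := by nlinarith
          have h3 : W * 1 ≤ (2 * M * W) * A ^ 2 := mul_le_mul (by nlinarith) hA2 (by norm_num)
            (by positivity)
          have h4 : c * hi ≤ 1 * hi := mul_le_mul_of_nonneg_right hc1 hhi0.le
          linarith
        linarith
      · rw [hval u hu h0 x]
        have h1 := hx _ ((hmemCr _).2 ⟨u, hu, h0, rfl⟩)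
        have h2 := (hcA _ (by omega) u hu j).1 h0
        exact mul_le_mul h2 h1 (by positivity) (abs_nonneg _)
    have hj1r : (j + 1) + r = q := by omega
    have hcritCond : M * (2 * W) ≤ c * (hi / A ^ 2) := by
      have h1 : c * (hi / A ^ 2) = c * hi / A ^ 2 := by ring
      rw [h1, le_div_iff₀ (by positivity)]
      linarith
    have hnoncritCond : M * (2 * lo) ≤ c * (W / 2) := by
      have : c * (W / 2) = 2 * M * lo := by
        have : c * (W / 2) = (c * W) / 2 := by ring
        rw [this, hWc]; ring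
      rw [this]; linarith
    -- children
    have hchild : ∀ i, ∃ l : ℝ, ∃ G : Finset ((ℕ → ℝ) × (ℝ → ℝ)), lo ≤ l ∧ b i - s i ≤ l / 2 ∧
        (∀ k, i = k + 1 → s k - b i ≤ l / 2) ∧ Fam (j + 1) (Function.update a j (b i)) l G ∧
        Sel q (j + 1) (Function.update a j (b i)) l (𝒯.V q) T G := by
      intro i
      rcases Nat.eq_zero_or_pos i with h0 | h0
      · subst h0
        obtain ⟨G, hG1, hG2⟩ := hM (j + 1) hj1r (by omega) (Function.update a j (b 0)) (2 * W) _ T
          (by positivity) hcritCond (hcritGood _ (by rw [hb0]; exact htop))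
        refine ⟨2 * W, G, by linarith, by rw [hb0, hs0]; linarith, fun k hk => by omega, hG1, hG2⟩
      · obtain ⟨k, rfl⟩ : ∃ k, i = k + 1 := ⟨i - 1, by omega⟩
        rcases hcase k with ⟨h1, h2, h3⟩ | ⟨h1, h2, h3⟩
        · obtain ⟨G, hG1, hG2⟩ := hM (j + 1) hj1r (by omega) (Function.update a j (b (k + 1)))
            (2 * W) _ T (by positivity) hcritCond (hcritGood _ h1)
          refine ⟨2 * W, G, by linarith, by linarith, fun k' hk' => ?_, hG1, hG2⟩
          have : k' = k := by omega
          rw [this]; linarith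
        · obtain ⟨G, hG1, hG2⟩ := hM (j + 1) hj1r (by omega) (Function.update a j (b (k + 1)))
            (2 * lo) _ T (by positivity) hnoncritCond (hnoncritGood _ h1)
          refine ⟨2 * lo, G, by linarith, by linarith, fun k' hk' => ?_, hG1, hG2⟩
          have : k' = k := by omega
          rw [this]; linarith
    choose l G hl hlow hup hFam hSel using hchild
    exact combine hj1 hjq hlo (𝒯.V q) hb0 hbs hsb (by rw [hs0]; linarith) hl hlow
      (fun i => hup (i + 1) i rfl) hFam hSel hL1 hLT

end Vale.Agent.P072
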