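import Mathlib

open Set Filter Topology Real

namespace Vale.Agent.P072

/-- Finite sums of `-c * exp (t Λ)` with `c ≥ 0`, `t ≤ τ` have these properties. -/
structure Tame (τ : ℝ) (D : ℝ → ℝ) : Prop where
  nonpos : ∀ Λ, D Λ ≤ 0
  bd : ∃ R, 0 ≤ R ∧ ∀ Λ, 0 ≤ Λ → -D Λ ≤ R * exp (τ * Λ)
  der : ∃ D' : ℝ → ℝ, Continuous D' ∧ (∀ Λ, HasDerivAt D (D' Λ) Λ) ∧
    ∃ R, 0 ≤ R ∧ ∀ Λ, 0 ≤ Λ → |D' Λ| ≤ R * exp (τ * Λ)

lemma Tame.zero (τ : ℝ) : Tame τ (fun _ => 0) := by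
  refine ⟨fun _ => le_rfl, ⟨0, le_rfl, fun Λ _ => by simp⟩, fun _ => 0, continuous_const,
    fun Λ => hasDerivAt_const _ _, 0, le_rfl, fun Λ _ => by simp⟩

lemma Tame.add {τ : ℝ} {D₁ D₂ : ℝ → ℝ} (h₁ : Tame τ D₁) (h₂ : Tame τ D₂) :
    Tame τ (fun Λ => D₁ Λ + D₂ Λ) := by
  obtain ⟨R₁, hR₁, hb₁⟩ := h₁.bd
  obtain ⟨R₂, hR₂, hb₂⟩ := h₂.bd
  obtain ⟨D₁', hc₁, hd₁, Q₁, hQ₁, he₁⟩ := h₁.der
  obtain ⟨D₂', hc₂, hd₂, Q₂, hQ₂, he₂⟩ := h₂.der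
  refine ⟨fun Λ => add_nonpos (h₁.nonpos Λ) (h₂.nonpos Λ), ⟨R₁ + R₂, by positivity,
    fun Λ hΛ => ?_⟩, fun Λ => D₁' Λ + D₂' Λ, hc₁.add hc₂, fun Λ => (hd₁ Λ).add (hd₂ Λ),
    Q₁ + Q₂, by positivity, fun Λ hΛ => ?_⟩
  · have := hb₁ Λ hΛ
    have := hb₂ Λ hΛ
    rw [add_mul]; linarith
  · rw [add_mul]
    exact (abs_add_le _ _).trans (add_le_add (he₁ Λ hΛ) (he₂ Λ hΛ))

lemma Tame.mono {τ τ' : ℝ} (h : τ ≤ τ') {D : ℝ → ℝ} (hD : Tame τ D) : Tame τ' D := by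
  obtain ⟨R, hR, hb⟩ := hD.bd
  obtain ⟨D', hc, hd, Q, hQ, he⟩ := hD.der
  have key : ∀ Λ, 0 ≤ Λ → exp (τ * Λ) ≤ exp (τ' * Λ) := fun Λ hΛ =>
    exp_le_exp.2 (mul_le_mul_of_nonneg_right h hΛ)
  exact ⟨hD.nonpos, ⟨R, hR, fun Λ hΛ => (hb Λ hΛ).trans
    (mul_le_mul_of_nonneg_left (key Λ hΛ) hR)⟩, D', hc, hd, Q, hQ, fun Λ hΛ => (he Λ hΛ).trans
    (mul_le_mul_of_nonneg_left (key Λ hΛ) hQ)⟩

lemma Tame.exp {t : ℝ} {c : ℝ} (hc : 0 ≤ c) : Tame t (fun Λ => -(c * Real.exp (t * Λ))) := by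
  refine ⟨fun Λ => neg_nonpos.2 (by positivity), ⟨c, hc, fun Λ _ => by simp⟩,
    fun Λ => -(c * (Real.exp (t * Λ) * t)), by fun_prop, fun Λ => ?_, c * |t|, by positivity,
    fun Λ _ => ?_⟩
  · have h1 : HasDerivAt (fun Λ : ℝ => t * Λ) t Λ := by
      simpa using (hasDerivAt_id Λ).const_mul t
    exact (h1.exp.const_mul c).neg
  · rw [abs_neg, abs_mul, abs_mul, abs_of_nonneg hc, abs_of_pos (Real.exp_pos _)]
    linarith [mul_comm (Real.exp (t * Λ)) |t|]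

lemma Tame.sum {τ : ℝ} (n : ℕ) (D : ℕ → ℝ → ℝ) (h : ∀ i < n, Tame τ (D i)) :
    Tame τ (fun Λ => ∑ i ∈ Finset.range n, D i Λ) := by
  induction n with
  | zero => simpa using Tame.zero τ
  | succ n ih =>
    have h1 := (ih fun i hi => h i (by omega)).add (h n (by omega))
    simpa [Finset.sum_range_succ] using h1

/-- Exponentials with smaller exponents are eventually negligible. -/
lemma eventually_exp_le {τ σ K κ : ℝ} (h : τ < σ) (hκ : 0 < κ) :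
    ∀ᶠ Λ in atTop, K * Real.exp (τ * Λ) ≤ κ * Real.exp (σ * Λ) := by
  have h1 : Tendsto (fun Λ : ℝ => Real.exp ((σ - τ) * Λ)) atTop atTop :=
    Real.tendsto_exp_atTop.comp (tendsto_id.const_mul_atTop (sub_pos.2 h))
  filter_upwards [h1.eventually_ge_atTop (K / κ)] with Λ hΛ
  rw [div_le_iff₀ hκ] at hΛ
  have h2 : Real.exp (σ * Λ) = Real.exp ((σ - τ) * Λ) * Real.exp (τ * Λ) := by
    rw [← Real.exp_add]; ring_nf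
  rw [h2, ← mul_assoc]
  apply mul_le_mul_of_nonneg_right _ (Real.exp_pos _).le
  linarith

/-- A uniform constant for a finite family. -/
lemma exists_uniform_bd {α : Type*} (F : Finset (α × (ℝ → ℝ))) {τ : ℝ}
    (h : ∀ p ∈ F, Tame τ p.2) :
    ∃ R, 0 ≤ R ∧ ∀ p ∈ F, ∀ Λ, 0 ≤ Λ → -p.2 Λ ≤ R * Real.exp (τ * Λ) := by
  classical
  choose! R hR hb using fun p (hp : p ∈ F) => (h p hp).bd
  refine ⟨∑ p ∈ F, R p, Finset.sum_nonneg fun p hp => hR p hp, fun p hp Λ hΛ => ?_⟩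
  refine (hb p hp Λ hΛ).trans (mul_le_mul_of_nonneg_right ?_ (Real.exp_pos _).le)
  exact Finset.single_le_sum (f := R) (fun p hp => hR p hp) hp

end Vale.Agent.P072
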