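import Mathlib

open Set Filter Topology Real

namespace Vale.Agent.P072

/-- Dot product of the first `n` coordinates. -/
noncomputable def dt (n : ℕ) (u a : ℕ → ℝ) : ℝ := ∑ i ∈ Finset.range n, u i * a i

/-- The vector `e_{j+1} - e_j`. -/
noncomputable def tieVec (j : ℕ) : ℕ → ℝ := fun i => if i = j + 1 then 1 else if i = j then -1 else 0

/-- A family of finite vector sets closed under elimination of the last coordinate. -/
structure Tower (q : ℕ) where
  V : ℕ → Finset (ℕ → ℝ)
  supp : ∀ j ≤ q, ∀ u ∈ V j, ∀ i, j ≤ i → u i = 0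
  sub : ∀ j < q, ∀ u ∈ V (j + 1), u j = 0 → u ∈ V j
  elim : ∀ j < q, ∀ u ∈ V (j + 1), ∀ u' ∈ V (j + 1), (u' j • u - u j • u') ∈ V j
  tie : ∀ j, j + 1 < q → tieVec j ∈ V (j + 2)

open Classical in
/-- Elimination of coordinate `j`. -/
noncomputable def elimStep (j : ℕ) (A : Finset (ℕ → ℝ)) : Finset (ℕ → ℝ) :=
  A.filter (fun u => u j = 0) ∪ Finset.image₂ (fun u u' => u' j • u - u j • u') A A

lemma mem_elimStep {j : ℕ} {A : Finset (ℕ → ℝ)} {v : ℕ → ℝ} :
    v ∈ elimStep j A ↔ (v ∈ A ∧ v j = 0) ∨ ∃ u ∈ A, ∃ u' ∈ A, u' j • u - u j • u' = v := by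
  classical
  simp only [elimStep, Finset.mem_union, Finset.mem_filter, Finset.mem_image₂]

/-- The tower generated by a base. -/
noncomputable def towerAux (q : ℕ) (base : Finset (ℕ → ℝ)) : ℕ → Finset (ℕ → ℝ)
  | 0 => base
  | n + 1 => elimStep (q - 1 - n) (towerAux q base n)

lemma exists_tower (q : ℕ) (base : Finset (ℕ → ℝ)) (hsupp : ∀ u ∈ base, ∀ i, q ≤ i → u i = 0)
    (htie : ∀ j, j + 1 < q → tieVec j ∈ base) : ∃ 𝒯 : Tower q, 𝒯.V q = base := by
  have hstep : ∀ j < q, towerAux q base (q - j) = elimStep j (towerAux q base (q - (j + 1))) := by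
    intro j hj
    have h1 : q - j = (q - (j + 1)) + 1 := by omega
    have h2 : q - 1 - (q - (j + 1)) = j := by omega
    rw [h1, towerAux, h2]
  have hsupp' : ∀ n ≤ q, ∀ u ∈ towerAux q base n, ∀ i, q - n ≤ i → u i = 0 := by
    intro n
    induction n with
    | zero => intro _ u hu i hi; exact hsupp u hu i (by omega)
    | succ n ih =>
      intro hn v hv i hi
      rw [towerAux, mem_elimStep] at hv
      rcases hv with ⟨h1, h2⟩ | ⟨u, hu, u', hu', rfl⟩
      · by_cases h : i = q - 1 - n
        · rw [h]; exact h2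
        · exact ih (by omega) v h1 i (by omega)
      · by_cases h : i = q - 1 - n
        · rw [h]
          simp only [Pi.sub_apply, Pi.smul_apply, smul_eq_mul]
          ring
        · have h3 := ih (by omega) u hu i (by omega)
          have h4 := ih (by omega) u' hu' i (by omega)
          simp only [Pi.sub_apply, Pi.smul_apply, smul_eq_mul, h3, h4]
          ring
  refine ⟨⟨fun j => towerAux q base (q - j), ?_, ?_, ?_, ?_⟩, ?_⟩
  · intro j hj u hu i hi
    exact hsupp' (q - j) (by omega) u hu i (by omega)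
  · intro j hj u hu h0
    rw [hstep j hj, mem_elimStep]
    exact Or.inl ⟨hu, h0⟩
  · intro j hj u hu u' hu'
    rw [hstep j hj, mem_elimStep]
    exact Or.inr ⟨u, hu, u', hu', rfl⟩
  · intro j hj
    -- descend from the base
    have : ∀ n, j + 2 + n ≤ q → tieVec j ∈ towerAux q base (q - (j + 2 + n)) →
        tieVec j ∈ towerAux q base (q - (j + 2)) := by
      intro n
      induction n with
      | zero => intro _ h; exact h
      | succ n ih =>
        intro hn h
        apply ih (by omega)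
        rw [hstep (j + 2 + n) (by omega), mem_elimStep]
        refine Or.inl ⟨h, ?_⟩
        unfold tieVec
        rw [if_neg (by omega), if_neg (by omega)]
    apply this (q - (j + 2)) (by omega)
    have e : q - (j + 2 + (q - (j + 2))) = 0 := by omega
    rw [e]
    exact htie j hj
  · simp [towerAux]

lemma Tower.exists_consts {q : ℕ} (𝒯 : Tower q) :
    ∃ c A : ℝ, 0 < c ∧ c ≤ 1 ∧ 1 ≤ A ∧ ∀ j ≤ q, ∀ u ∈ 𝒯.V j, ∀ i,
      (u i ≠ 0 → c ≤ |u i|) ∧ |u i| ≤ A := by
  classical
  -- the finite set of absolute values of entries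
  let Z : Finset ℝ := (Finset.range (q + 1)).biUnion fun j => (𝒯.V j).biUnion fun u =>
    (Finset.range q).image fun i => |u i|
  have hmem : ∀ j ≤ q, ∀ u ∈ 𝒯.V j, ∀ i, i < q → |u i| ∈ Z := by
    intro j hj u hu i hi
    simp only [Z, Finset.mem_biUnion, Finset.mem_image, Finset.mem_range]
    exact ⟨j, by omega, u, hu, i, hi, rfl⟩
  have hc : ∃ c : ℝ, 0 < c ∧ ∀ z ∈ Z, 0 < z → c ≤ z := by
    have h1 : ∀ᶠ c in 𝓝[>] (0:ℝ), ∀ z ∈ Z, 0 < z → c ≤ z := by
      rw [Filter.eventually_all_finset]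
      intro z _
      by_cases hz : 0 < z
      · filter_upwards [Ioo_mem_nhdsGT hz] with c hc _ using hc.2.le
      · exact Eventually.of_forall fun c h => absurd h hz
    obtain ⟨c, h2, h3⟩ := (h1.and self_mem_nhdsWithin).exists
    exact ⟨c, h3, h2⟩
  obtain ⟨c, hc0, hc⟩ := hc
  obtain ⟨A, hA⟩ := Z.exists_le
  refine ⟨min c 1, max A 1, lt_min hc0 one_pos, min_le_right _ _, le_max_right _ _,
    fun j hj u hu i => ⟨fun hne => ?_, ?_⟩⟩
  · have hi : i < q := by
      by_contra h
      exact hne (𝒯.supp j hj u hu i (by omega))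
    exact (min_le_left _ _).trans (hc _ (hmem j hj u hu i hi) (abs_pos.2 hne))
  · by_cases hi : i < q
    · exact (hA _ (hmem j hj u hu i hi)).trans (le_max_left _ _)
    · rw [𝒯.supp j hj u hu i (by omega), abs_zero]
      exact zero_le_one.trans (le_max_right _ _)

end Vale.Agent.P072
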