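import Vale.Agent.P072.Chain
import Vale.Agent.P072.Tame
import Vale.Agent.P072.Tower

open Set Filter Topology Real

namespace Vale.Agent.P072

/-- Constant continuation of a sequence of length `j`. -/
noncomputable def cst (j : ℕ) (a : ℕ → ℝ) : ℕ → ℝ := fun i => if i < j then a i else a (j - 1)

/-- Basic properties of a family of continuations of the sequence `a` of length `j`. -/
structure Fam (j : ℕ) (a : ℕ → ℝ) (lo : ℝ) (F : Finset ((ℕ → ℝ) × (ℝ → ℝ))) : Prop where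
  pre : ∀ p ∈ F, ∀ i < j, p.1 i = a i
  anti : ∀ p ∈ F, ∀ i k, j - 1 ≤ i → i ≤ k → p.1 k ≤ p.1 i
  const : (cst j a, fun _ => (0:ℝ)) ∈ F
  tame : ∀ p ∈ F, Tame (a (j - 1) - 4 * lo) p.2

/-- The selection property. -/
def Sel (q j : ℕ) (a : ℕ → ℝ) (lo : ℝ) (Vq : Finset (ℕ → ℝ)) (T : ℝ)
    (F : Finset ((ℕ → ℝ) × (ℝ → ℝ))) : Prop :=
  ∀ᶠ Λ in atTop, ∀ z : ℕ → ℝ, (∀ i < q, exp (-T * Λ) ≤ z i) →
    (∀ i k, i ≤ k → k < q → z k ≤ z i) →
    (∀ i < j, |log (z i) - a i * Λ| ≤ lo * Λ) →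
    ∀ p ∈ F, (∀ p' ∈ F, dt q p'.1 z - p'.2 Λ ≤ dt q p.1 z - p.2 Λ) →
    ∀ u ∈ Vq, 0 < dt q u p.1 → lo * Λ ≤ ∑ i ∈ Finset.range q, u i * log (z i)

/-- Nonzero values of the vectors of level `j` are bounded below. -/
def Good {q : ℕ} (𝒯 : Tower q) (j : ℕ) (a : ℕ → ℝ) (hi : ℝ) : Prop :=
  ∀ u ∈ 𝒯.V j, dt j u a ≠ 0 → hi ≤ |dt j u a|

lemma dt_congr {n : ℕ} {u a a' : ℕ → ℝ} (h : ∀ i < n, a i = a' i) : dt n u a = dt n u a' := by
  unfold dt
  exact Finset.sum_congr rfl fun i hi => by rw [h i (Finset.mem_range.1 hi)]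

lemma cst_of_lt {j i : ℕ} (a : ℕ → ℝ) (h : i < j) : cst j a i = a i := if_pos h

lemma cst_of_ge {j i : ℕ} (a : ℕ → ℝ) (h : j ≤ i) : cst j a i = a (j - 1) := if_neg (by omega)

lemma fam_singleton {j : ℕ} (a : ℕ → ℝ) (lo : ℝ) :
    Fam j a lo {(cst j a, fun _ => (0:ℝ))} := by
  refine ⟨fun p hp i hi => ?_, fun p hp i k hji hik => ?_, Finset.mem_singleton_self _,
    fun p hp => ?_⟩
  · rw [Finset.mem_singleton.1 hp]; exact cst_of_lt a hi
  · rw [Finset.mem_singleton.1 hp]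
    have h1 : ∀ m, j - 1 ≤ m → cst j a m = a (j - 1) := by
      intro m hm
      by_cases h : m < j
      · rw [cst_of_lt a h]; congr 1; omega
      · exact cst_of_ge a (by omega)
    simp only
    rw [h1 i hji, h1 k (hji.trans hik)]
  · rw [Finset.mem_singleton.1 hp]; exact Tame.zero _

/-- Base case. -/
lemma select_base {q : ℕ} (𝒯 : Tower q) {A : ℝ}
    (hA : ∀ j ≤ q, ∀ u ∈ 𝒯.V j, ∀ i, |u i| ≤ A) {a : ℕ → ℝ} {lo hi T : ℝ} (hlo : 0 < lo)
    (hM : (q * A + 2) * lo ≤ hi) (hG : Good 𝒯 q a hi) :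
    ∃ F, Fam q a lo F ∧ Sel q q a lo (𝒯.V q) T F := by
  refine ⟨{(cst q a, fun _ => (0:ℝ))}, fam_singleton a lo, ?_⟩
  unfold Sel
  filter_upwards [eventually_ge_atTop 0] with Λ hΛ z _ _ hz p hp _ u hu hpos
  rw [Finset.mem_singleton.1 hp] at hpos
  simp only at hpos
  rw [dt_congr (fun i hi => cst_of_lt a hi)] at hpos
  have h1 := hG u hu hpos.ne'
  rw [abs_of_pos hpos] at h1
  have h2 : ∑ i ∈ Finset.range q, u i * log (z i) =
      dt q u a * Λ + ∑ i ∈ Finset.range q, u i * (log (z i) - a i * Λ) := by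
    unfold dt
    rw [Finset.sum_mul, ← Finset.sum_add_distrib]
    exact Finset.sum_congr rfl fun i _ => by ring
  have h3 : |∑ i ∈ Finset.range q, u i * (log (z i) - a i * Λ)| ≤ q * (A * (lo * Λ)) := by
    refine (Finset.abs_sum_le_sum_abs _ _).trans ?_
    have h4 : ∀ i ∈ Finset.range q, |u i * (log (z i) - a i * Λ)| ≤ A * (lo * Λ) := by
      intro i hi
      rw [abs_mul]
      exact mul_le_mul (hA q le_rfl u hu i) (hz i (Finset.mem_range.1 hi)) (abs_nonneg _)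
        ((abs_nonneg _).trans (hA q le_rfl u hu i))
    have h5 := Finset.sum_le_card_nsmul _ _ _ h4
    rwa [Finset.card_range, nsmul_eq_mul] at h5
  have h6 := (abs_le.1 h3).1
  rw [h2]
  have h7 : (q * A + 2) * lo * Λ ≤ dt q u a * Λ :=
    mul_le_mul_of_nonneg_right (hM.trans h1) hΛ
  nlinarith [mul_nonneg hlo.le hΛ]

end Vale.Agent.P072
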