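import Vale.Agent.P072.Geometry

open Real Set Filter Topology
open scoped InnerProductSpace RealInnerProductSpace

namespace Vale.Agent.P072

namespace Sys

set_option linter.unusedSectionVars false

variable {E : Type*} [NormedAddCommGroup E] [InnerProductSpace ℝ E] {ι : Type*} [Fintype ι]
variable (S : Sys E ι)

/-- There are interior points close to a vertex with smaller entropy. -/
lemma exists_P_near_vertex {n b₀ : E} (hn : n ≠ 0) (hb₀ : b₀ ∈ S.F n) {β : ℝ}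
    (hβ : β < ⟪n, b₀⟫_ℝ) : ∃ p ∈ S.P, S.H p < S.H b₀ ∧ β ≤ ⟪n, p⟫_ℝ := by
  obtain ⟨k, hk⟩ := S.exists_active hb₀.1 (S.not_mem_P_of_mem_F hn hb₀)
  have hlim1 : Tendsto (fun s : ℝ => ⟪n, (1 - s) • b₀ + s • (0:E)⟫_ℝ) (𝓝[>] 0)
      (𝓝 (⟪n, b₀⟫_ℝ)) := by
    have hc : Continuous fun s : ℝ => ⟪n, (1 - s) • b₀ + s • (0:E)⟫_ℝ := by fun_prop
    have := hc.tendsto 0
    simp only [sub_zero, one_smul, smul_zero, add_zero] at this
    simpa using this.mono_left nhdsWithin_le_nhds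
  have hlim2 : Tendsto (fun s : ℝ => (S.H 0 - S.H b₀) + S.ell k 0 * Real.log s)
      (𝓝[>] 0) atBot := by
    apply Tendsto.add_atBot tendsto_const_nhds
    exact Tendsto.const_mul_atBot (S.zero_mem_P k) Real.tendsto_log_nhdsGT_zero
  have hev := ((hlim1.eventually_const_lt hβ).and (hlim2.eventually (eventually_lt_atBot 0))).and
      (Ioo_mem_nhdsGT (zero_lt_one : (0:ℝ) < 1))
  obtain ⟨s, ⟨hs1, hs2⟩, hs3⟩ := hev.exists
  refine ⟨_, S.comb_mem_P hb₀.1 S.zero_mem_P hs3.1 hs3.2.le, ?_, hs1.le⟩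
  have h2 := S.H_comb_le_log hb₀.1 S.zero_mem_P hk hs3.1 hs3.2.le
  have h4 : s * ((S.H 0 - S.H b₀) + S.ell k 0 * Real.log s) < 0 :=
    mul_neg_of_pos_of_neg hs3.1 hs2
  nlinarith

/-- Separation lemma: strips in directions not exposing the same face as `n` stay strictly below
some admissible level in direction `n`. -/
lemma separation [FiniteDimensional ℝ E] {n n' v : E} (hn : n ≠ 0)
    (hsub : (S.F n).Subsingleton) (hne : S.F n' ≠ S.F n) (hv : v ≠ 0) (C : ℝ) :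
    ∃ p ∈ S.P, (∀ b ∈ S.F n, S.H p < S.H b) ∧
      ∀ a ∈ S.P, ∀ t : ℝ, 0 ≤ t → a - t • v ∈ S.P → ⟪S.Th (a - t • v), v⟫_ℝ = 0 →
        (∃ μ : ℝ, 0 ≤ μ ∧ S.Th (a - t • v) = μ • n') → ⟪S.Th a, v⟫_ℝ ≤ C →
        ⟪n, a⟫_ℝ < ⟪n, p⟫_ℝ := by
  rcases hsub.eq_empty_or_singleton with hE | ⟨b₀, hF⟩
  · -- unbounded type
    have : ∃ b', b' ∈ S.F n' := by
      by_contra h
      push Not at h
      apply hne
      rw [hE]
      exact Set.eq_empty_iff_forall_notMem.2 h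
    obtain ⟨b', hb'⟩ := this
    -- choose a coordinate involved in v
    have hk : ∃ k, ⟪S.g k, v⟫_ℝ ≠ 0 := by
      by_contra h
      push Not at h
      exact hv (S.hg v h)
    obtain ⟨k, hk⟩ := hk
    set K := {a | a ∈ S.Pc ∧ S.H a ≤ S.H b'} with hK
    have hKc : IsCompact K := S.isCompact_sublevel _
    obtain ⟨R, hR⟩ := isBounded_iff_forall_norm_le.1 hKc.isBounded
    obtain ⟨M, hM⟩ := isBounded_iff_forall_norm_le.1
      (hKc.image (S.continuous_ell k)).isBounded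
    have hgpos : 0 < |⟪S.g k, v⟫_ℝ| := abs_pos.2 hk
    set T := Real.exp (C / |⟪S.g k, v⟫_ℝ|) * M / |⟪S.g k, v⟫_ℝ| with hT
    set A := Metric.closedBall (0:E) (R + T * ‖v‖) ∩ S.Pc with hA
    have hAc : IsCompact A := (isCompact_closedBall _ _).inter_right S.isClosed_Pc
    have key : ∀ a ∈ S.P, ∀ t : ℝ, 0 ≤ t → a - t • v ∈ S.P → ⟪S.Th (a - t • v), v⟫_ℝ = 0 →
        (∃ μ : ℝ, 0 ≤ μ ∧ S.Th (a - t • v) = μ • n') → ⟪S.Th a, v⟫_ℝ ≤ C → a ∈ A := by
      intro a ha t ht hr h0 ⟨μ, hμ, hμn⟩ hC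
      have h1 := S.H_ge hb'.1 hr
      rw [hμn, real_inner_smul_left, inner_sub_right] at h1
      have h2 := hb'.2 _ (S.P_subset_Pc hr)
      have h3 : 0 ≤ μ * (⟪n', b'⟫_ℝ - ⟪n', a - t • v⟫_ℝ) := mul_nonneg hμ (by linarith)
      have hrK : a - t • v ∈ K := ⟨S.P_subset_Pc hr, by linarith⟩
      have h4 := hR _ hrK
      have h5 : S.ell k (a - t • v) ≤ M := by
        have := hM _ (Set.mem_image_of_mem _ hrK)
        exact (le_abs_self _).trans this
      have h6 := (S.strip_displacement ha hr ht h0 hC hk).2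
      have h7 : t ≤ T := by
        rw [hT, le_div_iff₀ hgpos]
        exact h6.trans (mul_le_mul_of_nonneg_left h5 (Real.exp_pos _).le)
      refine ⟨?_, S.P_subset_Pc ha⟩
      rw [mem_closedBall_zero_iff]
      calc ‖a‖ = ‖(a - t • v) + t • v‖ := by rw [sub_add_cancel]
        _ ≤ ‖a - t • v‖ + ‖t • v‖ := norm_add_le _ _
        _ ≤ R + T * ‖v‖ := by
          rw [norm_smul, Real.norm_of_nonneg ht]
          exact add_le_add h4 (mul_le_mul_of_nonneg_right h7 (norm_nonneg _))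
    rcases A.eq_empty_or_nonempty with hAe | hAne
    · refine ⟨0, S.zero_mem_P, by simp [hE], fun a ha t ht hr h0 hμ hC => ?_⟩
      have := key a ha t ht hr h0 hμ hC
      rw [hAe] at this
      exact absurd this (Set.notMem_empty _)
    · obtain ⟨b, hb, hmax⟩ := hAc.exists_isMaxOn hAne (f := fun a => ⟪n, a⟫_ℝ) (by fun_prop)
      obtain ⟨p, hp, hlt⟩ := S.exists_P_gt hb.2 (n := n) (by rw [hE]; exact Set.notMem_empty _)
      refine ⟨p, hp, by simp [hE], fun a ha t ht hr h0 hμ hC => ?_⟩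
      have := hmax (key a ha t ht hr h0 hμ hC)
      simp only [mem_ofPred_eq] at this
      exact lt_of_le_of_lt this hlt
  · -- vertex type
    have hb₀ : b₀ ∈ S.F n := by rw [hF]; rfl
    obtain ⟨U, hU, hUr⟩ := S.ray_avoids_vertex hn hF (n' := n') (by rw [← hF]; exact hne)
    obtain ⟨ρ, hρ, hball⟩ := Metric.mem_nhds_iff.1 hU
    obtain ⟨k, hk0, hkv⟩ := S.vertex_active hF hv
    have hgpos : 0 < |⟪S.g k, v⟫_ℝ| := abs_pos.2 hkv
    set K := Real.exp (C / |⟪S.g k, v⟫_ℝ|) / |⟪S.g k, v⟫_ℝ| with hK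
    have hU1 : {a : E | ‖a - b₀‖ < ρ / 2 ∧ K * S.ell k a * ‖v‖ < ρ / 2} ∈ 𝓝 b₀ := by
      have c1 : Continuous fun a : E => ‖a - b₀‖ := by fun_prop
      have c2 : Continuous fun a : E => K * S.ell k a * ‖v‖ := by
        have := S.continuous_ell k; fun_prop
      have e1 : ∀ᶠ a in 𝓝 b₀, ‖a - b₀‖ < ρ / 2 :=
        (c1.tendsto b₀).eventually_lt_const (by simpa using half_pos hρ)
      have e2 : ∀ᶠ a in 𝓝 b₀, K * S.ell k a * ‖v‖ < ρ / 2 :=
        (c2.tendsto b₀).eventually_lt_const (by rw [hk0]; simpa using half_pos hρ)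
      exact e1.and e2
    obtain ⟨β, hβ, hnear⟩ := S.near_vertex hF hU1
    obtain ⟨p, hp, hpH, hpn⟩ := S.exists_P_near_vertex hn hb₀ hβ
    refine ⟨p, hp, ?_, fun a ha t ht hr h0 hμ hC => ?_⟩
    · intro b hb
      rw [hF] at hb
      rw [show b = b₀ from hb]; exact hpH
    · by_contra hcon
      push Not at hcon
      obtain ⟨h1, h2⟩ := hnear a (S.P_subset_Pc ha) (hpn.trans hcon)
      obtain ⟨μ, hμ0, hμn⟩ := hμ
      have h3 := (S.strip_displacement ha hr ht h0 hC hkv).1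
      have h4 : t ≤ K * S.ell k a := by
        rw [hK, div_mul_eq_mul_div, le_div_iff₀ hgpos]; exact h3
      have h5 : a - t • v ∈ U := by
        apply hball
        rw [Metric.mem_ball, dist_eq_norm]
        calc ‖a - t • v - b₀‖ = ‖(a - b₀) - t • v‖ := by congr 1; abel
          _ ≤ ‖a - b₀‖ + ‖t • v‖ := norm_sub_le _ _
          _ < ρ / 2 + ρ / 2 := by
            apply add_lt_add h1
            rw [norm_smul, Real.norm_of_nonneg ht]
            exact lt_of_le_of_lt (mul_le_mul_of_nonneg_right h4 (norm_nonneg _)) h2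
          _ = ρ := by ring
      exact hUr _ h5 hr μ hμ0 hμn

/-- Support points of entropy sublevel sets. -/
lemma exists_support [FiniteDimensional ℝ E] {n : E} {s : ℝ} (hn : n ≠ 0)
    (hne : ∃ p ∈ S.P, S.H p < s) (hs : ∀ b ∈ S.F n, s < S.H b) :
    ∃ r ∈ S.P, S.H r = s ∧ (∃ lam : ℝ, 0 < lam ∧ S.Th r = lam • n) ∧
      ∀ a ∈ S.Pc, S.H a ≤ s → ⟪n, a⟫_ℝ ≤ ⟪n, r⟫_ℝ := by
  obtain ⟨p₀, hp₀, hp₀s⟩ := hne
  set A := {a | a ∈ S.Pc ∧ S.H a ≤ s} with hA
  have hAc : IsCompact A := S.isCompact_sublevel s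
  obtain ⟨r, hrA, hmax⟩ := hAc.exists_isMaxOn ⟨p₀, S.P_subset_Pc hp₀, hp₀s.le⟩
    (f := fun a => ⟪n, a⟫_ℝ) (by fun_prop)
  have hmax' : ∀ a ∈ S.Pc, S.H a ≤ s → ⟪n, a⟫_ℝ ≤ ⟪n, r⟫_ℝ := fun a ha has => hmax ⟨ha, has⟩
  have hrF : r ∉ S.F n := fun h => absurd (hs r h) (not_lt.2 hrA.2)
  obtain ⟨p, hp, hlt⟩ := S.exists_P_gt hrA.1 hrF
  have hinc : ∀ σ : ℝ, 0 < σ → ⟪n, r⟫_ℝ < ⟪n, (1 - σ) • r + σ • p⟫_ℝ := by
    intro σ hσ
    rw [inner_add_right, inner_smul_right, inner_smul_right]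
    nlinarith
  have hrP : r ∈ S.P := by
    by_contra hcon
    obtain ⟨k, hk⟩ := S.exists_active hrA.1 hcon
    have hlim : Tendsto (fun σ : ℝ => (S.H p - S.H r) + S.ell k p * Real.log σ)
        (𝓝[>] 0) atBot := by
      apply Tendsto.add_atBot tendsto_const_nhds
      exact Tendsto.const_mul_atBot (hp k) Real.tendsto_log_nhdsGT_zero
    obtain ⟨σ, hσ1, hσ2⟩ := ((hlim.eventually (eventually_lt_atBot (0:ℝ))).and
      (Ioo_mem_nhdsGT (zero_lt_one : (0:ℝ) < 1))).exists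
    have h2 := S.H_comb_le_log hrA.1 hp hk hσ2.1 hσ2.2.le
    have h4 : σ * ((S.H p - S.H r) + S.ell k p * Real.log σ) < 0 :=
      mul_neg_of_pos_of_neg hσ2.1 hσ1
    have h5 : S.H ((1 - σ) • r + σ • p) ≤ s := by
      have := hrA.2
      nlinarith
    have h6 := hmax' _ (S.P_subset_Pc (S.comb_mem_P hrA.1 hp hσ2.1 hσ2.2.le)) h5
    exact absurd (hinc σ hσ2.1) (not_lt.2 h6)
  have hrs : S.H r = s := by
    apply le_antisymm hrA.2
    by_contra hcon
    push Not at hcon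
    have hlim : Tendsto (fun σ : ℝ => S.H ((1 - σ) • r + σ • p)) (𝓝[>] 0) (𝓝 (S.H r)) := by
      have hc : Continuous fun σ : ℝ => S.H ((1 - σ) • r + σ • p) :=
        S.continuous_H.comp (by fun_prop)
      have := hc.tendsto 0
      simp only [sub_zero, one_smul, zero_smul, add_zero] at this
      exact this.mono_left nhdsWithin_le_nhds
    obtain ⟨σ, hσ1, hσ2⟩ := ((hlim.eventually_lt_const hcon).and
      (Ioo_mem_nhdsGT (zero_lt_one : (0:ℝ) < 1))).exists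
    have h6 := hmax' _ (S.P_subset_Pc (S.comb_mem_P hrA.1 hp hσ2.1 hσ2.2.le)) hσ1.le
    exact absurd (hinc σ hσ2.1) (not_lt.2 h6)
  have hLag : ∀ w : E, 0 < ⟪n, w⟫_ℝ → 0 ≤ ⟪S.Th r, w⟫_ℝ := by
    intro w hw
    by_contra hcon
    push Not at hcon
    have hd := S.hasDerivAt_H_line hrP w
    have hslope : ∀ᶠ σ : ℝ in 𝓝[>] 0, S.H (r + σ • w) < S.H r := by
      have h1 := (hasDerivAt_iff_tendsto_slope_zero.1 hd)
      have h2 : ∀ᶠ σ : ℝ in 𝓝[≠] 0,
          σ⁻¹ • (S.H (r + (0 + σ) • w) - S.H (r + (0:ℝ) • w)) < 0 :=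
        h1.eventually_lt_const hcon
      have h3 : ∀ᶠ σ : ℝ in 𝓝[>] 0,
          σ⁻¹ • (S.H (r + (0 + σ) • w) - S.H (r + (0:ℝ) • w)) < 0 :=
        h2.filter_mono (nhdsWithin_mono _ fun x hx => ne_of_gt hx)
      filter_upwards [h3, self_mem_nhdsWithin] with σ hσ hσ0
      have hσ0' : (0:ℝ) < σ := hσ0
      simp only [zero_add, zero_smul, add_zero, smul_eq_mul] at hσ
      have := (mul_neg_iff.1 hσ)
      rcases this with h | h
      · linarith [h.2]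
      · exact absurd h.1 (not_lt.2 (inv_pos.2 hσ0').le)
    have hcont : ContinuousAt (fun s : ℝ => r + s • w) 0 := by fun_prop
    have hnb : ∀ᶠ s : ℝ in 𝓝[>] 0, r + s • w ∈ S.P := by
      apply (hcont.mono_left nhdsWithin_le_nhds).eventually_mem
      simpa using S.isOpen_P.mem_nhds hrP
    obtain ⟨σ, ⟨hσ1, hσ2⟩, hσ3⟩ := ((hslope.and hnb).and self_mem_nhdsWithin).exists
    have hσ3' : (0:ℝ) < σ := hσ3
    have h6 := hmax' _ (S.P_subset_Pc hσ2) (by rw [← hrs]; exact hσ1.le)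
    rw [inner_add_right, inner_smul_right] at h6
    have : 0 < σ * ⟪n, w⟫_ℝ := mul_pos hσ3' hw
    linarith
  refine ⟨r, hrP, hrs, ?_, hmax'⟩
  -- decompose Th r
  have hnn : 0 < ⟪n, n⟫_ℝ := by rw [real_inner_self_eq_norm_sq]; have := norm_pos_iff.2 hn; positivity
  set lam := ⟪S.Th r, n⟫_ℝ / ⟪n, n⟫_ℝ with hlam
  set z := S.Th r - lam • n with hz
  have hzn : ⟪z, n⟫_ℝ = 0 := by
    rw [hz, inner_sub_left, real_inner_smul_left, hlam]; field_simp; ring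
  have hnz : ⟪n, z⟫_ℝ = 0 := by rw [real_inner_comm]; exact hzn
  have hz0 : z = 0 := by
    by_contra hzne
    have hzz : 0 < ⟪z, z⟫_ℝ := by
      rw [real_inner_self_eq_norm_sq]; have := norm_pos_iff.2 hzne; positivity
    have hTz : ⟪S.Th r, z⟫_ℝ = ⟪z, z⟫_ℝ := by
      have : S.Th r = z + lam • n := by rw [hz]; abel
      nth_rw 1 [this]
      rw [inner_add_left, real_inner_smul_left, hnz, mul_zero, add_zero]
    have hTn : ⟪S.Th r, n⟫_ℝ = lam * ⟪n, n⟫_ℝ := by rw [hlam]; field_simp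
    set ε := ⟪z, z⟫_ℝ / (2 * (|lam| * ⟪n, n⟫_ℝ + 1)) with hε
    have hεpos : 0 < ε := by positivity
    have h1 : 0 < ⟪n, ε • n - z⟫_ℝ := by
      rw [inner_sub_right, inner_smul_right, hnz, sub_zero]; positivity
    have h2 := hLag _ h1
    rw [inner_sub_right, inner_smul_right, hTz, hTn] at h2
    have h3 : ε * (lam * ⟪n, n⟫_ℝ) ≤ ε * (|lam| * ⟪n, n⟫_ℝ + 1) := by
      apply mul_le_mul_of_nonneg_left _ hεpos.le
      have := mul_le_mul_of_nonneg_right (le_abs_self lam) hnn.le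
      linarith
    have h4 : ε * (|lam| * ⟪n, n⟫_ℝ + 1) = ⟪z, z⟫_ℝ / 2 := by
      rw [hε]
      have : (|lam| * ⟪n, n⟫_ℝ + 1) ≠ 0 := by positivity
      field_simp
    linarith
  have hTh : S.Th r = lam • n := by rw [← sub_eq_zero, ← hz]; exact hz0
  refine ⟨lam, ?_, hTh⟩
  have hlam0 : 0 ≤ lam := div_nonneg (hLag n hnn) hnn.le
  apply lt_of_le_of_ne hlam0
  intro h0
  have h1 := S.H_ge (S.P_subset_Pc hp₀) hrP
  rw [hTh, ← h0, zero_smul, inner_zero_left, add_zero, hrs] at h1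
  linarith

/-- The multiplier of a support point is large if the level is above that of a ray point. -/
lemma lam_ge {n r r₀ : E} {lam lam₀ : ℝ} (hr : r ∈ S.P) (hr₀ : r₀ ∈ S.P) (hlam : 0 < lam)
    (hTh : S.Th r = lam • n) (hTh₀ : S.Th r₀ = lam₀ • n) (hlt : S.H r₀ < S.H r) :
    lam₀ ≤ lam := by
  have h1 := S.H_ge (S.P_subset_Pc hr) hr₀
  have h2 := S.H_ge (S.P_subset_Pc hr₀) hr
  rw [hTh₀, real_inner_smul_left, inner_sub_right] at h1
  rw [hTh, real_inner_smul_left, inner_sub_right] at h2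
  have h3 : 0 < ⟪n, r⟫_ℝ - ⟪n, r₀⟫_ℝ := by
    by_contra hcon
    push Not at hcon
    have : lam * (⟪n, r₀⟫_ℝ - ⟪n, r⟫_ℝ) ≥ 0 := mul_nonneg hlam.le (by linarith)
    linarith
  by_contra hcon
  push Not at hcon
  have : 0 < (lam₀ - lam) * (⟪n, r⟫_ℝ - ⟪n, r₀⟫_ℝ) := mul_pos (by linarith) h3
  nlinarith

/-- Existence of a ray point with given multiplier. -/
lemma exists_ray [FiniteDimensional ℝ E] (θ : E) : ∃ r ∈ S.P, S.Th r = θ := by
  obtain ⟨r, hr, -, h⟩ := S.exists_center ⊤ S.zero_mem_P θ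
  refine ⟨r, hr, ?_⟩
  have := h (S.Th r - θ) Submodule.mem_top
  rw [← sub_eq_zero, ← inner_sub_left] at this
  exact sub_eq_zero.1 (inner_self_eq_zero.1 this)

/-- The Bregman argument: no strip point sits on the supporting line. -/
lemma bregman_contra {n v r a₁ : E} {s lam C Kc t : ℝ} (hr : r ∈ S.P) (hrs : S.H r = s)
    (hTh : S.Th r = lam • n) (hC : 0 < C)
    (hKc : ∀ k, ⟪S.g k, v⟫_ℝ ≠ 0 →
      Real.exp (C / |⟪S.g k, v⟫_ℝ|) ≤ Kc * |⟪S.g k, v⟫_ℝ|)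
    (hlam : (1 + C * Kc) * (∑ k, |⟪S.g k, v⟫_ℝ|) < lam * ⟪n, v⟫_ℝ - C)
    (ha₁ : a₁ ∈ S.P) (hna : ⟪n, a₁⟫_ℝ = ⟪n, r⟫_ℝ) (hThv : ⟪S.Th a₁, v⟫_ℝ = C)
    (ht : 0 ≤ t) (hc : a₁ - t • v ∈ S.P) (hc0 : ⟪S.Th (a₁ - t • v), v⟫_ℝ = 0)
    (hcs : S.H (a₁ - t • v) ≤ s) : False := by
  -- upper bound for the entropy at a₁
  have h1 := S.H_ge (S.P_subset_Pc hc) ha₁
  have e1 : a₁ - t • v - a₁ = -(t • v) := by abel
  rw [e1, inner_neg_right, inner_smul_right, hThv] at h1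
  -- Bregman distance to r
  have h2 : ∀ k, breg (S.ell k a₁) (S.ell k r) ≤ t * C := by
    intro k
    have := S.breg_le_sum (S.P_subset_Pc ha₁) hr k
    rw [hTh, real_inner_smul_left, inner_sub_right, hna, sub_self, mul_zero, sub_zero, hrs] at this
    linarith
  -- a coordinate with large displacement
  have h3 : ∑ k, (Real.log (S.ell k r) - Real.log (S.ell k a₁)) * ⟪S.g k, v⟫_ℝ =
      lam * ⟪n, v⟫_ℝ - C := by
    have : ∑ k, (Real.log (S.ell k r) - Real.log (S.ell k a₁)) * ⟪S.g k, v⟫_ℝ =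
        ⟪S.Th r, v⟫_ℝ - ⟪S.Th a₁, v⟫_ℝ := by
      rw [S.inner_Th, S.inner_Th, ← Finset.sum_sub_distrib]
      refine Finset.sum_congr rfl fun j _ => by ring
    rw [this, hThv, hTh, real_inner_smul_left]
  have h4 : ∃ k, ⟪S.g k, v⟫_ℝ ≠ 0 ∧
      1 + C * Kc < |Real.log (S.ell k r) - Real.log (S.ell k a₁)| := by
    by_contra hcon
    push Not at hcon
    have : ∑ k, (Real.log (S.ell k r) - Real.log (S.ell k a₁)) * ⟪S.g k, v⟫_ℝ ≤
        ∑ k, (1 + C * Kc) * |⟪S.g k, v⟫_ℝ| := by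
      refine Finset.sum_le_sum fun k _ => ?_
      by_cases hk : ⟪S.g k, v⟫_ℝ = 0
      · rw [hk]; simp
      · refine (le_abs_self _).trans ?_
        rw [abs_mul]
        exact mul_le_mul_of_nonneg_right (hcon k hk) (abs_nonneg _)
    rw [h3, ← Finset.mul_sum] at this
    linarith
  obtain ⟨k, hk, hk2⟩ := h4
  have h5 := breg_lower (ha₁ k) (hr k)
  have h6 := (S.strip_displacement ha₁ hc ht hc0 hThv.le hk).1
  have hgpos : 0 < |⟪S.g k, v⟫_ℝ| := abs_pos.2 hk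
  have h7 : t ≤ Kc * S.ell k a₁ := by
    have : t * |⟪S.g k, v⟫_ℝ| ≤ (Kc * S.ell k a₁) * |⟪S.g k, v⟫_ℝ| := by
      refine h6.trans ?_
      have := mul_le_mul_of_nonneg_right (hKc k hk) (ha₁ k).le
      nlinarith
    exact le_of_mul_le_mul_right this hgpos
  have h8 := h2 k
  have h9 : S.ell k a₁ * (C * Kc) <
      S.ell k a₁ * (|Real.log (S.ell k r) - Real.log (S.ell k a₁)| - 1) :=
    mul_lt_mul_of_pos_left (by linarith) (ha₁ k)
  have h10 : t * C ≤ S.ell k a₁ * (C * Kc) := by nlinarith [mul_le_mul_of_nonneg_right h7 hC.le]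
  linarith

end Sys

end Vale.Agent.P072
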