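import Vale.Agent.P072.Rounding

open Set Filter Topology Real

namespace Vale.Agent.P072

lemma dt_const (q : ℕ) (s : ℝ) (z : ℕ → ℝ) :
    dt q (fun _ => s) z = s * ∑ i ∈ Finset.range q, z i := by
  unfold dt; rw [Finset.mul_sum]

/-- The families used for the facets. -/
theorem exists_topFam {q : ℕ} (𝒯 : Tower q) (hq : 1 ≤ q) {s : ℝ} (hs : s = 1 ∨ s = -1) :
    ∃ lo : ℝ, 0 < lo ∧ ∀ T : ℝ, ∃ F : Finset ((ℕ → ℝ) × (ℝ → ℝ)),
      (∀ p ∈ F, p.1 0 = s) ∧ (∀ p ∈ F, ∀ i k, i ≤ k → p.1 k ≤ p.1 i) ∧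
      ((fun _ => s, fun _ => (0:ℝ)) ∈ F) ∧ (∀ p ∈ F, Tame (s - 4 * lo) p.2) ∧
      ∀ᶠ Λ in atTop, ∀ z : ℕ → ℝ, (∀ i < q, exp (-T * Λ) ≤ z i) →
        (∀ i k, i ≤ k → k < q → z k ≤ z i) →
        (∀ p ∈ F, dt q p.1 z - p.2 Λ ≤ s * exp (s * Λ)) →
        ∀ p ∈ F, dt q p.1 z - p.2 Λ = s * exp (s * Λ) →
        ∀ u ∈ 𝒯.V q, 0 < dt q u p.1 → lo * Λ ≤ ∑ i ∈ Finset.range q, u i * log (z i) := by
  obtain ⟨c, A, hc0, hc1, hA1, hcA⟩ := 𝒯.exists_consts
  obtain ⟨M, hM2, hM⟩ := select 𝒯 (q - 1)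
  have hM0 : 0 < M := by linarith
  have hGood : Good 𝒯 1 (fun _ => s) c := by
    intro u hu hne
    have h1 : dt 1 u (fun _ => s) = u 0 * s := by simp [dt]
    rw [h1] at hne ⊢
    have h2 : |s| = 1 := by rcases hs with h | h <;> simp [h]
    rw [abs_mul, h2, mul_one]
    exact (hcA 1 hq u hu 0).1 (left_ne_zero_of_mul hne)
  refine ⟨c / M, by positivity, fun T => ?_⟩
  set lo := c / M with hlo
  have hlo0 : 0 < lo := by positivity
  obtain ⟨F, hF, hSel⟩ := hM 1 (by omega) le_rfl (fun _ => s) lo c T hlo0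
    (by rw [hlo]; field_simp; exact le_rfl) hGood
  have hconst : ((fun _ => s, fun _ => (0:ℝ)) : (ℕ → ℝ) × (ℝ → ℝ)) ∈ F := by
    have h1 := hF.const
    have h2 : cst 1 (fun _ : ℕ => s) = fun _ => s := by ext i; simp [cst]
    rwa [h2] at h1
  have h0 : ∀ p ∈ F, p.1 0 = s := fun p hp => hF.pre p hp 0 one_pos
  have hanti : ∀ p ∈ F, ∀ i k, i ≤ k → p.1 k ≤ p.1 i := fun p hp i k hik =>
    hF.anti p hp i k (by omega) hik
  have htame : ∀ p ∈ F, Tame (s - 4 * lo) p.2 := hF.tame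
  refine ⟨F, h0, hanti, hconst, htame, ?_⟩
  obtain ⟨R, hR0, hR⟩ := exists_uniform_bd F htame
  have hev1 : ∀ᶠ Λ in atTop, R * Real.exp ((s - 4 * lo) * Λ) ≤ 1 / 2 * Real.exp (s * Λ) :=
    eventually_exp_le (by linarith) (by norm_num)
  have hev2 : ∀ᶠ Λ in atTop, log (2 * q) ≤ lo * Λ := by
    have : Tendsto (fun Λ : ℝ => lo * Λ) atTop atTop := tendsto_id.const_mul_atTop hlo0
    exact this.eventually_ge_atTop _
  unfold Sel at hSel
  filter_upwards [hSel, hev1, hev2, eventually_ge_atTop 0] with Λ h1 h2 h3 hΛ z hzT hzanti hle p hp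
    heq u hu hpos
  have hz0 : ∀ i < q, 0 < z i := fun i hi => (Real.exp_pos _).trans_le (hzT i hi)
  have hq1 : (1:ℝ) ≤ q := by exact_mod_cast hq
  have hlog2q : 0 ≤ log (2 * q) := Real.log_nonneg (by linarith)
  have hzz : 0 < z 0 := hz0 0 hq
  have hsum1 : z 0 ≤ ∑ i ∈ Finset.range q, z i :=
    Finset.single_le_sum (f := z) (fun i hi => (hz0 i (Finset.mem_range.1 hi)).le)
      (Finset.mem_range.2 hq)
  have hsum2 : ∑ i ∈ Finset.range q, z i ≤ q * z 0 := by
    have := Finset.sum_le_card_nsmul (Finset.range q) z (z 0)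
      (fun i hi => hzanti 0 i (Nat.zero_le _) (Finset.mem_range.1 hi))
    rwa [Finset.card_range, nsmul_eq_mul] at this
  have hc := hle _ hconst
  rw [dt_const] at hc
  simp only [sub_zero] at hc
  have hpR := hR p hp Λ hΛ
  have hdle : dt q p.1 z ≤ s * ∑ i ∈ Finset.range q, z i := by
    rw [← dt_const]
    unfold dt
    refine Finset.sum_le_sum fun i hi => ?_
    have h4 := hanti p hp 0 i (Nat.zero_le _)
    rw [h0 p hp] at h4
    exact mul_le_mul_of_nonneg_right h4 (hz0 i (Finset.mem_range.1 hi)).le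
  have hclose : |log (z 0) - s * Λ| ≤ lo * Λ := by
    rcases hs with h | h
    · subst h
      simp only [one_mul] at hc h2 heq hdle
      have hup : z 0 ≤ Real.exp Λ := by linarith
      have hlow : Real.exp Λ ≤ 2 * q * z 0 := by linarith
      rw [abs_le]
      constructor
      · have h5 := Real.log_le_log (Real.exp_pos _) hlow
        rw [Real.log_exp, Real.log_mul (by positivity) hzz.ne'] at h5
        linarith
      · have h5 := Real.log_le_log hzz hup
        rw [Real.log_exp] at h5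
        have h6 := mul_nonneg hlo0.le hΛ
        linarith
    · subst h
      have hlow : Real.exp (-1 * Λ) ≤ q * z 0 := by linarith
      have hup : z 0 ≤ 2 * Real.exp (-1 * Λ) := by
        have h5 := Real.exp_pos (-1 * Λ)
        linarith
      rw [abs_le]
      constructor
      · have h5 := Real.log_le_log (Real.exp_pos _) hlow
        rw [Real.log_exp, Real.log_mul (by positivity) hzz.ne'] at h5
        have h6 : log q ≤ log (2 * q) := Real.log_le_log (by linarith) (by linarith)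
        linarith
      · have h5 := Real.log_le_log hzz hup
        rw [Real.log_mul (by norm_num) (Real.exp_pos _).ne', Real.log_exp] at h5
        have h6 : log 2 ≤ log (2 * q) := Real.log_le_log (by norm_num) (by linarith)
        linarith
  refine h1 z hzT hzanti (fun i hi => ?_) p hp (fun p' hp' => ?_) u hu hpos
  · have : i = 0 := by omega
    rw [this]; exact hclose
  · rw [heq]; exact hle p' hp'

end Vale.Agent.P072
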